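import Vale.Agent.P298.H983.AJ3

/-!
# P298 / H983 (row E1-AJ), part 4: the Abhyankar-Jung theorem for simple roots off the axes
-/

open Set Filter Metric Topology Polynomial

noncomputable section

namespace Vale.Agent.P298.H983

variable {E : Type*} [NormedAddCommGroup E] [NormedSpace ℂ E] [FiniteDimensional ℂ E]

omit [NormedSpace ℂ E] [FiniteDimensional ℂ E] in
theorem frequently_snd_ne (q : E × ℂ) : ∃ᶠ y in 𝓝 q, y.2 ≠ 0 := by
  have h1 : ∃ᶠ c : ℂ in 𝓝 q.2, c ≠ 0 := by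
    have h2 : Dense ({0}ᶜ : Set ℂ) := dense_compl_singleton 0
    exact mem_closure_iff_frequently.1 (h2 q.2)
  have h2 : Tendsto (fun c : ℂ => ((q.1, c) : E × ℂ)) (𝓝 q.2) (𝓝 (q.1, q.2)) :=
    (Continuous.prodMk_right q.1).continuousAt
  exact h2.frequently (p := fun q : E × ℂ => q.2 ≠ 0) h1

omit [NormedSpace ℂ E] [FiniteDimensional ℂ E] in
theorem eqOn_of_snd_ne {Y : Type*} [TopologicalSpace Y] [T2Space Y] {S : Set (E × ℂ)}
    (hS : IsOpen S) {a b : E × ℂ → Y} (ha : ContinuousOn a S) (hb : ContinuousOn b S)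
    (h : ∀ x ∈ S, x.2 ≠ 0 → a x = b x) : ∀ x ∈ S, a x = b x :=
  Vale.Agent.P267.H338.eqOn_of_dense hS (fun x _ => frequently_snd_ne x) ha hb h

/-- the disc `‖a‖^K < A` -/
def powBall (K : ℕ) (A : ℝ) : Set ℂ := {a | ‖a‖ ^ K < A}

theorem powBall_eq {K : ℕ} (hK : K ≠ 0) {A : ℝ} (hA : 0 < A) :
    powBall K A = ball 0 (Real.exp (Real.log A / K)) := by
  ext a
  rw [mem_ball_zero_iff]
  have h1 : Real.exp (Real.log A / K) ^ K = A := by
    rw [← Real.exp_nat_mul, mul_div_cancel₀ _ (by exact_mod_cast hK), Real.exp_log hA]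
  change ‖a‖ ^ K < A ↔ _
  conv_lhs => rw [← h1]
  exact pow_lt_pow_iff_left₀ (norm_nonneg a) (Real.exp_pos _).le hK

theorem isOpen_powBall (K : ℕ) (A : ℝ) : IsOpen (powBall K A) :=
  isOpen_lt (continuous_norm.pow K) continuous_const

theorem pow_mem_ball {K : ℕ} {A : ℝ} {a : ℂ} (ha : a ∈ powBall K A) : a ^ K ∈ ball (0 : ℂ) A := by
  rw [mem_ball_zero_iff, norm_pow]
  exact ha

theorem exp_mem_powBall {K : ℕ} (hK : K ≠ 0) {A : ℝ} (hA : 0 < A) {w : ℂ} :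
    Complex.exp w ∈ powBall K A ↔ w.re < Real.log A / K := by
  rw [powBall_eq hK hA, mem_ball_zero_iff, Complex.norm_exp, Real.exp_lt_exp]

theorem exp_mem_ball {A : ℝ} (hA : 0 < A) {w : ℂ} :
    Complex.exp w ∈ ball (0 : ℂ) A ↔ w.re < Real.log A := by
  rw [mem_ball_zero_iff, Complex.norm_exp, ← Real.lt_log_iff_exp_lt hA]

theorem isOpen_half (M : ℝ) : IsOpen {w : ℂ | w.re < M} :=
  isOpen_lt Complex.continuous_re continuous_const

theorem convex_half (M : ℝ) : Convex ℝ {w : ℂ | w.re < M} :=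
  convex_halfSpace_re_lt M

/-- the primitive root of unity `e^{2πi/K}` -/
def omg (K : ℕ) : ℂ := Complex.exp (2 * Real.pi * Complex.I / K)

theorem norm_omg (K : ℕ) : ‖omg K‖ = 1 := by
  rw [omg, Complex.norm_exp]
  have h1 : (2 * Real.pi * Complex.I / K : ℂ).re = 0 := by
    rw [Complex.div_natCast_re]
    simp
  rw [h1, Real.exp_zero]

theorem omg_ne_zero (K : ℕ) : omg K ≠ 0 := Complex.exp_ne_zero _

theorem omg_pow {K : ℕ} (hK : K ≠ 0) : omg K ^ K = 1 := by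
  rw [omg, ← Complex.exp_nat_mul, mul_div_cancel₀ _ (by exact_mod_cast hK)]
  exact Complex.exp_two_pi_mul_I

theorem omg_mul_mem {K : ℕ} {A : ℝ} {a : ℂ} (ha : a ∈ powBall K A) : omg K * a ∈ powBall K A := by
  change ‖omg K * a‖ ^ K < A
  rw [norm_mul, norm_omg, one_mul]
  exact ha

theorem omg_mul_exp {K : ℕ} (w : ℂ) :
    omg K * Complex.exp w = Complex.exp (w + 2 * Real.pi * Complex.I / K) := by
  rw [Complex.exp_add, omg, mul_comm]

namespace PFam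

variable {Ω : Set E} {n : ℕ} {P : E → ℂ[X]}

omit [FiniteDimensional ℂ E] in
/-- pullback of a family -/
theorem comp (h : PFam Ω n P) {E' : Type*} [NormedAddCommGroup E'] [NormedSpace ℂ E']
    {Ω' : Set E'} {φ : E' → E} (hφ : DifferentiableOn ℂ φ Ω') (hm : MapsTo φ Ω' Ω) :
    PFam Ω' n (fun q => P (φ q)) :=
  ⟨fun _ hq => h.monic _ (hm hq), fun _ hq => h.deg _ (hm hq),
    fun i => (h.hol i).comp hφ hm⟩

omit [FiniteDimensional ℂ E] in
/-- roots are locally bounded -/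
theorem bdd_near (h : PFam Ω n P) {q₀ : E} (hΩ : IsOpen Ω) (hq₀ : q₀ ∈ Ω) :
    ∃ C : ℝ, ∀ᶠ q in 𝓝 q₀, ∀ z, (P q).eval z = 0 → ‖z‖ ≤ C := by
  have h1 : ContinuousAt (fun q => 1 + ∑ i ∈ Finset.range n, ‖(P q).coeff i‖) q₀ :=
    continuousAt_const.add (tendsto_finsetSum _ fun i _ =>
      ((h.hol i).continuousOn.continuousAt (hΩ.mem_nhds hq₀)).norm)
  refine ⟨(1 + ∑ i ∈ Finset.range n, ‖(P q₀).coeff i‖) + 1, ?_⟩
  filter_upwards [h1.eventually (eventually_lt_nhds (lt_add_one _)), hΩ.mem_nhds hq₀]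
    with q hq hqΩ z hz
  have h2 := norm_root_le (h.monic q hqΩ) hz
  rw [h.deg q hqΩ] at h2
  exact h2.trans hq.le

end PFam

omit [NormedAddCommGroup E] [NormedSpace ℂ E] [FiniteDimensional ℂ E] in
theorem Simple.comp {Ω : Set E} {P : E → ℂ[X]} (h : Simple Ω P) {E' : Type*}
    {Ω' : Set E'} {φ : E' → E} (hm : MapsTo φ Ω' Ω) :
    Simple Ω' (fun q => P (φ q)) := fun _ hq => h _ (hm hq)

omit [FiniteDimensional ℂ E] in
theorem bdd_descend {Ω₁ : Set E} (hΩ₁ : IsOpen Ω₁) {A : ℝ} (hA : 0 < A) {n : ℕ}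
    {P : E × ℂ → ℂ[X]} (h : PFam (Ω₁ ×ˢ ball 0 A) n P) {K : ℕ} (hK : K ≠ 0) {x₀ : E}
    (hx₀ : x₀ ∈ Ω₁) :
    ∃ C M' : ℝ, ∀ᶠ y in 𝓝 x₀, ∀ w : ℂ, w.re < M' → ∀ z,
      (P (y, Complex.exp (K * w))).eval z = 0 → ‖z‖ ≤ C := by
  obtain ⟨C, hC⟩ := h.bdd_near (hΩ₁.prod isOpen_ball) (q₀ := (x₀, 0)) ⟨hx₀, mem_ball_self hA⟩
  rw [nhds_prod_eq, Filter.eventually_prod_iff] at hC
  obtain ⟨pa, hpa, pb, hpb, hC⟩ := hC
  obtain ⟨ε, hε, hεb⟩ := Metric.eventually_nhds_iff_ball.1 hpb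
  refine ⟨C, Real.log ε / K, ?_⟩
  filter_upwards [hpa] with y hy w hw z hz
  refine hC hy (hεb _ ?_) z hz
  rw [exp_mem_ball hε]
  have h1 : (0 : ℝ) < K := by exact_mod_cast Nat.pos_of_ne_zero hK
  rw [lt_div_iff₀ h1] at hw
  simpa [mul_comm] using hw

/-- coefficients of a product of linear factors with continuous roots are continuous -/
theorem continuousOn_coeff_prod {X' : Type*} [TopologicalSpace X'] {S : Set X'} {n : ℕ}
    {ζ : Fin n → X' → ℂ} (hζ : ∀ i, ContinuousOn (ζ i) S) (j : ℕ) :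
    ContinuousOn (fun q => (∏ i, (X - C (ζ i q))).coeff j) S := by
  have key : ∀ s : Finset (Fin n), ∀ j, ContinuousOn (fun q =>
      (∏ i ∈ s, (X - C (ζ i q))).coeff j) S := by
    classical
    intro s
    induction s using Finset.induction_on with
    | empty =>
      intro j
      simpa using continuousOn_const
    | insert a s ha ih =>
      intro j
      have h1 : ∀ q, (∏ i ∈ insert a s, (X - C (ζ i q))).coeff j =
          ((∏ i ∈ s, (X - C (ζ i q))) * X).coeff j -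
            (∏ i ∈ s, (X - C (ζ i q))).coeff j * ζ a q := by
        intro q
        rw [Finset.prod_insert ha, mul_comm, mul_sub, coeff_sub, coeff_mul_C]
      simp only [h1]
      refine ContinuousOn.sub ?_ ((ih j).mul (hζ a))
      rcases j with _ | j
      · simpa using continuousOn_const
      · simp only [coeff_mul_X]
        exact ih j
  exact key Finset.univ j

/-- **Puiseux theorem with parameters** (one puncture): a family of monic polynomials over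
`Ω₁ × {‖a‖ < A}` (`Ω₁` convex open) whose roots are simple for `a ≠ 0` splits completely after the
substitution `a = a'^K`, `n! ∣ K`. -/
theorem roots_one {Ω₁ : Set E} (hΩ₁ : IsOpen Ω₁) (hc₁ : Convex ℝ Ω₁) {A : ℝ} (hA : 0 < A)
    {n : ℕ} {P : E × ℂ → ℂ[X]} (h : PFam (Ω₁ ×ˢ ball 0 A) n P)
    (hs : Simple ((Ω₁ ×ˢ ball 0 A) ∩ {q | q.2 ≠ 0}) P) {K : ℕ} (hK : n.factorial ∣ K)
    (hK0 : K ≠ 0) :
    ∃ (ζ : Fin n → E × ℂ → ℂ) (σ : Equiv.Perm (Fin n)),
      (∀ i, DifferentiableOn ℂ (ζ i) (Ω₁ ×ˢ powBall K A)) ∧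
      (∀ q ∈ Ω₁ ×ˢ powBall K A, P (q.1, q.2 ^ K) = ∏ i, (X - C (ζ i q))) ∧
      (∀ q ∈ Ω₁ ×ˢ powBall K A, q.2 ≠ 0 → Function.Injective fun i => ζ i q) ∧
      ∀ i, ∀ q ∈ Ω₁ ×ˢ powBall K A, ζ i (q.1, omg K * q.2) = ζ (σ i) q := by
  set M : ℝ := Real.log A with hM
  have hKr : (0 : ℝ) < K := by exact_mod_cast Nat.pos_of_ne_zero hK0
  have hKc : (K : ℂ) ≠ 0 := by exact_mod_cast hK0
  -- pullback by the exponential
  have hE : DifferentiableOn ℂ (fun q : E × ℂ => ((q.1, Complex.exp q.2) : E × ℂ))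
      (Ω₁ ×ˢ {w : ℂ | w.re < M}) :=
    (differentiable_fst.prodMk (differentiable_snd.cexp)).differentiableOn
  have hEm : MapsTo (fun q : E × ℂ => ((q.1, Complex.exp q.2) : E × ℂ))
      (Ω₁ ×ˢ {w : ℂ | w.re < M}) ((Ω₁ ×ˢ ball 0 A) ∩ {q | q.2 ≠ 0}) := fun q hq =>
    ⟨⟨hq.1, (exp_mem_ball hA).2 hq.2⟩, Complex.exp_ne_zero _⟩
  have h1 : PFam (Ω₁ ×ˢ {w : ℂ | w.re < M}) n (fun q : E × ℂ => P (q.1, Complex.exp q.2)) :=
    h.comp hE fun q hq => (hEm hq).1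
  have hs1 : Simple (Ω₁ ×ˢ {w : ℂ | w.re < M}) (fun q : E × ℂ => P (q.1, Complex.exp q.2)) :=
    hs.comp hEm
  have hO1 : IsOpen (Ω₁ ×ˢ {w : ℂ | w.re < M}) := hΩ₁.prod (isOpen_half M)
  have hc1 : Convex ℝ (Ω₁ ×ˢ {w : ℂ | w.re < M}) := hc₁.prod (convex_half M)
  obtain ⟨z, hz1, hz2, hz3⟩ := h1.exists_roots hs1 hO1 hc1
  -- translation
  have hτm : ∀ q ∈ Ω₁ ×ˢ {w : ℂ | w.re < M},
      q + ((0, 2 * Real.pi * Complex.I) : E × ℂ) ∈ Ω₁ ×ˢ {w : ℂ | w.re < M} := by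
    rintro ⟨x, w⟩ ⟨hx, hw⟩
    refine ⟨by simpa using hx, ?_⟩
    change (w + 2 * Real.pi * Complex.I).re < M
    simpa using hw
  have hPτ : ∀ q ∈ Ω₁ ×ˢ {w : ℂ | w.re < M}, P ((q + ((0, 2 * Real.pi * Complex.I) : E × ℂ)).1,
      Complex.exp (q + ((0, 2 * Real.pi * Complex.I) : E × ℂ)).2) =
      P (q.1, Complex.exp q.2) := by
    rintro ⟨x, w⟩ -
    simp [Complex.exp_periodic w]
  obtain ⟨σ, hσ⟩ := h1.exists_perm hs1 hO1 hc1.isPreconnected hz1 hz2 hz3 hτm hPτ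
  have hσK := perm_pow_eq_one σ hK
  -- functions `G`
  have hGd : ∀ i, DifferentiableOn ℂ (fun q : E × ℂ => z i (q.1, K * q.2))
      (Ω₁ ×ˢ {w : ℂ | w.re < M / K}) := by
    intro i
    refine (hz1 i).comp (differentiable_fst.prodMk
      (differentiable_snd.const_mul (K : ℂ))).differentiableOn ?_
    rintro ⟨x, w⟩ ⟨hx, hw⟩
    refine ⟨hx, ?_⟩
    have hw' : w.re < M / K := hw
    rw [lt_div_iff₀ hKr] at hw'
    change ((K : ℂ) * w).re < M
    simpa [mul_comm] using hw'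
  have hmem : ∀ {w : ℂ}, w.re < M / K → ((K : ℂ) * w).re < M := by
    intro w hw
    rw [lt_div_iff₀ hKr] at hw
    simpa [mul_comm] using hw
  have hGp : ∀ i, ∀ x ∈ Ω₁, ∀ w : ℂ, w.re < M / K →
      z i (x, K * (w + 2 * Real.pi * Complex.I)) = z i (x, K * w) := by
    intro i x hx w hw
    have h2 := (iterate_perm hτm hσ K i (x, K * w) ⟨hx, hmem hw⟩).2
    rw [hσK] at h2
    simp only [Prod.smul_mk, smul_zero, Prod.mk_add_mk, add_zero, smul_eq_mul,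
      Equiv.Perm.coe_one, id_eq] at h2
    rw [← h2]
    congr 2
    ring
  have hzroot : ∀ i, ∀ q ∈ Ω₁ ×ˢ {w : ℂ | w.re < M}, (P (q.1, Complex.exp q.2)).eval (z i q) = 0 := by
    intro i q hq
    rw [hz3 q hq, eval_prod]
    exact Finset.prod_eq_zero (Finset.mem_univ i) (by simp)
  have hGb : ∀ i, ∀ x ∈ Ω₁, ∃ C M' : ℝ, ∀ᶠ y in 𝓝 x, ∀ w : ℂ, w.re < M' →
      ‖z i (y, K * w)‖ ≤ C := by
    intro i x hx
    obtain ⟨C, M', hC⟩ := bdd_descend hΩ₁ hA h hK0 hx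
    refine ⟨C, min M' (M / K), ?_⟩
    filter_upwards [hC, hΩ₁.mem_nhds hx] with y hy hyΩ w hw
    refine hy w (hw.trans_le (min_le_left _ _)) _ ?_
    exact hzroot i (y, K * w) ⟨hyΩ, hmem (hw.trans_le (min_le_right _ _))⟩
  choose Z hZ1 hZ2 using fun i => descend hΩ₁ (hGd i) (hGp i) (hGb i)
  rw [← powBall_eq hK0 hA] at hZ1
  have hSo : IsOpen (Ω₁ ×ˢ powBall K A) := hΩ₁.prod (isOpen_powBall K A)
  -- every nonzero point is an exponential
  have hexp : ∀ q ∈ Ω₁ ×ˢ powBall K A, q.2 ≠ 0 → ∃ w : ℂ, w.re < M / K ∧ Complex.exp w = q.2 := by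
    rintro ⟨x, a⟩ ⟨hx, ha⟩ ha0
    refine ⟨Complex.log a, ?_, Complex.exp_log ha0⟩
    rw [← exp_mem_powBall hK0 hA, Complex.exp_log ha0]
    exact ha
  refine ⟨Z, σ, hZ1, ?_, ?_, ?_⟩
  · have hpt : ∀ q ∈ Ω₁ ×ˢ powBall K A, q.2 ≠ 0 →
        P (q.1, q.2 ^ K) = ∏ i, (X - C (Z i q)) := by
      rintro ⟨x, a⟩ hq ha0
      obtain ⟨w, hw, rfl⟩ := hexp _ hq ha0
      have h2 := hz3 (x, K * w) ⟨hq.1, hmem hw⟩
      simp only at h2
      rw [Complex.exp_nat_mul] at h2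
      rw [h2]
      refine Finset.prod_congr rfl fun i _ => ?_
      rw [hZ2 i x hq.1 w hw]
    intro q hq
    refine Polynomial.ext fun j => ?_
    refine eqOn_of_snd_ne hSo (a := fun q : E × ℂ => (P (q.1, q.2 ^ K)).coeff j)
      (b := fun q => (∏ i, (X - C (Z i q))).coeff j) ?_ ?_ ?_ q hq
    · refine (h.hol j).continuousOn.comp
        (continuous_fst.prodMk (continuous_snd.pow K)).continuousOn ?_
      rintro ⟨x, a⟩ ⟨hx, ha⟩
      exact ⟨hx, pow_mem_ball ha⟩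
    · exact continuousOn_coeff_prod (fun i => (hZ1 i).continuousOn) j
    · intro q hq hq0
      rw [hpt q hq hq0]
  · rintro ⟨x, a⟩ hq ha0
    obtain ⟨w, hw, rfl⟩ := hexp _ hq ha0
    intro i j hij
    simp only at hij
    rw [hZ2 i x hq.1 w hw, hZ2 j x hq.1 w hw] at hij
    exact hz2 (x, K * w) ⟨hq.1, hmem hw⟩ hij
  · intro i
    refine eqOn_of_snd_ne hSo (a := fun q : E × ℂ => Z i (q.1, omg K * q.2)) (b := Z (σ i))
      ?_ (hZ1 _).continuousOn ?_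
    · refine (hZ1 i).continuousOn.comp
        (continuous_fst.prodMk (continuous_const.mul continuous_snd)).continuousOn ?_
      rintro ⟨x, a⟩ ⟨hx, ha⟩
      exact ⟨hx, omg_mul_mem ha⟩
    · rintro ⟨x, a⟩ hq ha0
      obtain ⟨w, hw, rfl⟩ := hexp _ hq ha0
      have hw' : (w + 2 * Real.pi * Complex.I / K).re < M / K := by
        rw [Complex.add_re, Complex.div_natCast_re]
        simpa using hw
      change Z i (x, omg K * Complex.exp w) = Z (σ i) (x, Complex.exp w)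
      rw [omg_mul_exp, hZ2 i x hq.1 _ hw', hZ2 (σ i) x hq.1 w hw]
      have h2 := hσ i (x, K * w) ⟨hq.1, hmem hw⟩
      simp only [Prod.mk_add_mk, add_zero] at h2
      rw [← h2]
      congr 2
      field_simp

/-- a punctured disc is connected -/
theorem isPreconnected_punctured {K : ℕ} (hK : K ≠ 0) {A : ℝ} (hA : 0 < A) :
    IsPreconnected {a : ℂ | a ∈ powBall K A ∧ a ≠ 0} := by
  have h1 : {a : ℂ | a ∈ powBall K A ∧ a ≠ 0} =
      Complex.exp '' {w : ℂ | w.re < Real.log A / K} := by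
    ext a
    constructor
    · rintro ⟨ha, ha0⟩
      refine ⟨Complex.log a, ?_, Complex.exp_log ha0⟩
      change (Complex.log a).re < _
      rw [← exp_mem_powBall hK hA, Complex.exp_log ha0]
      exact ha
    · rintro ⟨w, hw, rfl⟩
      exact ⟨(exp_mem_powBall hK hA).2 hw, Complex.exp_ne_zero w⟩
  rw [h1]
  exact (convex_half _).isPreconnected.image _ Complex.continuous_exp.continuousOn

/-- **Abhyankar-Jung theorem** for two punctures: a family of monic polynomials over a bidisc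
whose roots are simple off `ab = 0` splits completely after `a = a'^K`, `b = b'^K`, `n! ∣ K`. -/
theorem roots_two {A B : ℝ} (hA : 0 < A) (hB : 0 < B)
    {n : ℕ} {P : ℂ × ℂ → ℂ[X]} (h : PFam (ball 0 A ×ˢ ball 0 B) n P)
    (hs : Simple ((ball 0 A ×ˢ ball 0 B) ∩ {q | q.1 ≠ 0 ∧ q.2 ≠ 0}) P)
    {K : ℕ} (hK : n.factorial ∣ K) (hK0 : K ≠ 0) :
    ∃ (ζ : Fin n → ℂ × ℂ → ℂ) (σ ρ : Equiv.Perm (Fin n)),
      (∀ i, DifferentiableOn ℂ (ζ i) (powBall K A ×ˢ powBall K B)) ∧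
      (∀ q ∈ powBall K A ×ˢ powBall K B, P (q.1 ^ K, q.2 ^ K) = ∏ i, (X - C (ζ i q))) ∧
      (∀ q ∈ powBall K A ×ˢ powBall K B, q.1 ≠ 0 → q.2 ≠ 0 →
        Function.Injective fun i => ζ i q) ∧
      (∀ i, ∀ q ∈ powBall K A ×ˢ powBall K B, ζ i (omg K * q.1, q.2) = ζ (σ i) q) ∧
      (∀ i, ∀ q ∈ powBall K A ×ˢ powBall K B, ζ i (q.1, omg K * q.2) = ζ (ρ i) q) ∧
      σ * ρ = ρ * σ := by
  set M : ℝ := Real.log B with hM
  have hKr : (0 : ℝ) < K := by exact_mod_cast Nat.pos_of_ne_zero hK0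
  have hKc : (K : ℂ) ≠ 0 := by exact_mod_cast hK0
  -- step 1 : parameters `v`, puncture `a`
  have h1 : PFam ({v : ℂ | v.re < M} ×ˢ ball (0 : ℂ) A) n
      (fun q : ℂ × ℂ => P (q.2, Complex.exp q.1)) := by
    refine h.comp (φ := fun q : ℂ × ℂ => (q.2, Complex.exp q.1))
      (differentiable_snd.prodMk (differentiable_fst.cexp)).differentiableOn ?_
    rintro ⟨v, a⟩ ⟨hv, ha⟩
    exact ⟨ha, (exp_mem_ball hB).2 hv⟩
  have hs1 : Simple (({v : ℂ | v.re < M} ×ˢ ball (0 : ℂ) A) ∩ {q | q.2 ≠ 0})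
      (fun q : ℂ × ℂ => P (q.2, Complex.exp q.1)) := by
    refine hs.comp (φ := fun q : ℂ × ℂ => (q.2, Complex.exp q.1)) ?_
    rintro ⟨v, a⟩ ⟨⟨hv, ha⟩, ha0⟩
    exact ⟨⟨ha, (exp_mem_ball hB).2 hv⟩, ha0, Complex.exp_ne_zero _⟩
  obtain ⟨z, σ, hz1, hz2, hz3, hz4⟩ := roots_one (isOpen_half M) (convex_half M) hA h1 hs1 hK hK0
  -- step 2 : translation in `v`
  set U : Set (ℂ × ℂ) := {v : ℂ | v.re < M} ×ˢ {a : ℂ | a ∈ powBall K A ∧ a ≠ 0} with hU
  have hUo : IsOpen U := (isOpen_half M).prod ((isOpen_powBall K A).inter isOpen_ne)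
  have hUc : IsPreconnected U := (convex_half M).isPreconnected.prod
    (isPreconnected_punctured hK0 hA)
  have hUS : U ⊆ {v : ℂ | v.re < M} ×ˢ powBall K A := fun q hq => ⟨hq.1, hq.2.1⟩
  have h2 : PFam U n (fun q : ℂ × ℂ => P (q.2 ^ K, Complex.exp q.1)) := by
    refine h.comp (φ := fun q : ℂ × ℂ => (q.2 ^ K, Complex.exp q.1))
      ((differentiable_snd.pow K).prodMk (differentiable_fst.cexp)).differentiableOn ?_
    rintro ⟨v, a⟩ ⟨hv, ha, -⟩
    exact ⟨pow_mem_ball ha, (exp_mem_ball hB).2 hv⟩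
  have hs2 : Simple U (fun q : ℂ × ℂ => P (q.2 ^ K, Complex.exp q.1)) := by
    refine hs.comp (φ := fun q : ℂ × ℂ => (q.2 ^ K, Complex.exp q.1)) ?_
    rintro ⟨v, a⟩ ⟨hv, ha, ha0⟩
    exact ⟨⟨pow_mem_ball ha, (exp_mem_ball hB).2 hv⟩, pow_ne_zero K ha0, Complex.exp_ne_zero _⟩
  have hτm : ∀ q ∈ U, q + ((2 * Real.pi * Complex.I, 0) : ℂ × ℂ) ∈ U := by
    rintro ⟨v, a⟩ ⟨hv, ha⟩
    refine ⟨?_, by simpa using ha⟩
    change (v + 2 * Real.pi * Complex.I).re < M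
    simpa using hv
  have hPτ : ∀ q ∈ U, P ((q + ((2 * Real.pi * Complex.I, 0) : ℂ × ℂ)).2 ^ K,
      Complex.exp (q + ((2 * Real.pi * Complex.I, 0) : ℂ × ℂ)).1) =
      P (q.2 ^ K, Complex.exp q.1) := by
    rintro ⟨v, a⟩ -
    simp [Complex.exp_periodic v]
  obtain ⟨ρ, hρ⟩ := h2.exists_perm hs2 hUo hUc (fun i => (hz1 i).mono hUS)
    (fun q hq => hz3 q (hUS hq) hq.2.2) (fun q hq => hz2 q (hUS hq)) hτm hPτ
  have hρK := perm_pow_eq_one ρ hK
  have hmem : ∀ {w : ℂ}, w.re < M / K → ((K : ℂ) * w).re < M := by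
    intro w hw
    rw [lt_div_iff₀ hKr] at hw
    simpa [mul_comm] using hw
  -- step 3 : functions of `(a, w)`
  have hGd : ∀ i, DifferentiableOn ℂ (fun q : ℂ × ℂ => z i (K * q.2, q.1))
      (powBall K A ×ˢ {w : ℂ | w.re < M / K}) := by
    intro i
    refine (hz1 i).comp ((differentiable_snd.const_mul (K : ℂ)).prodMk
      differentiable_fst).differentiableOn ?_
    rintro ⟨a, w⟩ ⟨ha, hw⟩
    exact ⟨hmem hw, ha⟩
  have hdense : ∀ a ∈ powBall K A, ∃ᶠ c : ℂ in 𝓝 a, c ≠ 0 := by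
    intro a _
    have h2 : Dense ({0}ᶜ : Set ℂ) := dense_compl_singleton 0
    exact mem_closure_iff_frequently.1 (h2 a)
  have hext : ∀ i j, ∀ w w' : ℂ, w.re < M → w'.re < M →
      (∀ a ∈ powBall K A, a ≠ 0 → z i (w, a) = z j (w', a)) →
      ∀ a ∈ powBall K A, z i (w, a) = z j (w', a) := by
    intro i j w w' hw hw' hall
    refine Vale.Agent.P267.H338.eqOn_of_dense (isOpen_powBall K A) hdense ?_ ?_ hall
    · exact (hz1 i).continuousOn.comp (Continuous.prodMk_right w).continuousOn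
        fun a ha => ⟨hw, ha⟩
    · exact (hz1 j).continuousOn.comp (Continuous.prodMk_right w').continuousOn
        fun a ha => ⟨hw', ha⟩
  have hGp : ∀ i, ∀ a ∈ powBall K A, ∀ w : ℂ, w.re < M / K →
      z i (K * (w + 2 * Real.pi * Complex.I), a) = z i (K * w, a) := by
    intro i a ha w hw
    refine hext i i _ _ ?_ (hmem hw) ?_ a ha
    · have := hmem hw
      simpa using this
    · intro a ha ha0
      have h2 := (iterate_perm hτm hρ K i (K * w, a) ⟨hmem hw, ha, ha0⟩).2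
      rw [hρK] at h2
      simp only [Prod.smul_mk, Prod.mk_add_mk, add_zero, smul_eq_mul, mul_zero,
        Equiv.Perm.coe_one, id_eq] at h2
      rw [← h2]
      congr 2
      ring
  have h4 : PFam (powBall K A ×ˢ ball (0 : ℂ) B) n (fun q : ℂ × ℂ => P (q.1 ^ K, q.2)) := by
    refine h.comp (φ := fun q : ℂ × ℂ => (q.1 ^ K, q.2))
      ((differentiable_fst.pow K).prodMk differentiable_snd).differentiableOn ?_
    rintro ⟨a, b⟩ ⟨ha, hb⟩
    exact ⟨pow_mem_ball ha, hb⟩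
  have hzroot : ∀ i, ∀ a ∈ powBall K A, ∀ v : ℂ, v.re < M →
      (P (a ^ K, Complex.exp v)).eval (z i (v, a)) = 0 := by
    intro i a ha v hv
    have h5 := hz2 (v, a) ⟨hv, ha⟩
    simp only at h5
    rw [h5, eval_prod]
    exact Finset.prod_eq_zero (Finset.mem_univ i) (by simp)
  have hGb : ∀ i, ∀ a ∈ powBall K A, ∃ C M' : ℝ, ∀ᶠ y in 𝓝 a, ∀ w : ℂ, w.re < M' →
      ‖z i (K * w, y)‖ ≤ C := by
    intro i a ha
    obtain ⟨C, M', hC⟩ := bdd_descend (isOpen_powBall K A) hB h4 hK0 ha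
    refine ⟨C, min M' (M / K), ?_⟩
    filter_upwards [hC, (isOpen_powBall K A).mem_nhds ha] with y hy hyΩ w hw
    refine hy w (hw.trans_le (min_le_left _ _)) _ ?_
    exact hzroot i y hyΩ _ (hmem (hw.trans_le (min_le_right _ _)))
  choose Z hZ1 hZ2 using fun i => descend (isOpen_powBall K A) (hGd i) (hGp i) (hGb i)
  rw [← powBall_eq hK0 hB] at hZ1
  have hSo : IsOpen (powBall K A ×ˢ powBall K B) := (isOpen_powBall K A).prod (isOpen_powBall K B)
  have hexp : ∀ q ∈ powBall K A ×ˢ powBall K B, q.2 ≠ 0 →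
      ∃ w : ℂ, w.re < M / K ∧ Complex.exp w = q.2 := by
    rintro ⟨x, a⟩ ⟨hx, ha⟩ ha0
    refine ⟨Complex.log a, ?_, Complex.exp_log ha0⟩
    rw [← exp_mem_powBall hK0 hB, Complex.exp_log ha0]
    exact ha
  have hinj : ∀ q ∈ powBall K A ×ˢ powBall K B, q.1 ≠ 0 → q.2 ≠ 0 →
      Function.Injective fun i => Z i q := by
    rintro ⟨a, b⟩ hq ha0 hb0
    obtain ⟨w, hw, rfl⟩ := hexp _ hq hb0
    intro i j hij
    simp only at hij
    rw [hZ2 i a hq.1 w hw, hZ2 j a hq.1 w hw] at hij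
    exact hz3 (K * w, a) ⟨hmem hw, hq.1⟩ ha0 hij
  have hσ' : ∀ i, ∀ q ∈ powBall K A ×ˢ powBall K B, Z i (omg K * q.1, q.2) = Z (σ i) q := by
    intro i
    refine eqOn_of_snd_ne hSo (a := fun q : ℂ × ℂ => Z i (omg K * q.1, q.2)) (b := Z (σ i))
      ?_ (hZ1 _).continuousOn ?_
    · refine (hZ1 i).continuousOn.comp
        ((continuous_const.mul continuous_fst).prodMk continuous_snd).continuousOn ?_
      rintro ⟨a, b⟩ ⟨ha, hb⟩
      exact ⟨omg_mul_mem ha, hb⟩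
    · rintro ⟨a, b⟩ hq hb0
      obtain ⟨w, hw, rfl⟩ := hexp _ hq hb0
      change Z i (omg K * a, Complex.exp w) = Z (σ i) (a, Complex.exp w)
      rw [hZ2 i _ (omg_mul_mem hq.1) w hw, hZ2 (σ i) a hq.1 w hw]
      exact hz4 i (K * w, a) ⟨hmem hw, hq.1⟩
  have hρ' : ∀ i, ∀ q ∈ powBall K A ×ˢ powBall K B, Z i (q.1, omg K * q.2) = Z (ρ i) q := by
    intro i
    refine eqOn_of_snd_ne hSo (a := fun q : ℂ × ℂ => Z i (q.1, omg K * q.2)) (b := Z (ρ i))
      ?_ (hZ1 _).continuousOn ?_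
    · refine (hZ1 i).continuousOn.comp
        (continuous_fst.prodMk (continuous_const.mul continuous_snd)).continuousOn ?_
      rintro ⟨a, b⟩ ⟨ha, hb⟩
      exact ⟨ha, omg_mul_mem hb⟩
    · rintro ⟨a, b⟩ hq hb0
      obtain ⟨w, hw, rfl⟩ := hexp _ hq hb0
      have hw' : (w + 2 * Real.pi * Complex.I / K).re < M / K := by
        rw [Complex.add_re, Complex.div_natCast_re]
        simpa using hw
      change Z i (a, omg K * Complex.exp w) = Z (ρ i) (a, Complex.exp w)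
      rw [omg_mul_exp, hZ2 i a hq.1 _ hw', hZ2 (ρ i) a hq.1 w hw]
      refine hext i (ρ i) _ _ (hmem hw') (hmem hw) ?_ a hq.1
      intro a ha ha0
      have h5 := hρ i (K * w, a) ⟨hmem hw, ha, ha0⟩
      simp only [Prod.mk_add_mk, add_zero] at h5
      rw [← h5]
      congr 2
      field_simp
  refine ⟨Z, σ, ρ, hZ1, ?_, hinj, hσ', hρ', ?_⟩
  · have hpt : ∀ q ∈ powBall K A ×ˢ powBall K B, q.2 ≠ 0 →
        P (q.1 ^ K, q.2 ^ K) = ∏ i, (X - C (Z i q)) := by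
      rintro ⟨a, b⟩ hq hb0
      obtain ⟨w, hw, rfl⟩ := hexp _ hq hb0
      have h5 := hz2 (K * w, a) ⟨hmem hw, hq.1⟩
      simp only at h5
      rw [Complex.exp_nat_mul] at h5
      rw [h5]
      refine Finset.prod_congr rfl fun i _ => ?_
      rw [hZ2 i a hq.1 w hw]
    intro q hq
    refine Polynomial.ext fun j => ?_
    refine eqOn_of_snd_ne hSo (a := fun q : ℂ × ℂ => (P (q.1 ^ K, q.2 ^ K)).coeff j)
      (b := fun q => (∏ i, (X - C (Z i q))).coeff j) ?_ ?_ ?_ q hq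
    · refine (h.hol j).continuousOn.comp
        ((continuous_fst.pow K).prodMk (continuous_snd.pow K)).continuousOn ?_
      rintro ⟨a, b⟩ ⟨ha, hb⟩
      exact ⟨pow_mem_ball ha, pow_mem_ball hb⟩
    · exact continuousOn_coeff_prod (fun i => (hZ1 i).continuousOn) j
    · intro q hq hq0
      rw [hpt q hq hq0]
  · -- commutation at one point
    obtain ⟨w, hw⟩ : ∃ w : ℂ, w.re < Real.log A / K :=
      ⟨((Real.log A / K - 1 : ℝ) : ℂ), by rw [Complex.ofReal_re]; linarith⟩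
    obtain ⟨v, hv⟩ : ∃ v : ℂ, v.re < M / K :=
      ⟨((M / K - 1 : ℝ) : ℂ), by rw [Complex.ofReal_re]; linarith⟩
    have hq : (Complex.exp w, Complex.exp v) ∈ powBall K A ×ˢ powBall K B :=
      ⟨(exp_mem_powBall hK0 hA).2 hw, (exp_mem_powBall hK0 hB).2 hv⟩
    ext i
    refine congrArg _ (hinj _ hq (Complex.exp_ne_zero _) (Complex.exp_ne_zero _) ?_)
    simp only [Equiv.Perm.mul_apply]
    rw [← hσ' (ρ i) _ hq, ← hρ' (σ i) _ hq]
    have h5 := hρ' i (omg K * Complex.exp w, Complex.exp v) ⟨omg_mul_mem hq.1, hq.2⟩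
    have h6 := hσ' i (Complex.exp w, omg K * Complex.exp v) ⟨hq.1, omg_mul_mem hq.2⟩
    simp only at h5 h6
    rw [← h5, ← h6]

end Vale.Agent.P298.H983
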