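import Vale.Agent.P298.H983.End4
import Vale.Agent.P298.Main.Iface

/-!
# P298 / H983 (row E1-FINC), part 5: the pair `e, e'`
-/

open Set Filter Metric Topology Polynomial

noncomputable section

namespace Vale.Agent.P298.H983

open Vale.Agent.P298 Vale.Agent.P298.H379 Vale.Agent.P298.H707 Vale.Agent.P298.H955
open Vale.Agent.P298.H471 (RV cl Link)
open Vale.Agent.P298.FF (Plk)

theorem hol_pd {h : (Fin 3 → ℂ) → ℂ} (hh : Hol h) (i : Fin 3) : Hol (pd i h) := by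
  have h1 : AnalyticAt ℂ (fderiv ℂ h) 0 := AnalyticAt.fderiv hh
  exact ((ContinuousLinearMap.apply ℂ ℂ (Pi.single i (1 : ℂ) : Fin 3 → ℂ)).analyticAt _).comp_of_eq
    h1 rfl

theorem hol_jac3 {f e e' : (Fin 3 → ℂ) → ℂ} (hf : Hol f) (he : Hol e) (he' : Hol e') :
    Hol (jac3 f e e') := by
  have h1 : jac3 f e e' = fun x =>
      pd 0 f x * pd 1 e x * pd 2 e' x - pd 0 f x * pd 2 e x * pd 1 e' x -
      pd 1 f x * pd 0 e x * pd 2 e' x + pd 1 f x * pd 2 e x * pd 0 e' x +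
      pd 2 f x * pd 0 e x * pd 1 e' x - pd 2 f x * pd 1 e x * pd 0 e' x := by
    funext x
    rw [jac3, Matrix.det_fin_three]
    simp only [Matrix.of_apply, Matrix.cons_val_zero, Matrix.cons_val_one, Matrix.cons_val]
  rw [h1]
  have a0 : AnalyticAt ℂ (pd 0 f) 0 := hol_pd hf 0
  have a1 : AnalyticAt ℂ (pd 1 f) 0 := hol_pd hf 1
  have a2 : AnalyticAt ℂ (pd 2 f) 0 := hol_pd hf 2
  have b0 : AnalyticAt ℂ (pd 0 e) 0 := hol_pd he 0
  have b1 : AnalyticAt ℂ (pd 1 e) 0 := hol_pd he 1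
  have b2 : AnalyticAt ℂ (pd 2 e) 0 := hol_pd he 2
  have c0 : AnalyticAt ℂ (pd 0 e') 0 := hol_pd he' 0
  have c1 : AnalyticAt ℂ (pd 1 e') 0 := hol_pd he' 1
  have c2 : AnalyticAt ℂ (pd 2 e') 0 := hol_pd he' 2
  exact (((((a0.mul b1).mul c2).sub ((a0.mul b2).mul c1)).sub ((a1.mul b0).mul c2)).add
    ((a1.mul b2).mul c0)).add ((a2.mul b0).mul c1) |>.sub ((a2.mul b1).mul c0)

variable {f : (Fin 3 → ℂ) → ℂ} {κ : Type*} {Θ : κ → ℂ × ℂ → ℂ × ℂ} {n : ℕ}
    {P : ℂ × ℂ → ℂ[X]} {v : ℂ × (ℂ × ℂ) → ℂ} {K : κ → ℕ} {ζ : κ → Fin n → ℂ × ℂ → ℂ}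
    {σ ρ : κ → Equiv.Perm (Fin n)} {M : Model f Θ n P v K ζ σ ρ} {𝒦 : Type*} [Field 𝒦]
    [Algebra ℂ 𝒦] [Algebra (RV f) 𝒦] [IsScalarTower ℂ (RV f) 𝒦] {I : Type*} [Fintype I]
    [DecidableEq I] {C : H955.CModel (RV f) 𝒦 I} (Lk : Link M C)

include Lk

/-- **orders of the Jacobian.** -/
theorem jac_order {W : I → ℤ} (hW : ∀ j, 0 < W j) {e e' : (Fin 3 → ℂ) → ℂ} (he : Hol e)
    (he' : Hol e') (hv : cl f e = 0 ∨ ∀ j, W j ≤ C.vR j (cl f e))
    (hv' : cl f e' = 0 ∨ ∀ j, W j ≤ C.vR j (cl f e')) (hne : cl f (jac3 f e e') ≠ 0) (j : I) :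
    2 * W j + (-1 - C.K j) ≤ C.vR j (cl f (jac3 f e e')) := by
  obtain ⟨i, l, rfl⟩ := exists_chart Lk j
  obtain ⟨u, hu, hu1, -⟩ := sec Lk hW he hv i l
  obtain ⟨u', hu', hu1', -⟩ := sec Lk hW he' hv' i l
  have hal := al_pos Lk hW i l
  have halc := al_cast Lk hW i l
  obtain ⟨w, hw, hw1⟩ := jacG_mono hal hu hu' hu1 hu1'
  obtain ⟨U, hU, hU0, hU1⟩ := Lk.pd2 i l
  obtain ⟨U', hU', hU0', hU1'⟩ := M.monU_jac i l (Lk.jac i)
  have hg := hol_jac3 M.hf he he'
  obtain ⟨α, β, δ, ug, g, hα, hβ, hδ, hug, hgg, hg0, hch, hugg⟩ := Lk.ord _ hg hne i l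
  have hch0 : Tendsto (M.ch i l) (𝓝 0) (𝓝 0) := by
    have := (M.an_ch i l).continuousAt.tendsto
    rwa [M.ch_zero] at this
  -- the identity
  have hid : ∀ᶠ q in 𝓝 (0 : ℂ × ℂ),
      q.1 ^ (Lk.c i l + (2 * al Lk W i l - 1)) *
        (q.2 ^ (Lk.d i l) * U q * (q.2 ^ (2 * be Lk W i l - 1) * w q)) =
      q.1 ^ (K i * Lk.a i + (K i - 1) + α) *
        (q.2 ^ (K i * Lk.b i + (K i - 1)) * U' q * (q.2 ^ β * ug q)) := by
    filter_upwards [hw1, hU1, hU1', hch, (M.f_ch i l).eventually_nhds,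
      (M.an_ch i l).eventually_analyticAt, hch0.eventually (AnalyticAt.eventually_analyticAt M.hf),
      hch0.eventually (AnalyticAt.eventually_analyticAt he),
      hch0.eventually (AnalyticAt.eventually_analyticAt he')] with q e1 e2 e3 e4 e5 e6 e7 e8 e9
    have h1 := jac3_chart (Φ := M.ch i l) e7.differentiableAt e8.differentiableAt
      e9.differentiableAt e6.differentiableAt e5
    rw [e1, e2, e3, e4] at h1
    rw [pow_add, pow_add]
    linear_combination h1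
  have hfst : AnalyticAt ℂ (fun q : ℂ × ℂ => q.1) 0 := analyticAt_fst
  have hsnd : AnalyticAt ℂ (fun q : ℂ × ℂ => q.2) 0 := analyticAt_snd
  have hax : Tendsto (fun t : ℂ => ((0, t) : ℂ × ℂ)) (𝓝 0) (𝓝 0) :=
    (Continuous.prodMk_right (0 : ℂ)).continuousAt
  have hle := pow_le_of_mul (((hsnd.pow _).mul hU).mul ((hsnd.pow _).mul hw))
    (((hsnd.pow _).mul hU').mul ((hsnd.pow _).mul hug)) hid (by
      have h1 : ∀ᶠ t in 𝓝[≠] (0 : ℂ), (((0, t) : ℂ × ℂ).2 ^ (K i * Lk.b i + (K i - 1)) *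
          U' (0, t) * (((0, t) : ℂ × ℂ).2 ^ β * ug (0, t))) ≠ 0 := by
        filter_upwards [(hax.eventually (hU'.continuousAt.eventually_ne hU0')).filter_mono
          nhdsWithin_le_nhds, hugg.filter_mono nhdsWithin_le_nhds,
          (hgg.continuousAt.eventually_ne hg0).filter_mono nhdsWithin_le_nhds,
          self_mem_nhdsWithin] with t e1 e2 e3 e4
        rw [e2]
        exact mul_ne_zero (mul_ne_zero (pow_ne_zero _ e4) e1)
          (mul_ne_zero (pow_ne_zero _ e4) (mul_ne_zero (pow_ne_zero _ e4) e3))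
      exact h1.frequently.filter_mono nhdsWithin_le_nhds)
  have hca := Lk.canA i l
  have hK : 0 < K i := Nat.pos_of_ne_zero (M.C i).hK
  have hka : (0 : ℤ) < Lk.ka i l := by exact_mod_cast Lk.ka_pos i l
  have hle' : ((Lk.c i l + (2 * al Lk W i l - 1) : ℕ) : ℤ) ≤
      ((K i * Lk.a i + (K i - 1) + α : ℕ) : ℤ) := by exact_mod_cast hle
  rw [Nat.cast_add, Nat.cast_sub (by omega), Nat.cast_add, Nat.cast_add, Nat.cast_mul,
    Nat.cast_sub (by omega), hα, Nat.cast_mul, halc] at hle'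
  push_cast at hle'
  have h2 : (Lk.ka i l : ℤ) * (2 * W (Lk.q i l).1 + (-1 - C.K (Lk.q i l).1)) ≤
      Lk.ka i l * C.vR (Lk.q i l).1 (cl f (jac3 f e e')) := by
    have h3 : (Lk.c i l : ℤ) = K i * (Lk.a i + 1) - Lk.ka i l * (C.K (Lk.q i l).1 + 1) := by
      linarith
    rw [h3] at hle'
    nlinarith
  exact le_of_mul_le_mul_left h2 hka

/-- **E1-FINC**: the pair `e, e'` from base point freeness. -/
theorem fin_link {X : (I → ℤ) → ℝ} {z : I → ℝ} {m : ℕ} {Z : I → ℤ}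
    (hM : H471.OModel C.nodeData.M C.nodeData.K C.nodeData.g C.nodeData.δ C.nodeData.deg X)
    (hZ : H471.ZData C.nodeData.M C.nodeData.K C.nodeData.deg z m Z) (j₀ : I) {N : ℕ}
    (hN : 2 ≤ N * m)
    (hbpf : ∀ q : C.Q, ∃ h : RV f, h ≠ 0 ∧ (∀ l, (N : ℤ) * Z l ≤ C.vR l h) ∧
      C.vR q.1 h = N * Z q.1 ∧ (∀ q', C.nb q = some q' → C.vR q'.1 h = N * Z q'.1) ∧
      C.lam q (algebraMap _ 𝒦 h) = C.e2 q * C.y (fun l => C.vR l h) q) :
    ∃ (A : ℕ) (e e' : (Fin 3 → ℂ) → ℂ), Main.E1Data f (N * m) A e e' := by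
  classical
  have hN0 : 0 < N := Nat.pos_of_ne_zero (by rintro rfl; simp at hN)
  set W : I → ℤ := fun l => N * Z l with hWd
  have hWr : ∀ l, (W l : ℝ) = (N * m : ℕ) * z l := fun l => by
    rw [hWd]
    push_cast
    rw [hZ.int l]
    ring
  have hNm : (0 : ℝ) < (N * m : ℕ) := by
    have : 0 < N * m := by omega
    exact_mod_cast this
  have hW : ∀ j, 0 < W j := fun j => by
    have h1 : (0 : ℝ) < W j := by
      rw [hWr]
      exact mul_pos hNm (hZ.pos j)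
    exact_mod_cast h1
  obtain ⟨e, e', he, he', hve, hve', hbound, hiso⟩ := exists_pair Lk hW (fun p => by
    obtain ⟨h, h1, h2, h3, h4, h5⟩ := hbpf p
    exact ⟨h, h1, h2, h3, h4, h5⟩)
  obtain ⟨i₀, l₀, -⟩ := exists_chart Lk j₀
  -- vanishing at the origin
  have hz : ∀ {e : (Fin 3 → ℂ) → ℂ}, Hol e → (cl f e = 0 ∨ ∀ j, W j ≤ C.vR j (cl f e)) →
      e 0 = 0 := by
    intro e he hv
    obtain ⟨u, -, hu, -⟩ := sec Lk hW he hv i₀ l₀
    have h1 := hu.self_of_nhds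
    rw [M.ch_zero] at h1
    rw [h1, Prod.fst_zero, zero_pow (al_pos Lk hW i₀ l₀).ne', zero_mul, zero_mul]
  -- integrability
  have hI : ∀ {e : (Fin 3 → ℂ) → ℂ}, Hol e → (cl f e = 0 ∨ ∀ j, W j ≤ C.vR j (cl f e)) →
      ∀ k : ℝ, 0 < k → k < (N * m : ℕ) → InI f k e := by
    intro e he hv k hk hkm
    refine inI_of_link Lk he hk ?_
    rcases hv with h0 | h1
    · exact Or.inl h0
    · refine Or.inr fun j => ?_
      have h2 := hZ.ge j
      have h3 := hZ.pos j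
      have h4 : (W j : ℝ) ≤ C.vR j (cl f e) := by exact_mod_cast h1 j
      rw [hWr] at h4
      have h5 : ((-1 - C.nodeData.K j : ℤ) : ℝ) = -1 - C.K j := by
        push_cast
        rfl
      rw [h5] at h2
      calc k * (-1 - (C.K j : ℝ)) ≤ k * z j := mul_le_mul_of_nonneg_left h2 hk.le
        _ < (N * m : ℕ) * z j := mul_lt_mul_of_pos_right hkm h3
        _ ≤ _ := h4
  have hg := hol_jac3 M.hf he he'
  set g := jac3 f e e' with hgd
  -- orders of the Jacobian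
  have hgv : cl f g = 0 ∨ ∀ j, ((2 * (N * m : ℕ) + 1 : ℕ) : ℝ) * z j ≤ C.vR j (cl f g) := by
    by_cases h0 : cl f g = 0
    · exact Or.inl h0
    · refine Or.inr fun j => ?_
      have h1 := H471.nonneg_on hM (Finset.univ.filter fun l => H471.ipR C.nodeData.M z l = 0)
        (fun l => (C.vR l (cl f g) : ℝ) - ((2 * (N * m : ℕ) + 1 : ℕ) : ℝ) * z l) ?_ ?_ j
      · linarith
      · intro i hi
        rw [Finset.mem_filter] at hi
        have h2 := C.net_nonpos i h0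
        have h3 : H471.ipR C.nodeData.M
            (fun l => (C.vR l (cl f g) : ℝ) - ((2 * (N * m : ℕ) + 1 : ℕ) : ℝ) * z l) i
            = H471.ipR C.nodeData.M (H471.toR (H471.vc C.vR (cl f g))) i -
              ((2 * (N * m : ℕ) + 1 : ℕ) : ℝ) * H471.ipR C.nodeData.M z i := by
          simp only [H471.ipR, H471.toR, H471.vc, Finset.mul_sum]
          rw [← Finset.sum_sub_distrib]
          exact Finset.sum_congr rfl fun l _ => by ring
        rw [h3, hi.2, mul_zero, sub_zero]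
        exact h2
      · intro i hi
        have h2 : H471.ipR C.nodeData.M z i < 0 := by
          rcases lt_or_eq_of_le (hZ.anti i) with h | h
          · exact h
          · exact absurd (Finset.mem_filter.2 ⟨Finset.mem_univ i, h⟩) hi
        have h3 := hZ.compl i h2
        have h4 := jac_order Lk hW he he' hve hve' h0 i
        have h5 : ((2 * W i + (-1 - C.K i) : ℤ) : ℝ) ≤ C.vR i (cl f g) := by exact_mod_cast h4
        have h6 : z i = -1 - (C.K i : ℝ) := by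
          rw [h3]
          push_cast
          rfl
        push_cast at h5
        rw [hWr, ← h6] at h5
        push_cast at h5 ⊢
        linarith
  have hpos : ∀ j, cl f g ≠ 0 → 1 ≤ C.vR j (cl f g) := by
    intro j h0
    have h1 := (hgv.resolve_left h0) j
    have h2 : (0 : ℝ) < C.vR j (cl f g) := lt_of_lt_of_le (mul_pos (by positivity) (hZ.pos j)) h1
    have h3 : (0 : ℤ) < C.vR j (cl f g) := by exact_mod_cast h2
    omega
  have hg0 : g 0 = 0 := by
    by_cases h0 : cl f g = 0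
    · have h1 := (Lk.zero g hg h0 i₀ l₀).self_of_nhds
      rwa [M.ch_zero] at h1
    · obtain ⟨α, β, δ, u, g', hα, -, -, -, -, -, hch, -⟩ := Lk.ord g hg h0 i₀ l₀
      have h1 := hch.self_of_nhds
      rw [M.ch_zero] at h1
      have h2 : α ≠ 0 := by
        rintro rfl
        have h3 : (0 : ℤ) < Lk.ka i₀ l₀ * C.vR (Lk.q i₀ l₀).1 (cl f g) :=
          mul_pos (by exact_mod_cast Lk.ka_pos i₀ l₀) (by have := hpos (Lk.q i₀ l₀).1 h0; omega)
        rw [← hα] at h3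
        exact lt_irrefl _ h3
      rw [h1, Prod.fst_zero, zero_pow h2, zero_mul, zero_mul]
  obtain ⟨K', r, hr, hb⟩ := hbound g (N * m) (2 * (N * m) + 1) hg (by omega) (by
    rcases hgv with h0 | h1
    · exact Or.inl h0
    · by_cases h0 : cl f g = 0
      · exact Or.inl h0
      refine Or.inr fun j => ⟨by have := hpos j h0; omega, ?_⟩
      have h2 := mul_le_mul_of_nonneg_left (h1 j) hNm.le
      have h3 : (((2 * (N * m) + 1 : ℕ) : ℤ) * W j : ℤ) ≤ ((N * m : ℕ) : ℤ) * C.vR j (cl f g) := by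
        have h4 : ((((2 * (N * m) + 1 : ℕ) : ℤ) * W j : ℤ) : ℝ) ≤
            ((((N * m : ℕ) : ℤ) * C.vR j (cl f g) : ℤ) : ℝ) := by
          have h5 : ((((2 * (N * m) + 1 : ℕ) : ℤ) * W j : ℤ) : ℝ) =
              ((2 * (N * m) + 1 : ℕ) : ℝ) * (W j : ℝ) := by
            rw [Int.cast_mul ((2 * (N * m) + 1 : ℕ) : ℤ) (W j), Int.cast_natCast]
          have h6 : ((((N * m : ℕ) : ℤ) * C.vR j (cl f g) : ℤ) : ℝ) =
              ((N * m : ℕ) : ℝ) * (C.vR j (cl f g) : ℝ) := by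
            rw [Int.cast_mul ((N * m : ℕ) : ℤ) (C.vR j (cl f g)), Int.cast_natCast]
          rw [h5, h6, hWr]
          calc ((2 * (N * m) + 1 : ℕ) : ℝ) * ((N * m : ℕ) * z j)
              = (N * m : ℕ) * (((2 * (N * m : ℕ) + 1 : ℕ) : ℝ) * z j) := by ring
            _ ≤ _ := h2
        exact_mod_cast h4
      exact h3)
  obtain ⟨r', hr', hb'⟩ := hiso
  have hcol : ∃ A, Colength ![f, e, e'] A := by
    refine exists_colength ?_ ?_
    · intro k
      fin_cases k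
      · exact M.hf
      · exact he
      · exact he'
    · have h1 : ∀ᶠ x in 𝓝 (0 : Fin 3 → ℂ), ‖x‖ < r' := by
        have := (continuous_norm.tendsto (0 : Fin 3 → ℂ))
        rw [norm_zero] at this
        exact this.eventually_lt_const hr'
      filter_upwards [h1] with x hx h2
      exact hb' x (h2 0) hx (h2 1) (h2 2)
  obtain ⟨A, hA⟩ := hcol
  refine ⟨A, e, e', hN, he, he', hz he hve, hz he' hve', fun k hk hkm => hI he hve k hk hkm,
    fun k hk hkm => hI he' hve' k hk hkm, hA, |K'| * 2 ^ (2 * (N * m) + 1), ?_⟩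
  have h1 : ∀ᶠ x in 𝓝 (0 : Fin 3 → ℂ), ‖x‖ < r := by
    have := (continuous_norm.tendsto (0 : Fin 3 → ℂ))
    rw [norm_zero] at this
    exact this.eventually_lt_const hr
  filter_upwards [h1] with x hx hfx
  by_cases hx0 : x = 0
  · rw [hx0]
    show ‖g 0‖ ^ (N * m) ≤ _
    rw [hg0, norm_zero, zero_pow (by omega)]
    positivity
  · refine (hb x hfx hx0 hx).trans ?_
    have h2 : ‖e x‖ + ‖e' x‖ ≤ 2 * max ‖e x‖ ‖e' x‖ := by
      have h3 := le_max_left ‖e x‖ ‖e' x‖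
      have h4 := le_max_right ‖e x‖ ‖e' x‖
      linarith
    calc K' * (‖e x‖ + ‖e' x‖) ^ (2 * (N * m) + 1)
        ≤ |K'| * (2 * max ‖e x‖ ‖e' x‖) ^ (2 * (N * m) + 1) := by
          gcongr
          exact le_abs_self _
      _ = |K'| * 2 ^ (2 * (N * m) + 1) * max ‖e x‖ ‖e' x‖ ^ (2 * (N * m) + 1) := by
          rw [mul_pow]; ring

end Vale.Agent.P298.H983
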