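import Vale.Agent.P298.H983.AJ5

/-!
# P298 / H983 (row E1-AJ), part 6: final form
-/

open Set Filter Metric Topology Polynomial

noncomputable section

namespace Vale.Agent.P298.H983

/-- monomial times unit on `powBall K A × powBall K B` -/
theorem exists_monomial' {A B : ℝ} (hA : 0 < A) (hB : 0 < B) {K : ℕ} (hK : K ≠ 0) {g : ℂ × ℂ → ℂ}
    (hg : DifferentiableOn ℂ g (powBall K A ×ˢ powBall K B))
    (hne : ∀ q ∈ powBall K A ×ˢ powBall K B, q.1 ≠ 0 → q.2 ≠ 0 → g q ≠ 0) :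
    ∃ (p r : ℕ) (u : ℂ × ℂ → ℂ), DifferentiableOn ℂ u (powBall K A ×ˢ powBall K B) ∧
      (∀ q ∈ powBall K A ×ˢ powBall K B, u q ≠ 0) ∧
      ∀ q ∈ powBall K A ×ˢ powBall K B, g q = q.1 ^ p * q.2 ^ r * u q := by
  rw [powBall_eq hK hA, powBall_eq hK hB] at hg hne ⊢
  exact exists_monomial (Real.exp_pos _) (Real.exp_pos _) hg hne

/-- the derivative at a root of a product of linear factors -/
theorem eval_derivative_prod {n : ℕ} (r : Fin n → ℂ) (l : Fin n) :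
    (derivative (∏ i, (X - C (r i)))).eval (r l) = ∏ i ∈ Finset.univ.erase l, (r l - r i) := by
  classical
  rw [derivative_prod_finset, eval_finsetSum, Finset.sum_eq_single l]
  · rw [eval_mul, eval_prod]
    simp
  · intro b _ hb
    rw [eval_mul, eval_prod]
    rw [Finset.prod_eq_zero (i := l) (Finset.mem_erase.2 ⟨Ne.symm hb, Finset.mem_univ _⟩)
      (by simp), zero_mul]
  · intro h
    exact absurd (Finset.mem_univ l) h

/-- **Abhyankar-Jung, complete form.** -/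
theorem abhyankar_jung {A B : ℝ} (hA : 0 < A) (hB : 0 < B)
    {n : ℕ} {P : ℂ × ℂ → ℂ[X]} (h : PFam (ball 0 A ×ˢ ball 0 B) n P)
    (hs : Simple ((ball 0 A ×ˢ ball 0 B) ∩ {q | q.1 ≠ 0 ∧ q.2 ≠ 0}) P)
    {K : ℕ} (hK : n.factorial ∣ K) (hK0 : K ≠ 0) :
    ∃ (ζ : Fin n → ℂ × ℂ → ℂ) (σ ρ : Equiv.Perm (Fin n)),
      (∀ i, DifferentiableOn ℂ (ζ i) (powBall K A ×ˢ powBall K B)) ∧
      (∀ q ∈ powBall K A ×ˢ powBall K B, P (q.1 ^ K, q.2 ^ K) = ∏ i, (X - C (ζ i q))) ∧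
      (∀ q ∈ powBall K A ×ˢ powBall K B, q.1 ≠ 0 → q.2 ≠ 0 →
        Function.Injective fun i => ζ i q) ∧
      (∀ i, ∀ q ∈ powBall K A ×ˢ powBall K B, ζ i (omg K * q.1, q.2) = ζ (σ i) q) ∧
      (∀ i, ∀ q ∈ powBall K A ×ˢ powBall K B, ζ i (q.1, omg K * q.2) = ζ (ρ i) q) ∧
      σ * ρ = ρ * σ ∧
      (∀ i j, i ≠ j → ∃ (p r : ℕ) (u : ℂ × ℂ → ℂ),
        DifferentiableOn ℂ u (powBall K A ×ˢ powBall K B) ∧
        (∀ q ∈ powBall K A ×ˢ powBall K B, u q ≠ 0) ∧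
        ∀ q ∈ powBall K A ×ˢ powBall K B, ζ i q - ζ j q = q.1 ^ p * q.2 ^ r * u q) ∧
      (∀ l, ∃ (p r : ℕ) (u : ℂ × ℂ → ℂ),
        DifferentiableOn ℂ u (powBall K A ×ˢ powBall K B) ∧
        (∀ q ∈ powBall K A ×ˢ powBall K B, u q ≠ 0) ∧
        ∀ q ∈ powBall K A ×ˢ powBall K B,
          (derivative (P (q.1 ^ K, q.2 ^ K))).eval (ζ l q) = q.1 ^ p * q.2 ^ r * u q) := by
  classical
  obtain ⟨ζ, σ, ρ, h1, h2, h3, h4, h5, h6⟩ := roots_two hA hB h hs hK hK0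
  refine ⟨ζ, σ, ρ, h1, h2, h3, h4, h5, h6, ?_, ?_⟩
  · intro i j hij
    refine exists_monomial' hA hB hK0 ((h1 i).sub (h1 j)) ?_
    intro q hq ha hb h0
    exact hij (h3 q hq ha hb (sub_eq_zero.1 h0))
  · intro l
    have hd : ∀ q ∈ powBall K A ×ˢ powBall K B,
        (derivative (P (q.1 ^ K, q.2 ^ K))).eval (ζ l q) =
          ∏ i ∈ Finset.univ.erase l, (ζ l q - ζ i q) := by
      intro q hq
      rw [h2 q hq, eval_derivative_prod (fun i => ζ i q) l]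
    have hdd : DifferentiableOn ℂ (fun q => ∏ i ∈ Finset.univ.erase l, (ζ l q - ζ i q))
        (powBall K A ×ˢ powBall K B) :=
      fun q hq => (HasFDerivWithinAt.finsetProd fun i _ =>
        (((h1 l).sub (h1 i)) q hq).hasFDerivWithinAt).differentiableWithinAt
    obtain ⟨p, r, u, h7, h8, h9⟩ := exists_monomial' hA hB hK0 hdd (by
      intro q hq ha hb h0
      obtain ⟨i, hi, hi0⟩ := Finset.prod_eq_zero_iff.1 h0
      exact (Finset.mem_erase.1 hi).1 (h3 q hq ha hb (sub_eq_zero.1 hi0)).symm)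
    exact ⟨p, r, u, h7, h8, fun q hq => (hd q hq).trans (h9 q hq)⟩

end Vale.Agent.P298.H983
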