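import Mathlib
import Vale.Agent.P268.Hol

/-!
# P298 / H983 (row E1-AJ), part 1: holomorphic roots over convex open sets

A family of monic polynomials with holomorphic coefficients and simple roots over a convex open
subset of a finite-dimensional space has globally defined holomorphic roots.
-/

open Set Filter Metric Topology Polynomial

noncomputable section

namespace Vale.Agent.P298.H983

/-- a root of a monic polynomial is bounded by the coefficients -/
theorem norm_root_le {p : ℂ[X]} (hp : p.Monic) {z : ℂ} (hz : p.eval z = 0) :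
    ‖z‖ ≤ 1 + ∑ i ∈ Finset.range p.natDegree, ‖p.coeff i‖ := by
  have hs : 0 ≤ ∑ i ∈ Finset.range p.natDegree, ‖p.coeff i‖ :=
    Finset.sum_nonneg fun i _ => norm_nonneg _
  rcases le_or_gt ‖z‖ 1 with h | h
  · linarith
  have h1 : z ^ p.natDegree = - ∑ i ∈ Finset.range p.natDegree, p.coeff i * z ^ i := by
    rw [eval_eq_sum_range, Finset.sum_range_succ, hp.coeff_natDegree, one_mul] at hz
    linear_combination hz
  have h2 : 0 < p.natDegree := by
    by_contra h3
    have h4 : p.natDegree = 0 := by omega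
    have h5 := hp.natDegree_eq_zero.1 h4
    rw [h5, eval_one] at hz
    exact one_ne_zero hz
  have h3 : ‖z‖ ^ p.natDegree ≤
      (∑ i ∈ Finset.range p.natDegree, ‖p.coeff i‖) * ‖z‖ ^ (p.natDegree - 1) := by
    rw [← norm_pow, h1, norm_neg, Finset.sum_mul]
    refine (norm_sum_le _ _).trans (Finset.sum_le_sum fun i hi => ?_)
    rw [norm_mul, norm_pow]
    have h4 : i ≤ p.natDegree - 1 := by
      have := Finset.mem_range.1 hi
      omega
    exact mul_le_mul_of_nonneg_left (pow_le_pow_right₀ h.le h4) (norm_nonneg _)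
  have h4 : ‖z‖ ^ p.natDegree = ‖z‖ * ‖z‖ ^ (p.natDegree - 1) := by
    conv_lhs => rw [show p.natDegree = (p.natDegree - 1) + 1 by omega]
    rw [pow_succ']
  have h5 : 0 < ‖z‖ ^ (p.natDegree - 1) := by positivity
  have h6 := le_of_mul_le_mul_right (h4 ▸ h3) h5
  linarith

variable {E : Type*} [NormedAddCommGroup E] [NormedSpace ℂ E] [FiniteDimensional ℂ E]

/-- A family of monic polynomials of degree `n` with holomorphic coefficients. -/
structure PFam (Ω : Set E) (n : ℕ) (P : E → ℂ[X]) : Prop where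
  monic : ∀ q ∈ Ω, (P q).Monic
  deg : ∀ q ∈ Ω, (P q).natDegree = n
  hol : ∀ i, DifferentiableOn ℂ (fun q => (P q).coeff i) Ω

/-- all roots are simple -/
def Simple (Ω : Set E) (P : E → ℂ[X]) : Prop :=
  ∀ q ∈ Ω, ∀ z, (P q).eval z = 0 → (derivative (P q)).eval z ≠ 0

namespace PFam

variable {Ω : Set E} {n : ℕ} {P : E → ℂ[X]}

omit [FiniteDimensional ℂ E] in
theorem mono (h : PFam Ω n P) {U : Set E} (hU : U ⊆ Ω) : PFam U n P :=
  ⟨fun q hq => h.monic q (hU hq), fun q hq => h.deg q (hU hq), fun i => (h.hol i).mono hU⟩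

omit [FiniteDimensional ℂ E] in
theorem eval_eq (h : PFam Ω n P) {q : E} (hq : q ∈ Ω) (z : ℂ) :
    (P q).eval z = ∑ i ∈ Finset.range (n + 1), (P q).coeff i * z ^ i := by
  rw [eval_eq_sum_range, h.deg q hq]

omit [FiniteDimensional ℂ E] in
theorem differentiableOn_eval (h : PFam Ω n P) :
    DifferentiableOn ℂ (fun p : E × ℂ => (P p.1).eval p.2) (Ω ×ˢ univ) := by
  have h1 : DifferentiableOn ℂ (fun p : E × ℂ => ∑ i ∈ Finset.range (n + 1),
      (P p.1).coeff i * p.2 ^ i) (Ω ×ˢ univ) := by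
    refine DifferentiableOn.fun_sum fun i _ => DifferentiableOn.mul ?_ ?_
    · exact (h.hol i).comp differentiableOn_fst fun p hp => hp.1
    · exact (differentiable_snd.pow i).differentiableOn
  exact h1.congr fun p hp => h.eval_eq hp.1 p.2

theorem hasStrictFDerivAt (h : PFam Ω n P) (hΩ : IsOpen Ω) {q : E} (hq : q ∈ Ω) (z : ℂ) :
    HasStrictFDerivAt (fun p : E × ℂ => (P p.1).eval p.2)
      (fderiv ℂ (fun p : E × ℂ => (P p.1).eval p.2) (q, z)) (q, z) := by
  have hO : IsOpen (Ω ×ˢ (univ : Set ℂ)) := hΩ.prod isOpen_univ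
  have h1 := Vale.Agent.P268.contDiffOn_of_differentiableOn hO h.differentiableOn_eval 1
  have h2 : ContDiffAt ℂ 1 (fun p : E × ℂ => (P p.1).eval p.2) (q, z) :=
    (h1 (q, z) ⟨hq, mem_univ _⟩).contDiffAt (hO.mem_nhds ⟨hq, mem_univ _⟩)
  exact h2.hasStrictFDerivAt (by norm_num)

theorem fderiv_inr (h : PFam Ω n P) (hΩ : IsOpen Ω) {q : E} (hq : q ∈ Ω) (z : ℂ) :
    (fderiv ℂ (fun p : E × ℂ => (P p.1).eval p.2) (q, z) ∘L .inr ℂ E ℂ) =
      (derivative (P q)).eval z • ContinuousLinearMap.id ℂ ℂ := by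
  have h1 := (h.hasStrictFDerivAt hΩ hq z).hasFDerivAt
  have h2 : HasFDerivAt (fun w : ℂ => ((q, w) : E × ℂ)) (ContinuousLinearMap.inr ℂ E ℂ) z :=
    hasFDerivAt_prodMk_right q z
  have h3 : HasFDerivAt (fun w : ℂ => (P q).eval w)
      (fderiv ℂ (fun p : E × ℂ => (P p.1).eval p.2) (q, z) ∘L .inr ℂ E ℂ) z :=
    HasFDerivAt.comp z (g := fun p : E × ℂ => (P p.1).eval p.2) h1 h2
  have h4 := ((P q).hasDerivAt z).hasFDerivAt
  rw [h3.unique h4]
  ext
  simp

theorem inv_inr (h : PFam Ω n P) (hΩ : IsOpen Ω) {q : E} (hq : q ∈ Ω) {z : ℂ}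
    (hz : (derivative (P q)).eval z ≠ 0) :
    (fderiv ℂ (fun p : E × ℂ => (P p.1).eval p.2) (q, z) ∘L .inr ℂ E ℂ).IsInvertible := by
  rw [h.fderiv_inr hΩ hq z]
  refine ⟨ContinuousLinearEquiv.smulLeft (Units.mk0 _ hz), ?_⟩
  ext
  simp

/-- the local root function -/
theorem exists_local (h : PFam Ω n P) (hΩ : IsOpen Ω) {q : E} (hq : q ∈ Ω) {z : ℂ}
    (hz0 : (P q).eval z = 0) (hz : (derivative (P q)).eval z ≠ 0) :
    ∃ ψ : E → ℂ, ψ q = z ∧ DifferentiableAt ℂ ψ q ∧
      (∀ᶠ p in 𝓝 q, (P p).eval (ψ p) = 0) ∧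
      (∀ᶠ p in 𝓝 ((q, z) : E × ℂ), (P p.1).eval p.2 = 0 → p.2 = ψ p.1) := by
  have hE : CompleteSpace E := FiniteDimensional.complete ℂ E
  have d := h.hasStrictFDerivAt hΩ hq z
  have i := h.inv_inr hΩ hq hz
  have h1 := d.eventually_apply_eq_iff_implicitFunctionOfProdDomain i
  have h2 := d.hasStrictFDerivAt_implicitFunctionOfProdDomain i
  have h3 := d.eventually_apply_implicitFunctionOfProdDomain i
  refine ⟨d.implicitFunctionOfProdDomain i, ?_, h2.hasFDerivAt.differentiableAt, ?_, ?_⟩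
  · exact h1.self_of_nhds.1 rfl
  · filter_upwards [h3] with p hp
    simpa [hz0] using hp
  · filter_upwards [h1] with p hp hp0
    exact (hp.1 (by rw [hp0]; exact hz0.symm)).symm

/-- a continuous root function is holomorphic -/
theorem differentiableOn_root (h : PFam Ω n P) (hs : Simple Ω P) (hΩ : IsOpen Ω) {ζ : E → ℂ}
    {U : Set E} (hU : IsOpen U) (hUΩ : U ⊆ Ω) (hc : ContinuousOn ζ U)
    (h0 : ∀ q ∈ U, (P q).eval (ζ q) = 0) : DifferentiableOn ℂ ζ U := by
  intro q hq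
  obtain ⟨ψ, h1, h2, -, h4⟩ := h.exists_local hΩ (hUΩ hq) (h0 q hq) (hs q (hUΩ hq) _ (h0 q hq))
  have h5 : Tendsto (fun p => ((p, ζ p) : E × ℂ)) (𝓝 q) (𝓝 (q, ζ q)) :=
    (continuousAt_id.prodMk (hc.continuousAt (hU.mem_nhds hq)))
  have h6 : ζ =ᶠ[𝓝 q] ψ := by
    filter_upwards [h5.eventually h4, hU.mem_nhds hq] with p hp hpU
    exact hp (h0 p hpU)
  exact (h2.congr_of_eventuallyEq h6).differentiableWithinAt

end PFam

end Vale.Agent.P298.H983
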