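import Vale.Agent.P298.H983.AJ1

/-!
# P298 / H983 (row E1-AJ), part 2: global holomorphic roots over convex open sets
-/

open Set Filter Metric Topology Polynomial

noncomputable section

namespace Vale.Agent.P298.H983

variable {E : Type*} [NormedAddCommGroup E] [NormedSpace ℂ E] [FiniteDimensional ℂ E]

namespace PFam

variable {Ω : Set E} {n : ℕ} {P : E → ℂ[X]}

/-- two continuous root functions which agree at a point agree on a connected open set -/
theorem root_unique (h : PFam Ω n P) (hs : Simple Ω P) (hΩ : IsOpen Ω) {ζ ξ : E → ℂ}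
    {U : Set E} (hU : IsOpen U) (hUc : IsPreconnected U) (hUΩ : U ⊆ Ω)
    (hζc : ContinuousOn ζ U) (hξc : ContinuousOn ξ U)
    (hζ : ∀ q ∈ U, (P q).eval (ζ q) = 0) (hξ : ∀ q ∈ U, (P q).eval (ξ q) = 0)
    {a : E} (ha : a ∈ U) (hae : ζ a = ξ a) : EqOn ζ ξ U := by
  have hS : IsOpen {q | q ∈ U ∧ ζ q = ξ q} := by
    rw [isOpen_iff_mem_nhds]
    rintro q ⟨hq, hqe⟩
    obtain ⟨ψ, h1, -, -, h4⟩ := h.exists_local hΩ (hUΩ hq) (hζ q hq) (hs q (hUΩ hq) _ (hζ q hq))
    have h5 : Tendsto (fun p => ((p, ζ p) : E × ℂ)) (𝓝 q) (𝓝 (q, ζ q)) :=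
      (continuousAt_id.prodMk (hζc.continuousAt (hU.mem_nhds hq)))
    have h6 : Tendsto (fun p => ((p, ξ p) : E × ℂ)) (𝓝 q) (𝓝 (q, ζ q)) := by
      rw [hqe]
      exact (continuousAt_id.prodMk (hξc.continuousAt (hU.mem_nhds hq)))
    filter_upwards [h5.eventually h4, h6.eventually h4, hU.mem_nhds hq] with p hp hp' hpU
    exact ⟨hpU, (hp (hζ p hpU)).trans (hp' (hξ p hpU)).symm⟩
  have hT : IsOpen {q | q ∈ U ∧ ζ q ≠ ξ q} := by
    rw [isOpen_iff_mem_nhds]
    rintro q ⟨hq, hqe⟩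
    have h1 := (hζc.continuousAt (hU.mem_nhds hq)).ne_iff_eventually_ne
      (hξc.continuousAt (hU.mem_nhds hq))
    filter_upwards [h1.1 hqe, hU.mem_nhds hq] with p hp hpU
    exact ⟨hpU, hp⟩
  have h1 : U ⊆ {q | q ∈ U ∧ ζ q = ξ q} := by
    refine hUc.subset_left_of_subset_union hS hT ?_ ?_ ⟨a, ha, ha, hae⟩
    · rw [Set.disjoint_left]
      rintro q ⟨-, h1⟩ ⟨-, h2⟩
      exact h2 h1
    · intro q hq
      by_cases h1 : ζ q = ξ q
      · exact Or.inl ⟨hq, h1⟩
      · exact Or.inr ⟨hq, h1⟩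
  exact fun q hq => (h1 hq).2

end PFam

/-- the total space of the roots -/
def Tot (Ω : Set E) (P : E → ℂ[X]) : Type _ := {e : Ω × ℂ // (P e.1.1).eval e.2 = 0}

instance (Ω : Set E) (P : E → ℂ[X]) : TopologicalSpace (Tot Ω P) :=
  inferInstanceAs (TopologicalSpace {e : Ω × ℂ // (P e.1.1).eval e.2 = 0})

instance (Ω : Set E) (P : E → ℂ[X]) : T2Space (Tot Ω P) :=
  inferInstanceAs (T2Space {e : Ω × ℂ // (P e.1.1).eval e.2 = 0})

/-- the projection -/
def Tot.proj (Ω : Set E) (P : E → ℂ[X]) (e : Tot Ω P) : Ω := e.1.1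

namespace PFam

variable {Ω : Set E} {n : ℕ} {P : E → ℂ[X]}

omit [NormedSpace ℂ E] [FiniteDimensional ℂ E] in
theorem continuous_proj : Continuous (Tot.proj Ω P) :=
  continuous_fst.comp continuous_subtype_val

omit [NormedSpace ℂ E] [FiniteDimensional ℂ E] in
theorem isInducing_val : Topology.IsInducing (fun e : Tot Ω P => (e.1 : Ω × ℂ)) :=
  Topology.IsInducing.subtypeVal

/-- coordinates of a point of the total space -/
def pr (e : Tot Ω P) : E × ℂ := (e.1.1.1, e.1.2)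

omit [NormedSpace ℂ E] [FiniteDimensional ℂ E] in
theorem isInducing_pr : Topology.IsInducing (pr : Tot Ω P → E × ℂ) := by
  have h1 : Topology.IsInducing (fun e : Ω × ℂ => ((e.1.1, e.2) : E × ℂ)) :=
    Topology.IsInducing.subtypeVal.prodMap Topology.IsInducing.id
  exact h1.comp Topology.IsInducing.subtypeVal

theorem isOpenMap_proj (h : PFam Ω n P) (hs : Simple Ω P) (hΩ : IsOpen Ω) :
    IsOpenMap (Tot.proj Ω P) := by
  rw [isOpenMap_iff_nhds_le]
  intro e
  have hq : e.1.1.1 ∈ Ω := e.1.1.2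
  obtain ⟨ψ, h1, h2, h3, -⟩ := h.exists_local hΩ hq e.2 (hs _ hq _ e.2)
  intro S hS
  rw [Filter.mem_map, isInducing_pr.nhds_eq_comap, Filter.mem_comap] at hS
  obtain ⟨T, hT, hTS⟩ := hS
  have h4 : Tendsto (fun p => ((p, ψ p) : E × ℂ)) (𝓝 e.1.1.1) (𝓝 (pr e)) := by
    have : Tendsto (fun p => ((p, ψ p) : E × ℂ)) (𝓝 e.1.1.1) (𝓝 (e.1.1.1, ψ e.1.1.1)) :=
      (continuousAt_id.prodMk h2.continuousAt)
    rwa [h1] at this
  have h5 : ∀ᶠ p in 𝓝 e.1.1.1, (p, ψ p) ∈ T ∧ (P p).eval (ψ p) = 0 :=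
    (h4.eventually (Filter.eventually_mem_set.2 hT)).and h3
  have h6 : ∀ᶠ p : Ω in 𝓝 e.1.1, ((p : E), ψ p) ∈ T ∧ (P p).eval (ψ p) = 0 :=
    continuous_subtype_val.continuousAt.eventually h5
  filter_upwards [h6] with p hp
  have h7 : (⟨(p, ψ p), hp.2⟩ : Tot Ω P) ∈ Tot.proj Ω P ⁻¹' S := hTS hp.1
  exact h7

theorem isLocalHomeomorph_proj (h : PFam Ω n P) (hs : Simple Ω P) (hΩ : IsOpen Ω) :
    IsLocalHomeomorph (Tot.proj Ω P) := by
  rw [isLocalHomeomorph_iff_isOpenEmbedding_restrict]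
  intro e
  have hq : e.1.1.1 ∈ Ω := e.1.1.2
  obtain ⟨ψ, h1, h2, h3, h4⟩ := h.exists_local hΩ hq e.2 (hs _ hq _ e.2)
  have h5 : ∀ᶠ x : Tot Ω P in 𝓝 e, x.1.2 = ψ x.1.1.1 := by
    have h6 : Tendsto (pr : Tot Ω P → E × ℂ) (𝓝 e) (𝓝 (pr e)) :=
      isInducing_pr.continuous.continuousAt
    filter_upwards [h6.eventually h4] with x hx
    exact hx x.2
  obtain ⟨U, hU, hUo, hUe⟩ := eventually_nhds_iff.1 h5
  refine ⟨U, hUo.mem_nhds hUe, ?_⟩
  refine Topology.IsOpenEmbedding.of_continuous_injective_isOpenMap ?_ ?_ ?_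
  · exact continuous_proj.comp continuous_subtype_val
  · rintro ⟨x, hx⟩ ⟨y, hy⟩ hxy
    have h7 : x.1.1 = y.1.1 := hxy
    have h8 := hU x hx
    have h9 := hU y hy
    rw [h7, ← h9] at h8
    have h10 : x = y := Subtype.ext (Prod.ext h7 h8)
    exact Subtype.ext h10
  · exact (h.isOpenMap_proj hs hΩ).comp hUo.isOpenMap_subtype_val

omit [FiniteDimensional ℂ E] in
theorem isCompact_preimage_proj (h : PFam Ω n P) {K : Set Ω} (hK : IsCompact K) :
    IsCompact (Tot.proj Ω P ⁻¹' K) := by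
  have hc : ∀ i, Continuous fun q : Ω => (P q).coeff i := fun i =>
    (h.hol i).continuousOn.domRestrict
  have h1 : Continuous fun q : Ω => 1 + ∑ i ∈ Finset.range n, ‖(P q).coeff i‖ :=
    continuous_const.add (continuous_finsetSum _ fun i _ => (hc i).norm)
  obtain ⟨R, hR⟩ := (hK.image h1).bddAbove
  have h2 : IsCompact (K ×ˢ closedBall (0 : ℂ) R) := hK.prod (isCompact_closedBall 0 R)
  have h3 : IsClosed {e : Ω × ℂ | (P e.1.1).eval e.2 = 0} := by
    have h4 : Continuous fun e : Ω × ℂ => (P e.1.1).eval e.2 := by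
      have h5 : Continuous fun e : Ω × ℂ =>
          ∑ i ∈ Finset.range (n + 1), (P e.1.1).coeff i * e.2 ^ i :=
        continuous_finsetSum _ fun i _ => ((hc i).comp continuous_fst).mul
          (continuous_snd.pow i)
      refine h5.congr fun e => ?_
      rw [h.eval_eq e.1.2]
    exact isClosed_singleton.preimage h4
  rw [isInducing_val.isCompact_iff]
  have h5 : (fun e : Tot Ω P => (e.1 : Ω × ℂ)) '' (Tot.proj Ω P ⁻¹' K) =
      (K ×ˢ closedBall (0 : ℂ) R) ∩ {e : Ω × ℂ | (P e.1.1).eval e.2 = 0} := by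
    ext e
    constructor
    · rintro ⟨x, hx, rfl⟩
      refine ⟨⟨hx, ?_⟩, x.2⟩
      rw [mem_closedBall_zero_iff]
      refine (norm_root_le (h.monic _ x.1.1.2) x.2).trans ?_
      rw [h.deg _ x.1.1.2]
      exact hR ⟨_, hx, rfl⟩
    · rintro ⟨⟨h6, -⟩, h7⟩
      exact ⟨⟨e, h7⟩, h6, rfl⟩
  rw [h5]
  exact h2.inter_right h3

theorem isCoveringMap_proj (h : PFam Ω n P) (hs : Simple Ω P) (hΩ : IsOpen Ω) :
    IsCoveringMap (Tot.proj Ω P) := by
  have hp : IsProperMap (Tot.proj Ω P) :=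
    isProperMap_iff_isCompact_preimage.2 ⟨continuous_proj, fun K hK => h.isCompact_preimage_proj hK⟩
  rw [isCoveringMap_iff_isCoveringMapOn_univ]
  refine hp.isClosedMap.isCoveringMapOn_of_isLocalHomeomorphOn (fun q _ => ?_) ?_
  · refine Set.Finite.of_injOn (f := fun e : Tot Ω P => e.1.2)
      (t := ((P q).roots.toFinset : Set ℂ)) ?_ ?_ (Finset.finite_toSet _)
    · intro e he
      have h1 : e.1.1 = q := he
      have h2 := e.2
      rw [h1] at h2
      simp only [Finset.mem_coe, Multiset.mem_toFinset]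
      rw [mem_roots (h.monic q q.2).ne_zero]
      exact h2
    · intro e he e' he' hee
      have h1 : e.1.1 = q := he
      have h2 : e'.1.1 = q := he'
      exact Subtype.ext (Prod.ext (h1.trans h2.symm) hee)
  · exact (h.isLocalHomeomorph_proj hs hΩ).isLocalHomeomorphOn

/-- through every root over a convex open set passes a holomorphic root function -/
theorem exists_root_through (h : PFam Ω n P) (hs : Simple Ω P) (hΩ : IsOpen Ω)
    (hc : Convex ℝ Ω) {q₀ : E} (hq₀ : q₀ ∈ Ω) {z₀ : ℂ} (hz₀ : (P q₀).eval z₀ = 0) :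
    ∃ ζ : E → ℂ, ζ q₀ = z₀ ∧ DifferentiableOn ℂ ζ Ω ∧ ∀ q ∈ Ω, (P q).eval (ζ q) = 0 := by
  have : ContractibleSpace Ω := hc.contractibleSpace ⟨q₀, hq₀⟩
  have : LocallyPathConnectedSpace Ω := hΩ.locallyPathConnectedSpace
  obtain ⟨F, ⟨h1, h2⟩, -⟩ := (h.isCoveringMap_proj hs hΩ).existsUnique_continuousMap_lifts
    (ContinuousMap.id Ω) ⟨q₀, hq₀⟩ (⟨(⟨q₀, hq₀⟩, z₀), hz₀⟩ : Tot Ω P) rfl
  have h3 : ∀ q : Ω, (F q).1.1 = q := fun q => congrFun h2 q
  classical
  refine ⟨fun q => if hq : q ∈ Ω then (F ⟨q, hq⟩).1.2 else 0, ?_, ?_, ?_⟩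
  · simp only [hq₀, dif_pos]
    rw [h1]
  · refine h.differentiableOn_root hs hΩ hΩ subset_rfl ?_ ?_
    · rw [continuousOn_iff_continuous_domRestrict]
      have h4 : Continuous fun q : Ω => (F q).1.2 :=
        continuous_snd.comp (continuous_subtype_val.comp F.continuous)
      refine h4.congr fun q => ?_
      simp
    · intro q hq
      have h5 := (F ⟨q, hq⟩).2
      rw [h3] at h5
      simpa [hq] using h5
  · intro q hq
    have h5 := (F ⟨q, hq⟩).2
    rw [h3] at h5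
    simpa [hq] using h5

omit [FiniteDimensional ℂ E] in
/-- the roots are simple: enumeration -/
theorem exists_enum (h : PFam Ω n P) (hs : Simple Ω P) {q : E} (hq : q ∈ Ω) :
    ∃ r : Fin n → ℂ, Function.Injective r ∧ ∀ i, (P q).eval (r i) = 0 := by
  classical
  have h1 : (P q).roots.card = n := by
    rw [← h.deg q hq]
    exact (splits_iff_card_roots.1 (IsAlgClosed.splits (P q)))
  have h2 : (P q).roots.Nodup := by
    rw [Multiset.nodup_iff_count_le_one]
    intro z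
    rw [count_roots]
    by_contra h3
    have h4 : 1 < (P q).rootMultiplicity z := by omega
    have h5 := (one_lt_rootMultiplicity_iff_isRoot (h.monic q hq).ne_zero).1 h4
    exact hs q hq z h5.1 h5.2
  have h3 : (P q).roots.toFinset.card = n := by
    rw [Multiset.toFinset_card_of_nodup h2, h1]
  let e := (Finset.equivFinOfCardEq h3).symm
  refine ⟨fun i => (e i).1, fun i j hij => e.injective (Subtype.ext hij), fun i => ?_⟩
  have h4 := (e i).2
  rw [Multiset.mem_toFinset, mem_roots (h.monic q hq).ne_zero] at h4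
  exact h4

omit [FiniteDimensional ℂ E] in
theorem eq_prod (h : PFam Ω n P) {q : E} (hq : q ∈ Ω) {r : Fin n → ℂ}
    (hr : Function.Injective r) (h0 : ∀ i, (P q).eval (r i) = 0) :
    P q = ∏ i, (X - C (r i)) := by
  classical
  have h1 : (Finset.univ.image r).val ⊆ (P q).roots := by
    intro z hz
    have hz' : z ∈ Finset.univ.image r := hz
    obtain ⟨i, -, rfl⟩ := Finset.mem_image.1 hz'
    rw [mem_roots (h.monic q hq).ne_zero]
    exact h0 i
  have h2 : (Finset.univ.image r).val ≤ (P q).roots :=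
    (Multiset.le_iff_subset (Finset.nodup _)).2 h1
  have h3 : (Finset.univ.image r).val = (P q).roots := by
    refine Multiset.eq_of_le_of_card_le h2 ?_
    rw [Finset.card_val, Finset.card_image_of_injective _ hr, Finset.card_univ, Fintype.card_fin]
    exact (card_roots' _).trans (h.deg q hq).le
  have h4 := (IsAlgClosed.splits (P q)).eq_prod_roots_of_monic (h.monic q hq)
  rw [h4, ← h3]
  rw [← Finset.prod_eq_multiset_prod]
  rw [Finset.prod_image fun i _ j _ hij => hr hij]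

/-- **global holomorphic roots over a convex open set** -/
theorem exists_roots (h : PFam Ω n P) (hs : Simple Ω P) (hΩ : IsOpen Ω) (hc : Convex ℝ Ω) :
    ∃ ζ : Fin n → E → ℂ, (∀ i, DifferentiableOn ℂ (ζ i) Ω) ∧
      (∀ q ∈ Ω, Function.Injective fun i => ζ i q) ∧
      ∀ q ∈ Ω, P q = ∏ i, (X - C (ζ i q)) := by
  rcases Ω.eq_empty_or_nonempty with h0 | ⟨q₀, hq₀⟩
  · subst h0
    exact ⟨fun _ _ => 0, fun i => differentiableOn_empty, fun q hq => hq.elim,
      fun q hq => hq.elim⟩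
  obtain ⟨r, hr, hr0⟩ := h.exists_enum hs hq₀
  choose ζ h1 h2 h3 using fun i => h.exists_root_through hs hΩ hc hq₀ (hr0 i)
  have h4 : ∀ q ∈ Ω, Function.Injective fun i => ζ i q := by
    intro q hq i j hij
    have h5 := h.root_unique hs hΩ hΩ hc.isPreconnected subset_rfl (h2 i).continuousOn
      (h2 j).continuousOn (h3 i) (h3 j) hq hij
    have h6 := h5 hq₀
    rw [h1, h1] at h6
    exact hr h6
  exact ⟨ζ, h2, h4, fun q hq => h.eq_prod hq (h4 q hq) fun i => h3 i q hq⟩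

end PFam

end Vale.Agent.P298.H983
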