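import Vale.Agent.P298.H983.AJ2
import Vale.Agent.P267.H338.Riem

/-!
# P298 / H983 (row E1-AJ), part 3: monodromy and extension over the punctures
-/

open Set Filter Metric Topology Polynomial

noncomputable section

namespace Vale.Agent.P298.H983

variable {E : Type*} [NormedAddCommGroup E] [NormedSpace ℂ E] [FiniteDimensional ℂ E]

/-- **Riemann extension theorem, global form** -/
theorem riemann_global {F : Type*} [NormedAddCommGroup F] [NormedSpace ℂ F] [CompleteSpace F]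
    {g : E → ℂ} {u : E → F} {V : Set E} (hV : IsOpen V)
    (hg : DifferentiableOn ℂ g V) (hne : ∀ p ∈ V, ∃ᶠ x in 𝓝 p, g x ≠ 0)
    (hu : DifferentiableOn ℂ u (V ∩ {x | g x ≠ 0}))
    (hb : ∀ p ∈ V, ∃ C : ℝ, ∀ᶠ x in 𝓝 p, g x ≠ 0 → ‖u x‖ ≤ C) :
    ∃ U : E → F, DifferentiableOn ℂ U V ∧ ∀ x ∈ V, g x ≠ 0 → U x = u x := by
  classical
  have key : ∀ p ∈ V, ∃ W, IsOpen W ∧ p ∈ W ∧ W ⊆ V ∧ ∃ U : E → F, DifferentiableOn ℂ U W ∧
      ∀ x ∈ W, g x ≠ 0 → U x = u x := by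
    intro p hp
    obtain ⟨C, hC⟩ := hb p hp
    obtain ⟨W, hW, hWo, hpW⟩ := _root_.eventually_nhds_iff.1 hC
    obtain ⟨W', h1, h2, h3, U, h4, h5⟩ := Vale.Agent.P267.H338.riemann_extension
      (hV.inter hWo) (p := p) ⟨hp, hpW⟩ (hg.mono inter_subset_left) (hne p hp)
      (hu.mono (inter_subset_inter_left _ inter_subset_left))
      (C := C) (fun x hx hgx => hW x hx.2 hgx)
    exact ⟨W', h1, h2, fun x hx => (h3 hx).1, U, h4, h5⟩
  have hlim : ∀ p ∈ V, (𝓝[{x | g x ≠ 0}] p).NeBot := by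
    intro p hp
    rw [nhdsWithin_neBot]
    intro t ht
    obtain ⟨x, hx, hxt⟩ := ((hne p hp).and_eventually ht).exists
    exact ⟨x, hxt, hx⟩
  refine ⟨extendFrom {x | g x ≠ 0} u, ?_, ?_⟩
  · intro p hp
    obtain ⟨W, hW, hpW, hWV, U, hU, hUu⟩ := key p hp
    have h1 : extendFrom {x | g x ≠ 0} u =ᶠ[𝓝 p] U := by
      filter_upwards [hW.mem_nhds hpW] with x hx
      have := hlim x (hWV hx)
      refine Filter.Tendsto.limUnder_eq ?_
      have h2 : Tendsto U (𝓝[{x | g x ≠ 0}] x) (𝓝 (U x)) :=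
        (hU.continuousOn.continuousAt (hW.mem_nhds hx)).mono_left nhdsWithin_le_nhds
      refine h2.congr' ?_
      filter_upwards [mem_nhdsWithin_of_mem_nhds (hW.mem_nhds hx), self_mem_nhdsWithin]
        with y hy hgy
      exact hUu y hy hgy
    have h2 : DifferentiableAt ℂ U p := hU.differentiableAt (hW.mem_nhds hpW)
    exact (h2.congr_of_eventuallyEq h1).differentiableWithinAt
  · intro x hx hgx
    have := hlim x hx
    refine Filter.Tendsto.limUnder_eq ?_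
    have hO : IsOpen (V ∩ {x | g x ≠ 0}) := by
      have := hg.continuousOn.isOpen_inter_preimage hV isOpen_compl_singleton (t := {(0 : ℂ)}ᶜ)
      exact this
    exact (hu.continuousOn.continuousAt (hO.mem_nhds ⟨hx, hgx⟩)).mono_left nhdsWithin_le_nhds

/-- functions of period `2πi` are functions of the exponential, with extension over `0` -/
theorem descend {Ω₁ : Set E} (hΩ₁ : IsOpen Ω₁) {G : E × ℂ → ℂ} {M : ℝ}
    (hG : DifferentiableOn ℂ G (Ω₁ ×ˢ {w | w.re < M}))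
    (hper : ∀ x ∈ Ω₁, ∀ w : ℂ, w.re < M → G (x, w + 2 * Real.pi * Complex.I) = G (x, w))
    (hb : ∀ x ∈ Ω₁, ∃ C M' : ℝ, ∀ᶠ y in 𝓝 x, ∀ w : ℂ, w.re < M' → ‖G (y, w)‖ ≤ C) :
    ∃ Z : E × ℂ → ℂ, DifferentiableOn ℂ Z (Ω₁ ×ˢ ball 0 (Real.exp M)) ∧
      ∀ x ∈ Ω₁, ∀ w : ℂ, w.re < M → Z (x, Complex.exp w) = G (x, w) := by
  have hstrip : IsOpen {w : ℂ | w.re < M} := isOpen_lt Complex.continuous_re continuous_const
  have hperN : ∀ x ∈ Ω₁, ∀ k : ℕ, ∀ w : ℂ, w.re < M →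
      G (x, w + k * (2 * Real.pi * Complex.I)) = G (x, w) := by
    intro x hx k
    induction k with
    | zero => intro w hw; simp
    | succ k ih =>
      intro w hw
      rw [← ih w hw, ← hper x hx (w + k * (2 * Real.pi * Complex.I)) (by simpa using hw)]
      congr 2
      push_cast
      ring
  have hperZ : ∀ x ∈ Ω₁, ∀ k : ℤ, ∀ w : ℂ, w.re < M →
      G (x, w + k * (2 * Real.pi * Complex.I)) = G (x, w) := by
    intro x hx k w hw
    obtain ⟨m, rfl | rfl⟩ := k.eq_nat_or_neg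
    · exact_mod_cast hperN x hx m w hw
    · have h1 := hperN x hx m (w + ((-(m : ℤ) : ℤ) : ℂ) * (2 * Real.pi * Complex.I))
        (by simpa using hw)
      rw [← h1]
      congr 2
      push_cast
      ring
  have hexp : ∀ x ∈ Ω₁, ∀ w w' : ℂ, w.re < M → Complex.exp w = Complex.exp w' →
      G (x, w) = G (x, w') := by
    intro x hx w w' hw hww
    obtain ⟨k, hk⟩ := Complex.exp_eq_exp_iff_exists_int.1 hww
    have hw' : w'.re < M := by
      have h1 : ‖Complex.exp w‖ = ‖Complex.exp w'‖ := by rw [hww]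
      rw [Complex.norm_exp, Complex.norm_exp, Real.exp_eq_exp] at h1
      rwa [← h1]
    rw [hk]
    exact hperZ x hx k w' hw'
  have hlogre : ∀ b : ℂ, b ≠ 0 → ‖b‖ < Real.exp M → (Complex.log b).re < M := by
    intro b hb0 hb1
    rw [Complex.log_re]
    rw [← Real.log_exp M]
    exact Real.log_lt_log (norm_pos_iff.2 hb0) hb1
  suffices hex : ∃ U : E × ℂ → ℂ, DifferentiableOn ℂ U (Ω₁ ×ˢ ball 0 (Real.exp M)) ∧
      ∀ x ∈ Ω₁ ×ˢ ball 0 (Real.exp M), x.2 ≠ 0 → U x = G (x.1, Complex.log x.2) by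
    obtain ⟨Z, hZ, hZu⟩ := hex
    refine ⟨Z, hZ, fun x hx w hw => ?_⟩
    have h1 : ‖Complex.exp w‖ < Real.exp M := by
      rw [Complex.norm_exp]
      exact Real.exp_lt_exp.2 hw
    rw [hZu (x, Complex.exp w) ⟨hx, mem_ball_zero_iff.2 h1⟩ (Complex.exp_ne_zero w)]
    exact hexp x hx _ _ (hlogre _ (Complex.exp_ne_zero w) h1)
      (Complex.exp_log (Complex.exp_ne_zero w))
  refine riemann_global (E := E × ℂ) (F := ℂ) (g := fun p => p.2)
    (u := fun p => G (p.1, Complex.log p.2)) (V := Ω₁ ×ˢ ball 0 (Real.exp M))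
    (hΩ₁.prod isOpen_ball) differentiableOn_snd ?_ ?_ ?_
  · -- density
    rintro ⟨x, b⟩ -
    have h1 : ∃ᶠ c : ℂ in 𝓝 b, c ≠ 0 := by
      have h2 : Dense ({0}ᶜ : Set ℂ) := dense_compl_singleton 0
      exact mem_closure_iff_frequently.1 (h2 b)
    have h2 : Tendsto (fun c : ℂ => ((x, c) : E × ℂ)) (𝓝 b) (𝓝 (x, b)) :=
      (Continuous.prodMk_right x).continuousAt
    exact h2.frequently (p := fun q : E × ℂ => q.2 ≠ 0) h1
  · -- holomorphic
    rintro ⟨x₀, b₀⟩ ⟨⟨hx₀, hb₀⟩, hb0⟩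
    change b₀ ≠ 0 at hb0
    have hL : ∀ᶠ p : E × ℂ in 𝓝 (x₀, b₀), p.1 ∈ Ω₁ ∧ p.2 ∈ ball (0 : ℂ) (Real.exp M) ∧
        p.2 / b₀ ∈ Complex.slitPlane := by
      have h1 : ContinuousAt (fun p : E × ℂ => p.2 / b₀) (x₀, b₀) :=
        continuousAt_snd.div_const _
      have h2 : ∀ᶠ p : E × ℂ in 𝓝 (x₀, b₀), p.2 / b₀ ∈ Complex.slitPlane := by
        refine h1.eventually (Complex.isOpen_slitPlane.eventually_mem ?_)
        simp [div_self hb0]
      have h3 : ∀ᶠ p : E × ℂ in 𝓝 (x₀, b₀), p ∈ Ω₁ ×ˢ ball (0 : ℂ) (Real.exp M) :=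
        (hΩ₁.prod isOpen_ball).mem_nhds ⟨hx₀, hb₀⟩
      filter_upwards [h2, h3] with p hp2 hp3
      exact ⟨hp3.1, hp3.2, hp2⟩
    have heq : (fun p : E × ℂ => G (p.1, Complex.log p.2)) =ᶠ[𝓝 (x₀, b₀)]
        fun p => G (p.1, Complex.log (p.2 / b₀) + Complex.log b₀) := by
      filter_upwards [hL] with p hp
      have hp0 : p.2 ≠ 0 := by
        intro h0
        have := Complex.slitPlane_ne_zero hp.2.2
        rw [h0, zero_div] at this
        exact this rfl
      refine hexp p.1 hp.1 _ _ (hlogre _ hp0 (mem_ball_zero_iff.1 hp.2.1)) ?_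
      rw [Complex.exp_log hp0, Complex.exp_add, Complex.exp_log (div_ne_zero hp0 hb0),
        Complex.exp_log hb0]
      field_simp
    refine DifferentiableAt.differentiableWithinAt ?_
    refine DifferentiableAt.congr_of_eventuallyEq ?_ heq
    have h1 : DifferentiableAt ℂ (fun p : E × ℂ =>
        ((p.1, Complex.log (p.2 / b₀) + Complex.log b₀) : E × ℂ)) (x₀, b₀) := by
      refine differentiableAt_fst.prodMk (DifferentiableAt.add_const _ ?_)
      have h0 : DifferentiableAt ℂ (fun p : E × ℂ => p.2 / b₀) (x₀, b₀) := by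
        simp only [div_eq_mul_inv]
        exact differentiableAt_snd.mul_const _
      refine DifferentiableAt.clog h0 ?_
      simp [div_self hb0]
    have h2 : DifferentiableAt ℂ G (x₀, Complex.log (b₀ / b₀) + Complex.log b₀) := by
      refine hG.differentiableAt ((hΩ₁.prod hstrip).mem_nhds ⟨hx₀, ?_⟩)
      have h3 := hlogre b₀ hb0 (mem_ball_zero_iff.1 hb₀)
      simpa [div_self hb0] using h3
    exact DifferentiableAt.comp (x₀, b₀) (g := G) h2 h1
  · -- bounded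
    rintro ⟨x₀, b₀⟩ ⟨hx₀, hb₀⟩
    rcases eq_or_ne b₀ 0 with h0 | h0
    · subst h0
      obtain ⟨C, M', hC⟩ := hb x₀ hx₀
      refine ⟨C, ?_⟩
      have h1 : ∀ᶠ p : E × ℂ in 𝓝 (x₀, (0 : ℂ)), ∀ w : ℂ, w.re < M' → ‖G (p.1, w)‖ ≤ C :=
        (continuousAt_fst (p := (x₀, (0 : ℂ)))).eventually hC
      have h2 : ∀ᶠ p : E × ℂ in 𝓝 (x₀, (0 : ℂ)), p.2 ∈ ball (0 : ℂ) (Real.exp M') :=
        continuousAt_snd.eventually (ball_mem_nhds 0 (Real.exp_pos M'))
      filter_upwards [h1, h2] with p hp1 hp2 hp0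
      refine hp1 _ ?_
      rw [Complex.log_re]
      rw [← Real.log_exp M']
      exact Real.log_lt_log (norm_pos_iff.2 hp0) (mem_ball_zero_iff.1 hp2)
    · -- use the same local expression: continuity
      have hlogc : ∀ᶠ p : E × ℂ in 𝓝 (x₀, b₀), p.1 ∈ Ω₁ ∧ p.2 ∈ ball (0 : ℂ) (Real.exp M) ∧
          p.2 / b₀ ∈ Complex.slitPlane := by
        have h1 : ContinuousAt (fun p : E × ℂ => p.2 / b₀) (x₀, b₀) :=
          continuousAt_snd.div_const _
        have h2 : ∀ᶠ p : E × ℂ in 𝓝 (x₀, b₀), p.2 / b₀ ∈ Complex.slitPlane := by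
          refine h1.eventually (Complex.isOpen_slitPlane.eventually_mem ?_)
          simp [div_self h0]
        have h3 : ∀ᶠ p : E × ℂ in 𝓝 (x₀, b₀), p ∈ Ω₁ ×ˢ ball (0 : ℂ) (Real.exp M) :=
          (hΩ₁.prod isOpen_ball).mem_nhds ⟨hx₀, hb₀⟩
        filter_upwards [h2, h3] with p hp2 hp3
        exact ⟨hp3.1, hp3.2, hp2⟩
      have h1 : DifferentiableAt ℂ (fun p : E × ℂ =>
          ((p.1, Complex.log (p.2 / b₀) + Complex.log b₀) : E × ℂ)) (x₀, b₀) := by
        refine differentiableAt_fst.prodMk (DifferentiableAt.add_const _ ?_)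
        have h00 : DifferentiableAt ℂ (fun p : E × ℂ => p.2 / b₀) (x₀, b₀) := by
          simp only [div_eq_mul_inv]
          exact differentiableAt_snd.mul_const _
        refine DifferentiableAt.clog h00 ?_
        simp [div_self h0]
      have h2 : DifferentiableAt ℂ G (x₀, Complex.log (b₀ / b₀) + Complex.log b₀) := by
        refine hG.differentiableAt ((hΩ₁.prod hstrip).mem_nhds ⟨hx₀, ?_⟩)
        have h3 := hlogre b₀ h0 (mem_ball_zero_iff.1 hb₀)
        simpa [div_self h0] using h3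
      have h3 : ContinuousAt (fun p : E × ℂ => G (p.1, Complex.log (p.2 / b₀) + Complex.log b₀))
          (x₀, b₀) := (DifferentiableAt.comp (x₀, b₀) (g := G) h2 h1).continuousAt
      refine ⟨‖G (x₀, Complex.log (b₀ / b₀) + Complex.log b₀)‖ + 1, ?_⟩
      have h4 := h3.norm.eventually (eventually_lt_nhds (lt_add_one _))
      filter_upwards [h4, hlogc] with p hp hp' hp0
      have h5 : G (p.1, Complex.log p.2) = G (p.1, Complex.log (p.2 / b₀) + Complex.log b₀) := by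
        refine hexp p.1 hp'.1 _ _ (hlogre _ hp0 (mem_ball_zero_iff.1 hp'.2.1)) ?_
        rw [Complex.exp_log hp0, Complex.exp_add, Complex.exp_log (div_ne_zero hp0 h0),
          Complex.exp_log h0]
        field_simp
      rw [h5]
      exact hp.le

namespace PFam

variable {Ω : Set E} {n : ℕ} {P : E → ℂ[X]}

/-- a translation under which the family is invariant permutes the roots -/
theorem exists_perm (h : PFam Ω n P) (hs : Simple Ω P) (hΩ : IsOpen Ω) (hc : IsPreconnected Ω)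
    {ζ : Fin n → E → ℂ} (hζd : ∀ i, DifferentiableOn ℂ (ζ i) Ω)
    (hinj : ∀ q ∈ Ω, Function.Injective fun i => ζ i q)
    (hP : ∀ q ∈ Ω, P q = ∏ i, (X - C (ζ i q))) {τ : E} (hτ : ∀ q ∈ Ω, q + τ ∈ Ω)
    (hPτ : ∀ q ∈ Ω, P (q + τ) = P q) :
    ∃ σ : Equiv.Perm (Fin n), ∀ i, ∀ q ∈ Ω, ζ i (q + τ) = ζ (σ i) q := by
  classical
  rcases Ω.eq_empty_or_nonempty with h0 | ⟨q₀, hq₀⟩
  · subst h0
    exact ⟨1, fun i q hq => hq.elim⟩
  have hroot : ∀ q ∈ Ω, ∀ z, (P q).eval z = 0 → ∃ j, ζ j q = z := by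
    intro q hq z hz
    rw [hP q hq, eval_prod, Finset.prod_eq_zero_iff] at hz
    obtain ⟨j, -, hj⟩ := hz
    refine ⟨j, ?_⟩
    simp only [eval_sub, eval_X, eval_C] at hj
    linear_combination -hj
  have hev : ∀ i, ∀ q ∈ Ω, (P q).eval (ζ i q) = 0 := by
    intro i q hq
    rw [hP q hq, eval_prod]
    exact Finset.prod_eq_zero (Finset.mem_univ i) (by simp)
  have hev' : ∀ i, ∀ q ∈ Ω, (P q).eval (ζ i (q + τ)) = 0 := by
    intro i q hq
    rw [← hPτ q hq]
    exact hev i _ (hτ q hq)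
  choose s hs' using fun i => hroot q₀ hq₀ _ (hev' i q₀ hq₀)
  have hcont : ∀ i, ContinuousOn (fun q => ζ i (q + τ)) Ω := by
    intro i
    exact (hζd i).continuousOn.comp (continuous_id.add continuous_const).continuousOn hτ
  have hall : ∀ i, ∀ q ∈ Ω, ζ i (q + τ) = ζ (s i) q := by
    intro i
    exact h.root_unique hs hΩ hΩ hc subset_rfl (hcont i)
      (hζd (s i)).continuousOn (hev' i) (hev (s i)) hq₀ (hs' i).symm
  have hsinj : Function.Injective s := by
    intro i j hij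
    have h1 := hall i q₀ hq₀
    have h2 := hall j q₀ hq₀
    rw [hij, ← h2] at h1
    exact hinj _ (hτ q₀ hq₀) h1
  exact ⟨Equiv.ofBijective s ⟨hsinj, Finite.surjective_of_injective hsinj⟩, hall⟩

end PFam

omit [FiniteDimensional ℂ E] in
theorem iterate_perm {Ω : Set E} {n : ℕ} {ζ : Fin n → E → ℂ} {τ : E}
    (hτ : ∀ q ∈ Ω, q + τ ∈ Ω) {σ : Equiv.Perm (Fin n)}
    (hσ : ∀ i, ∀ q ∈ Ω, ζ i (q + τ) = ζ (σ i) q) (k : ℕ) :
    ∀ i, ∀ q ∈ Ω, q + (k : ℂ) • τ ∈ Ω ∧ ζ i (q + (k : ℂ) • τ) = ζ ((σ ^ k) i) q := by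
  induction k with
  | zero => intro i q hq; simp [hq]
  | succ k ih =>
    intro i q hq
    have h1 : q + ((k + 1 : ℕ) : ℂ) • τ = (q + (k : ℂ) • τ) + τ := by
      push_cast
      rw [add_smul, one_smul, add_assoc]
    obtain ⟨h2, -⟩ := ih i q hq
    obtain ⟨-, h3⟩ := ih (σ i) q hq
    rw [h1, hσ _ _ h2, h3]
    refine ⟨hτ _ h2, ?_⟩
    rw [pow_succ, Equiv.Perm.mul_apply]

theorem perm_pow_eq_one {n : ℕ} (σ : Equiv.Perm (Fin n)) {K : ℕ} (hK : n.factorial ∣ K) :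
    σ ^ K = 1 := by
  obtain ⟨m, rfl⟩ := hK
  rw [pow_mul]
  have h1 : σ ^ n.factorial = 1 := by
    have h2 := pow_card_eq_one (x := σ)
    rwa [Fintype.card_perm, Fintype.card_fin] at h2
  rw [h1, one_pow]

end Vale.Agent.P298.H983
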