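import Vale.Agent.P298.H983.AJ4

/-!
# P298 / H983 (row E1-AJ), part 5: functions without zeros off the axes are monomial * unit
-/

open Set Filter Metric Topology Polynomial

noncomputable section

namespace Vale.Agent.P298.H983

variable {E : Type*} [NormedAddCommGroup E] [NormedSpace ℂ E] [FiniteDimensional ℂ E]

/-- division by the second coordinate -/
theorem div_snd {V : Set (E × ℂ)} (hV : IsOpen V) {g : E × ℂ → ℂ} (hg : DifferentiableOn ℂ g V)
    (h0 : ∀ q ∈ V, q.2 = 0 → g q = 0) :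
    ∃ g' : E × ℂ → ℂ, DifferentiableOn ℂ g' V ∧ ∀ q ∈ V, g q = q.2 * g' q := by
  have hCD : ContDiffOn ℂ 1 g V := Vale.Agent.P268.contDiffOn_of_differentiableOn hV hg 1
  obtain ⟨U, hU, hUg⟩ := riemann_global (E := E × ℂ) (F := ℂ) (g := fun p => p.2)
    (u := fun p => g p / p.2) (V := V) hV differentiableOn_snd
    (fun p _ => frequently_snd_ne p)
    (by
      simp only [div_eq_mul_inv]
      exact (hg.mono inter_subset_left).mul (DifferentiableOn.inv differentiableOn_snd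
        fun p hp => hp.2)) (by
      rintro ⟨x, b⟩ hp
      rcases eq_or_ne b 0 with hb | hb
      · subst hb
        have h1 : ContDiffAt ℂ 1 g (x, 0) := (hCD _ hp).contDiffAt (hV.mem_nhds hp)
        obtain ⟨K, t, ht, hL⟩ := h1.exists_lipschitzOnWith
        refine ⟨K, ?_⟩
        have h2 : Tendsto (fun q : E × ℂ => ((q.1, 0) : E × ℂ)) (𝓝 (x, (0 : ℂ)))
            (𝓝 (x, (0 : ℂ))) :=
          (continuous_fst.prodMk continuous_const).continuousAt
        filter_upwards [ht, hV.mem_nhds hp, h2 ht, h2 (hV.mem_nhds hp)] with q hq hqV hq' hqV' hq0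
        have h3 := hL.dist_le_mul q hq (q.1, 0) hq'
        rw [h0 (q.1, 0) hqV' rfl, dist_zero_right] at h3
        have h4 : dist q (q.1, 0) = ‖q.2‖ := by
          rw [Prod.dist_eq]
          simp
        rw [h4] at h3
        rw [norm_div]
        exact div_le_of_le_mul₀ (norm_nonneg _) K.2 h3
      · have h1 : ContinuousAt (fun p : E × ℂ => g p / p.2) (x, b) :=
          (hg.continuousOn.continuousAt (hV.mem_nhds hp)).div continuousAt_snd hb
        refine ⟨‖g (x, b) / b‖ + 1, ?_⟩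
        filter_upwards [h1.norm.eventually (eventually_lt_nhds (lt_add_one _))] with p hp _
        exact hp.le)
  refine ⟨U, hU, fun q hq => ?_⟩
  rcases eq_or_ne q.2 0 with h1 | h1
  · rw [h0 q hq h1, h1, zero_mul]
  · rw [hUg q hq h1, mul_div_cancel₀ _ h1]

/-- maximal power of the second coordinate -/
theorem div_snd_max {V : Set (E × ℂ)} (hV : IsOpen V) {g : E × ℂ → ℂ}
    (hg : DifferentiableOn ℂ g V) {x₀ : E} (hx₀ : (x₀, (0 : ℂ)) ∈ V)
    (hne : ∀ᶠ b in 𝓝[≠] (0 : ℂ), g (x₀, b) ≠ 0) :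
    ∃ (p : ℕ) (g' : E × ℂ → ℂ), DifferentiableOn ℂ g' V ∧ (∀ q ∈ V, g q = q.2 ^ p * g' q) ∧
      ∃ q ∈ V, q.2 = 0 ∧ g' q ≠ 0 := by
  classical
  by_contra hcon
  push Not at hcon
  have hall : ∀ p : ℕ, ∃ g' : E × ℂ → ℂ, DifferentiableOn ℂ g' V ∧
      ∀ q ∈ V, g q = q.2 ^ p * g' q := by
    intro p
    induction p with
    | zero => exact ⟨g, hg, fun q _ => by simp⟩
    | succ p ih =>
      obtain ⟨g', h1, h2⟩ := ih
      obtain ⟨g'', h3, h4⟩ := div_snd hV h1 (hcon p g' h1 h2)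
      refine ⟨g'', h3, fun q hq => ?_⟩
      rw [h2 q hq, h4 q hq, pow_succ]
      ring
  -- the slice has finite order
  have hsl : ContinuousAt (fun b : ℂ => ((x₀, b) : E × ℂ)) 0 :=
    (Continuous.prodMk_right x₀).continuousAt
  have hVn : ∀ᶠ b in 𝓝 (0 : ℂ), ((x₀, b) : E × ℂ) ∈ V := hsl.eventually (hV.mem_nhds hx₀)
  have hana : ∀ u : E × ℂ → ℂ, DifferentiableOn ℂ u V → AnalyticAt ℂ (fun b => u (x₀, b)) 0 := by
    intro u hu
    rw [Complex.analyticAt_iff_eventually_differentiableAt]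
    filter_upwards [hVn] with b hb
    have h1 : DifferentiableAt ℂ (fun b : ℂ => ((x₀, b) : E × ℂ)) b :=
      (differentiableAt_const x₀).prodMk differentiableAt_id
    exact DifferentiableAt.comp b (g := u) (hu.differentiableAt (hV.mem_nhds hb)) h1
  have hfin : analyticOrderAt (fun b => g (x₀, b)) 0 ≠ ⊤ := by
    intro htop
    rw [analyticOrderAt_eq_top] at htop
    obtain ⟨b, hb, hb'⟩ := ((htop.filter_mono nhdsWithin_le_nhds).and hne).exists
    exact hb' hb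
  obtain ⟨N, hN⟩ := ENat.ne_top_iff_exists.1 hfin
  obtain ⟨g', h1, h2⟩ := hall (N + 1)
  have h3 : ((N + 1 : ℕ) : ℕ∞) ≤ analyticOrderAt (fun b => g (x₀, b)) 0 := by
    rw [natCast_le_analyticOrderAt (hana g hg)]
    refine ⟨fun b => g' (x₀, b), hana g' h1, ?_⟩
    filter_upwards [hVn] with b hb
    rw [h2 _ hb]
    simp
  rw [← hN] at h3
  have h4 : N + 1 ≤ N := by exact_mod_cast h3
  omega

/-- non-vanishing at a point from non-vanishing on nearby discs -/
theorem ne_zero_of_discs {u : ℂ × ℂ → ℂ} {V : Set (ℂ × ℂ)} (hV : IsOpen V)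
    (hu : DifferentiableOn ℂ u V) {b₀ : ℂ} {ρ : ℝ} (hρ : 0 < ρ)
    (hd : ∀ b ∈ closedBall b₀ ρ, ((0 : ℂ), b) ∈ V)
    (hc : ∀ b ∈ sphere b₀ ρ, u (0, b) ≠ 0)
    (hn : ∀ᶠ a in 𝓝[≠] (0 : ℂ), ∀ b ∈ closedBall b₀ ρ, u (a, b) ≠ 0) : u (0, b₀) ≠ 0 := by
  intro h0
  -- lower bound on the circle
  have hK : IsCompact (closedBall b₀ ρ) := isCompact_closedBall b₀ ρ
  have hS : IsCompact (sphere b₀ ρ) := isCompact_sphere b₀ ρ
  obtain ⟨b₁, hb₁, hmin⟩ := hS.exists_isMinOn (NormedSpace.sphere_nonempty.2 hρ.le)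
    (f := fun b => ‖u (0, b)‖) (by
      refine ContinuousOn.norm (hu.continuousOn.comp (Continuous.prodMk_right 0).continuousOn
        fun b hb => hd b (sphere_subset_closedBall hb)))
  set δ := ‖u (0, b₁)‖ with hδ
  have hδ0 : 0 < δ := norm_pos_iff.2 (hc b₁ hb₁)
  -- nearby circles
  have h1 : ∀ᶠ a in 𝓝 (0 : ℂ), ∀ b ∈ sphere b₀ ρ, δ / 2 < ‖u (a, b)‖ := by
    have hO : IsOpen (V ∩ {q | δ / 2 < ‖u q‖}) := by
      have := hu.continuousOn.norm.isOpen_inter_preimage hV (isOpen_Ioi (a := δ / 2))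
      exact this
    obtain ⟨U, W, hU, hW, hU0, hSW, hUW⟩ := generalized_tube_lemma (s := {(0 : ℂ)})
      isCompact_singleton hS hO (by
        rintro ⟨a, b⟩ ⟨ha, hb⟩
        rw [mem_singleton_iff] at ha
        change a = 0 at ha
        subst ha
        have h2 : δ ≤ ‖u (0, b)‖ := hmin hb
        exact ⟨hd b (sphere_subset_closedBall hb), by
          change δ / 2 < ‖u (0, b)‖
          linarith⟩)
    filter_upwards [hU.mem_nhds (hU0 (mem_singleton _))] with a ha b hb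
    exact (hUW (⟨ha, hSW hb⟩ : ((a, b) : ℂ × ℂ) ∈ U ×ˢ W)).2
  have h1' : ∀ᶠ a in 𝓝 (0 : ℂ), ∀ b ∈ closedBall b₀ ρ, ((a, b) : ℂ × ℂ) ∈ V := by
    obtain ⟨U, W, hU, hW, hU0, hSW, hUW⟩ := generalized_tube_lemma (s := {(0 : ℂ)})
      isCompact_singleton hK hV (by
        rintro ⟨a, b⟩ ⟨ha, hb⟩
        rw [mem_singleton_iff] at ha
        change a = 0 at ha
        subst ha
        exact hd b hb)
    filter_upwards [hU.mem_nhds (hU0 (mem_singleton _))] with a ha b hb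
    exact hUW (⟨ha, hSW hb⟩ : ((a, b) : ℂ × ℂ) ∈ U ×ˢ W)
  -- minimum modulus at the centre
  have h2 : ∀ᶠ a in 𝓝[≠] (0 : ℂ), δ / 2 ≤ ‖u (a, b₀)‖ := by
    filter_upwards [hn, h1.filter_mono nhdsWithin_le_nhds, h1'.filter_mono nhdsWithin_le_nhds]
      with a ha ha1 haV
    have h3 : DifferentiableOn ℂ (fun b => (u (a, b))⁻¹) (closedBall b₀ ρ) := by
      refine DifferentiableOn.inv ?_ ha
      refine hu.comp ?_ haV
      exact (differentiable_const a).differentiableOn.prodMk differentiableOn_id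
    have h4 : DiffContOnCl ℂ (fun b => (u (a, b))⁻¹) (ball b₀ ρ) := by
      refine DifferentiableOn.diffContOnCl ?_
      rwa [closure_ball _ hρ.ne']
    have h5 := Complex.norm_le_of_forall_mem_frontier_norm_le isBounded_ball h4
      (C := (δ / 2)⁻¹) (by
        intro b hb
        rw [frontier_ball _ hρ.ne'] at hb
        rw [norm_inv]
        exact inv_anti₀ (by positivity) (ha1 b hb).le) (z := b₀)
      (subset_closure (mem_ball_self hρ))
    rw [norm_inv] at h5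
    exact (inv_le_inv₀ (norm_pos_iff.2 (ha b₀ (mem_closedBall_self hρ.le)))
      (by positivity)).1 h5
  have h3 : ContinuousAt (fun a : ℂ => ‖u (a, b₀)‖) 0 := by
    have h4 : ContinuousAt (fun a : ℂ => ((a, b₀) : ℂ × ℂ)) 0 :=
      (Continuous.prodMk_left b₀).continuousAt
    have h5 : ContinuousAt u (0, b₀) :=
      hu.continuousOn.continuousAt (hV.mem_nhds (hd b₀ (mem_closedBall_self hρ.le)))
    exact (ContinuousAt.comp_of_eq h5 h4 rfl).norm
  have h4 : δ / 2 ≤ ‖u (0, b₀)‖ := by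
    have h6 : Tendsto (fun a : ℂ => ‖u (a, b₀)‖) (𝓝[≠] 0) (𝓝 ‖u (0, b₀)‖) :=
      h3.tendsto.mono_left nhdsWithin_le_nhds
    exact ge_of_tendsto h6 h2
  rw [h0, norm_zero] at h4
  linarith

/-- **monomial times unit**: a holomorphic function on a bidisc without zeros off `ab = 0` is
`a^p b^r u` with `u` holomorphic without zeros on the whole bidisc. -/
theorem exists_monomial {A B : ℝ} (hA : 0 < A) (hB : 0 < B) {g : ℂ × ℂ → ℂ}
    (hg : DifferentiableOn ℂ g (ball 0 A ×ˢ ball 0 B))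
    (hne : ∀ q ∈ ball (0 : ℂ) A ×ˢ ball (0 : ℂ) B, q.1 ≠ 0 → q.2 ≠ 0 → g q ≠ 0) :
    ∃ (p r : ℕ) (u : ℂ × ℂ → ℂ), DifferentiableOn ℂ u (ball 0 A ×ˢ ball 0 B) ∧
      (∀ q ∈ ball (0 : ℂ) A ×ˢ ball (0 : ℂ) B, u q ≠ 0) ∧
      ∀ q ∈ ball (0 : ℂ) A ×ˢ ball (0 : ℂ) B, g q = q.1 ^ p * q.2 ^ r * u q := by
  set V : Set (ℂ × ℂ) := ball 0 A ×ˢ ball 0 B with hVdef
  have hV : IsOpen V := isOpen_ball.prod isOpen_ball
  set W : Set (ℂ × ℂ) := ball 0 B ×ˢ ball 0 A with hWdef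
  have hW : IsOpen W := isOpen_ball.prod isOpen_ball
  have hsw : DifferentiableOn ℂ (fun q : ℂ × ℂ => ((q.2, q.1) : ℂ × ℂ)) W :=
    (differentiable_snd.prodMk differentiable_fst).differentiableOn
  have hsw' : DifferentiableOn ℂ (fun q : ℂ × ℂ => ((q.2, q.1) : ℂ × ℂ)) V :=
    (differentiable_snd.prodMk differentiable_fst).differentiableOn
  have hswm : MapsTo (fun q : ℂ × ℂ => ((q.2, q.1) : ℂ × ℂ)) W V := fun q hq => ⟨hq.2, hq.1⟩
  have hswm' : MapsTo (fun q : ℂ × ℂ => ((q.2, q.1) : ℂ × ℂ)) V W := fun q hq => ⟨hq.2, hq.1⟩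
  -- divide by `a`
  obtain ⟨a₁, ha₁, ha₁0⟩ : ∃ a : ℂ, a ∈ ball (0 : ℂ) A ∧ a ≠ 0 := by
    refine ⟨((A / 2 : ℝ) : ℂ), ?_, ?_⟩
    · rw [mem_ball_zero_iff, Complex.norm_real, Real.norm_eq_abs, abs_of_pos (half_pos hA)]
      linarith
    · exact_mod_cast (half_pos hA).ne'
  obtain ⟨b₁, hb₁, hb₁0⟩ : ∃ a : ℂ, a ∈ ball (0 : ℂ) B ∧ a ≠ 0 := by
    refine ⟨((B / 2 : ℝ) : ℂ), ?_, ?_⟩
    · rw [mem_ball_zero_iff, Complex.norm_real, Real.norm_eq_abs, abs_of_pos (half_pos hB)]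
      linarith
    · exact_mod_cast (half_pos hB).ne'
  obtain ⟨p, g₁, hg₁, hg₁e, q₁, hq₁, hq₁0, hq₁n⟩ := div_snd_max hW (g := fun q => g (q.2, q.1))
    (hg.comp hsw hswm) (x₀ := b₁) ⟨hb₁, mem_ball_self hA⟩ (by
      filter_upwards [self_mem_nhdsWithin,
        mem_nhdsWithin_of_mem_nhds (ball_mem_nhds (0 : ℂ) hA)] with a ha haA
      exact hne (a, b₁) ⟨haA, hb₁⟩ ha hb₁0)
  -- divide by `b`
  have hg₂d : DifferentiableOn ℂ (fun q : ℂ × ℂ => g₁ (q.2, q.1)) V := hg₁.comp hsw' hswm'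
  have hg₂n : ∀ q ∈ V, q.1 ≠ 0 → q.2 ≠ 0 → g₁ (q.2, q.1) ≠ 0 := by
    intro q hq h1 h2 h3
    have h4 := hg₁e (q.2, q.1) (hswm' hq)
    simp only at h4
    rw [h3, mul_zero] at h4
    exact hne q hq h1 h2 h4
  obtain ⟨r, u, hu, hue, q₂, hq₂, hq₂0, hq₂n⟩ := div_snd_max hV (g := fun q => g₁ (q.2, q.1))
    hg₂d (x₀ := a₁) ⟨ha₁, mem_ball_self hB⟩ (by
      filter_upwards [self_mem_nhdsWithin,
        mem_nhdsWithin_of_mem_nhds (ball_mem_nhds (0 : ℂ) hB)] with b hb hbB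
      exact hg₂n (a₁, b) ⟨ha₁, hbB⟩ ha₁0 hb)
  have hun : ∀ q ∈ V, q.1 ≠ 0 → q.2 ≠ 0 → u q ≠ 0 := by
    intro q hq h1 h2 h3
    have h4 := hue q hq
    rw [h3, mul_zero] at h4
    exact hg₂n q hq h1 h2 h4
  -- the restrictions of `u` to the axes are not identically zero
  have hu1 : u (0, q₁.1) ≠ 0 := by
    intro h3
    have hq : ((0 : ℂ), q₁.1) ∈ V := ⟨mem_ball_self hA, hq₁.1⟩
    have h4 := hue _ hq
    rw [h3, mul_zero] at h4
    apply hq₁n
    have h5 : q₁ = (q₁.1, 0) := Prod.ext rfl hq₁0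
    rw [h5]
    exact h4
  have hu2 : u (q₂.1, 0) ≠ 0 := by
    have h5 : q₂ = (q₂.1, 0) := Prod.ext rfl hq₂0
    rw [h5] at hq₂n
    exact hq₂n
  have hfd : DifferentiableOn ℂ (fun b => u (0, b)) (ball 0 B) :=
    hu.comp ((differentiable_const (0 : ℂ)).differentiableOn.prodMk differentiableOn_id)
      fun b hb => ⟨mem_ball_self hA, hb⟩
  have hsd : DifferentiableOn ℂ (fun a => u (a, 0)) (ball 0 A) :=
    hu.comp (differentiableOn_id.prodMk (differentiable_const (0 : ℂ)).differentiableOn)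
      fun a ha => ⟨ha, mem_ball_self hB⟩
  have hiso1 : ∀ b ∈ ball (0 : ℂ) B, ∀ᶠ b' in 𝓝[≠] b, u (0, b') ≠ 0 := fun b hb =>
    Vale.Agent.P267.H338.eventually_ne_of_ne (convex_ball (0 : ℂ) B).isPreconnected
      (hfd.analyticOnNhd isOpen_ball) hq₁.1 hu1 hb
  have hiso2 : ∀ a ∈ ball (0 : ℂ) A, ∀ᶠ a' in 𝓝[≠] a, u (a', 0) ≠ 0 := fun a ha =>
    Vale.Agent.P267.H338.eventually_ne_of_ne (convex_ball (0 : ℂ) A).isPreconnected
      (hsd.analyticOnNhd isOpen_ball) hq₂.1 hu2 ha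
  -- non-vanishing on `a = 0`
  have hrad : ∀ b ∈ ball (0 : ℂ) B, ∃ ρ > 0, closedBall b ρ ⊆ ball (0 : ℂ) B ∧
      (∀ b' ∈ sphere b ρ, u (0, b') ≠ 0) ∧ (b ≠ 0 → (0 : ℂ) ∉ closedBall b ρ) := by
    intro b hb
    obtain ⟨ε, hε, hεn⟩ := Metric.eventually_nhds_iff_ball.1
      (eventually_nhdsWithin_iff.1 (hiso1 b hb))
    obtain ⟨ε', hε', hε'n⟩ := Metric.isOpen_iff.1 isOpen_ball b hb
    set m : ℝ := min (min (ε / 2) (ε' / 2)) (if b = 0 then 1 else ‖b‖ / 2) with hm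
    have hm3 : 0 < (if b = 0 then (1 : ℝ) else ‖b‖ / 2) := by
      split_ifs with h
      · exact one_pos
      · exact half_pos (norm_pos_iff.2 h)
    have hm0 : 0 < m := lt_min (lt_min (half_pos hε) (half_pos hε')) hm3
    have hm1 : m ≤ ε / 2 := (min_le_left _ _).trans (min_le_left _ _)
    have hm2 : m ≤ ε' / 2 := (min_le_left _ _).trans (min_le_right _ _)
    refine ⟨m, hm0, ?_, ?_, ?_⟩
    · refine (closedBall_subset_ball ?_).trans hε'n
      linarith
    · intro b' hb'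
      rw [mem_sphere] at hb'
      refine hεn b' ?_ ?_
      · rw [mem_ball, hb']
        linarith
      · intro h
        rw [mem_singleton_iff] at h
        rw [h, dist_self] at hb'
        exact hm0.ne hb'
    · intro hb0 hmem
      have h1 : m ≤ ‖b‖ / 2 := by
        have h2 : m ≤ (if b = 0 then (1 : ℝ) else ‖b‖ / 2) := min_le_right _ _
        rwa [if_neg hb0] at h2
      rw [mem_closedBall, dist_comm, dist_zero_right] at hmem
      have h2 : 0 < ‖b‖ := norm_pos_iff.2 hb0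
      linarith
  have hax1 : ∀ b ∈ ball (0 : ℂ) B, u (0, b) ≠ 0 := by
    intro b hb
    obtain ⟨ρ, hρ, h1, h2, h3⟩ := hrad b hb
    refine ne_zero_of_discs hV hu hρ (fun b' hb' => ⟨mem_ball_self hA, h1 hb'⟩) h2 ?_
    filter_upwards [self_mem_nhdsWithin, mem_nhdsWithin_of_mem_nhds (ball_mem_nhds (0 : ℂ) hA),
      hiso2 0 (mem_ball_self hA)] with a ha haA ha0 b' hb'
    rcases eq_or_ne b' 0 with hb'0 | hb'0
    · rw [hb'0]
      exact ha0
    · exact hun (a, b') ⟨haA, h1 hb'⟩ ha hb'0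
  have hfin : ∀ q ∈ V, u q ≠ 0 := by
    rintro ⟨a, b⟩ ⟨ha, hb⟩
    rcases eq_or_ne a 0 with ha0 | ha0
    · subst ha0
      exact hax1 b hb
    rcases eq_or_ne b 0 with hb0 | hb0
    · subst hb0
      -- non-vanishing on `b = 0`, swap the coordinates and translate
      have hVs : IsOpen {q : ℂ × ℂ | (q.2, q.1) ∈ V} :=
        hV.preimage (continuous_snd.prodMk continuous_fst)
      have hus : DifferentiableOn ℂ (fun q : ℂ × ℂ => u (q.2, q.1)) {q : ℂ × ℂ | (q.2, q.1) ∈ V} :=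
        hu.comp (differentiable_snd.prodMk differentiable_fst).differentiableOn fun q hq => hq
      obtain ⟨ε, hε, hεn⟩ := Metric.eventually_nhds_iff_ball.1
        (eventually_nhdsWithin_iff.1 (hiso2 a ha))
      obtain ⟨ε', hε', hε'n⟩ := Metric.isOpen_iff.1 isOpen_ball a ha
      have han : 0 < ‖a‖ := norm_pos_iff.2 ha0
      set m : ℝ := min (min (ε / 2) (ε' / 2)) (‖a‖ / 2) with hm
      have hm0 : 0 < m := lt_min (lt_min (half_pos hε) (half_pos hε')) (half_pos han)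
      have hm1 : m ≤ ε / 2 := (min_le_left _ _).trans (min_le_left _ _)
      have hm2 : m ≤ ε' / 2 := (min_le_left _ _).trans (min_le_right _ _)
      have hm3 : m ≤ ‖a‖ / 2 := min_le_right _ _
      have hsub : closedBall a m ⊆ ball (0 : ℂ) A :=
        (closedBall_subset_ball (by linarith)).trans hε'n
      refine ne_zero_of_discs (u := fun q => u (q.2, q.1)) hVs hus hm0
        (fun a' ha' => ⟨hsub ha', mem_ball_self hB⟩) ?_ ?_
      · intro a' ha'
        rw [mem_sphere] at ha'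
        refine hεn a' ?_ ?_
        · rw [mem_ball, ha']
          linarith
        · intro h
          rw [mem_singleton_iff] at h
          rw [h, dist_self] at ha'
          exact hm0.ne ha'
      · filter_upwards [self_mem_nhdsWithin,
          mem_nhdsWithin_of_mem_nhds (ball_mem_nhds (0 : ℂ) hB)] with b hb hbB a' ha'
        refine hun (a', b) ⟨hsub ha', hbB⟩ ?_ hb
        intro h
        rw [mem_closedBall] at ha'
        simp only at h
        rw [h, dist_comm, dist_zero_right] at ha'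
        linarith
    · exact hun (a, b) ⟨ha, hb⟩ ha0 hb0
  refine ⟨p, r, u, hu, hfin, fun q hq => ?_⟩
  have h1 := hg₁e (q.2, q.1) (hswm' hq)
  have h2 := hue q hq
  simp only at h1 h2
  rw [h1, h2]
  ring

end Vale.Agent.P298.H983
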