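import Vale.Agent.P298.H707.Glue6
import Vale.Agent.P298.StmtFlag

/-!
# P298 / H983 (row E1-FINC), part 1: the Jacobian of `(f, e, e')` in the charts of the surface
-/

open Set Filter Metric Topology

noncomputable section

namespace Vale.Agent.P298.H983

open Vale.Agent.P298 Vale.Agent.P298.H379 Vale.Agent.P298.H707

/-- the Jacobian of a pair of functions of two variables -/
def jacG (g g' : ℂ × ℂ → ℂ) (q : ℂ × ℂ) : ℂ :=
  fderiv ℂ g q (1, 0) * fderiv ℂ g' q (0, 1) - fderiv ℂ g q (0, 1) * fderiv ℂ g' q (1, 0)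

theorem fderiv_comp_ch {e : (Fin 3 → ℂ) → ℂ} {Φ : ℂ × ℂ → Fin 3 → ℂ} {q v : ℂ × ℂ}
    (he : DifferentiableAt ℂ e (Φ q)) (hΦ : DifferentiableAt ℂ Φ q) :
    fderiv ℂ (fun q => e (Φ q)) q v = pd 0 e (Φ q) * fderiv ℂ Φ q v 0 +
      pd 1 e (Φ q) * fderiv ℂ Φ q v 1 + pd 2 e (Φ q) * fderiv ℂ Φ q v 2 := by
  have h1 : fderiv ℂ (fun q => e (Φ q)) q = (fderiv ℂ e (Φ q)).comp (fderiv ℂ Φ q) :=
    fderiv_comp (g := e) q he hΦ
  rw [h1, ContinuousLinearMap.comp_apply]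
  have h2 : fderiv ℂ Φ q v = ∑ i, fderiv ℂ Φ q v i • (Pi.single i (1 : ℂ) : Fin 3 → ℂ) := by
    funext j
    simp [Finset.sum_apply, Pi.single_apply]
  conv_lhs => rw [h2]
  rw [map_sum, Fin.sum_univ_three]
  simp only [map_smul, smul_eq_mul, pd]
  ring

/-- the Jacobian of the restrictions to a surface chart. -/
theorem jac3_chart {f e e' : (Fin 3 → ℂ) → ℂ} {Φ : ℂ × ℂ → Fin 3 → ℂ} {q : ℂ × ℂ}
    (hf : DifferentiableAt ℂ f (Φ q)) (he : DifferentiableAt ℂ e (Φ q))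
    (he' : DifferentiableAt ℂ e' (Φ q)) (hΦ : DifferentiableAt ℂ Φ q)
    (h0 : ∀ᶠ p in 𝓝 q, f (Φ p) = 0) :
    pd 2 f (Φ q) * jacG (fun q => e (Φ q)) (fun q => e' (Φ q)) q =
      jac2 Φ q * jac3 f e e' (Φ q) := by
  have hz : fderiv ℂ (fun q => f (Φ q)) q = 0 := by
    have h1 : (fun q => f (Φ q)) =ᶠ[𝓝 q] fun _ => 0 := h0
    rw [h1.fderiv_eq, fderiv_fun_const]
    rfl
  have hA := fderiv_comp_ch (v := (1, 0)) hf hΦ
  have hB := fderiv_comp_ch (v := (0, 1)) hf hΦ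
  rw [hz] at hA hB
  simp only [zero_apply] at hA hB
  rw [jacG, fderiv_comp_ch he hΦ, fderiv_comp_ch he hΦ, fderiv_comp_ch he' hΦ,
    fderiv_comp_ch he' hΦ, jac2, jac3, Matrix.det_fin_three]
  simp only [Matrix.of_apply, Matrix.cons_val_zero, Matrix.cons_val_one, Matrix.cons_val]
  set A := fderiv ℂ Φ q (1, 0)
  set B := fderiv ℂ Φ q (0, 1)
  linear_combination
    (-(((pd 1 e (Φ q) * pd 2 e' (Φ q) - pd 2 e (Φ q) * pd 1 e' (Φ q)) * -B 1 +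
      (pd 2 e (Φ q) * pd 0 e' (Φ q) - pd 0 e (Φ q) * pd 2 e' (Φ q)) * B 0))) * hA +
    (-(((pd 1 e (Φ q) * pd 2 e' (Φ q) - pd 2 e (Φ q) * pd 1 e' (Φ q)) * A 1 -
      (pd 2 e (Φ q) * pd 0 e' (Φ q) - pd 0 e (Φ q) * pd 2 e' (Φ q)) * A 0))) * hB

/-- partial derivatives of a function with a monomial factor -/
theorem fderiv_mono {g u : ℂ × ℂ → ℂ} {α β : ℕ} (hu : AnalyticAt ℂ u 0)
    (hg : ∀ᶠ q in 𝓝 (0 : ℂ × ℂ), g q = q.1 ^ α * q.2 ^ β * u q) :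
    ∀ᶠ q in 𝓝 (0 : ℂ × ℂ), ∀ v : ℂ × ℂ, fderiv ℂ g q v =
      α * q.1 ^ (α - 1) * v.1 * q.2 ^ β * u q + q.1 ^ α * (β * q.2 ^ (β - 1) * v.2) * u q +
        q.1 ^ α * q.2 ^ β * fderiv ℂ u q v := by
  filter_upwards [hg.eventually_nhds, hu.eventually_analyticAt] with q h1 h2 v
  have h3 : g =ᶠ[𝓝 q] fun q => q.1 ^ α * q.2 ^ β * u q := h1
  rw [h3.fderiv_eq]
  have e1 : HasFDerivAt (fun q : ℂ × ℂ => q.1 ^ α)
      ((α * q.1 ^ (α - 1)) • ContinuousLinearMap.fst ℂ ℂ ℂ) q :=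
    (hasDerivAt_pow α q.1).comp_hasFDerivAt q (hasFDerivAt_fst (𝕜 := ℂ) (p := q))
  have e2 : HasFDerivAt (fun q : ℂ × ℂ => q.2 ^ β)
      ((β * q.2 ^ (β - 1)) • ContinuousLinearMap.snd ℂ ℂ ℂ) q :=
    (hasDerivAt_pow β q.2).comp_hasFDerivAt q (hasFDerivAt_snd (𝕜 := ℂ) (p := q))
  have e3 := (e1.mul e2).mul h2.differentiableAt.hasFDerivAt
  have e4 : fderiv ℂ (fun q : ℂ × ℂ => q.1 ^ α * q.2 ^ β * u q) q = _ := e3.fderiv
  rw [e4]
  simp only [add_apply, smul_apply, smul_eq_mul, ContinuousLinearMap.coe_fst',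
    ContinuousLinearMap.coe_snd', Pi.mul_apply]
  ring

theorem jacG_mono {g g' u u' : ℂ × ℂ → ℂ} {α β : ℕ} (hα : 0 < α) (hu : AnalyticAt ℂ u 0)
    (hu' : AnalyticAt ℂ u' 0) (hg : ∀ᶠ q in 𝓝 (0 : ℂ × ℂ), g q = q.1 ^ α * q.2 ^ β * u q)
    (hg' : ∀ᶠ q in 𝓝 (0 : ℂ × ℂ), g' q = q.1 ^ α * q.2 ^ β * u' q) :
    ∃ w : ℂ × ℂ → ℂ, AnalyticAt ℂ w 0 ∧ ∀ᶠ q in 𝓝 (0 : ℂ × ℂ),
      jacG g g' q = q.1 ^ (2 * α - 1) * q.2 ^ (2 * β - 1) * w q := by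
  have ha : ∀ {u : ℂ × ℂ → ℂ} (v : ℂ × ℂ), AnalyticAt ℂ u 0 →
      AnalyticAt ℂ (fun q => fderiv ℂ u q v) 0 := by
    intro u v hu
    have h1 : AnalyticAt ℂ (fderiv ℂ u) 0 := hu.fderiv
    exact ((ContinuousLinearMap.apply ℂ ℂ v).analyticAt _).comp_of_eq h1 rfl
  obtain ⟨α, rfl⟩ : ∃ k, α = k + 1 := ⟨α - 1, by omega⟩
  have h1 := fderiv_mono hu hg
  have h2 := fderiv_mono hu' hg'
  have hfst : AnalyticAt ℂ (fun q : ℂ × ℂ => q.1) 0 := analyticAt_fst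
  have hsnd : AnalyticAt ℂ (fun q : ℂ × ℂ => q.2) 0 := analyticAt_snd
  rcases Nat.eq_zero_or_pos β with rfl | hβ
  · refine ⟨fun q => ((α + 1 : ℕ) * u q + q.1 * fderiv ℂ u q (1, 0)) * fderiv ℂ u' q (0, 1) -
      fderiv ℂ u q (0, 1) * ((α + 1 : ℕ) * u' q + q.1 * fderiv ℂ u' q (1, 0)), ?_, ?_⟩
    · exact (((analyticAt_const.mul hu).add (hfst.mul (ha _ hu))).mul (ha _ hu')).sub
        ((ha _ hu).mul ((analyticAt_const.mul hu').add (hfst.mul (ha _ hu'))))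
    · filter_upwards [h1, h2] with q e1 e2
      rw [jacG, e1, e1, e2, e2]
      have e3 : 2 * (α + 1) - 1 = α + (α + 1) := by omega
      rw [e3]
      simp only [Nat.add_sub_cancel, mul_zero, Nat.cast_zero, zero_mul, pow_zero, add_zero,
        mul_one, Nat.zero_sub]
      ring
  · obtain ⟨β, rfl⟩ : ∃ k, β = k + 1 := ⟨β - 1, by omega⟩
    refine ⟨fun q => ((α + 1 : ℕ) * u q + q.1 * fderiv ℂ u q (1, 0)) *
      ((β + 1 : ℕ) * u' q + q.2 * fderiv ℂ u' q (0, 1)) -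
      ((β + 1 : ℕ) * u q + q.2 * fderiv ℂ u q (0, 1)) *
        ((α + 1 : ℕ) * u' q + q.1 * fderiv ℂ u' q (1, 0)), ?_, ?_⟩
    · exact (((analyticAt_const.mul hu).add (hfst.mul (ha _ hu))).mul
        ((analyticAt_const.mul hu').add (hsnd.mul (ha _ hu')))).sub
        (((analyticAt_const.mul hu).add (hsnd.mul (ha _ hu))).mul
          ((analyticAt_const.mul hu').add (hfst.mul (ha _ hu'))))
    · filter_upwards [h1, h2] with q e1 e2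
      rw [jacG, e1, e1, e2, e2]
      have e3 : 2 * (α + 1) - 1 = α + (α + 1) := by omega
      have e4 : 2 * (β + 1) - 1 = β + (β + 1) := by omega
      rw [e3, e4]
      simp only [Nat.add_sub_cancel, mul_zero, add_zero, mul_one, zero_add]
      ring

/-- comparison of orders along the first axis -/
theorem pow_le_of_mul {x y : ℂ × ℂ → ℂ} {A B : ℕ} (hx : AnalyticAt ℂ x 0) (hy : AnalyticAt ℂ y 0)
    (h : ∀ᶠ q in 𝓝 (0 : ℂ × ℂ), q.1 ^ A * x q = q.1 ^ B * y q)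
    (hy0 : ∃ᶠ t in 𝓝 (0 : ℂ), y (0, t) ≠ 0) : A ≤ B := by
  by_contra hlt
  push Not at hlt
  apply hy0
  have h1 : Tendsto (fun t : ℂ => ((0, t) : ℂ × ℂ)) (𝓝 0) (𝓝 0) :=
    (Continuous.prodMk_right (0 : ℂ)).continuousAt
  filter_upwards [h1.eventually h.eventually_nhds, h1.eventually hx.eventually_analyticAt,
    h1.eventually hy.eventually_analyticAt] with t e1 e2 e3
  have h2 : Tendsto (fun s : ℂ => ((s, t) : ℂ × ℂ)) (𝓝[≠] 0) (𝓝 (0, t)) :=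
    ((Continuous.prodMk_left t).tendsto (0 : ℂ)).mono_left nhdsWithin_le_nhds
  have h3 : ∀ᶠ s in 𝓝[≠] (0 : ℂ), y (s, t) = s ^ (A - B) * x (s, t) := by
    filter_upwards [h2.eventually e1, self_mem_nhdsWithin] with s e4 e5
    have e6 : s ^ B ≠ 0 := pow_ne_zero _ e5
    apply mul_left_cancel₀ e6
    rw [← e4, ← mul_assoc, ← pow_add]
    congr 2
    omega
  have h4 : Tendsto (fun s : ℂ => y (s, t)) (𝓝[≠] 0) (𝓝 (y (0, t))) :=
    e3.continuousAt.tendsto.comp h2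
  have h5 : Tendsto (fun s : ℂ => s ^ (A - B) * x (s, t)) (𝓝[≠] 0) (𝓝 (0 * x (0, t))) := by
    have h6 : Tendsto (fun s : ℂ => s ^ (A - B)) (𝓝[≠] 0) (𝓝 0) := by
      have := ((continuous_pow (A - B)).tendsto (0 : ℂ)).mono_left
        (nhdsWithin_le_nhds (s := {0}ᶜ))
      rwa [zero_pow (by omega)] at this
    exact h6.mul (e2.continuousAt.tendsto.comp h2)
  rw [zero_mul] at h5
  exact not_not.2 (tendsto_nhds_unique (h4.congr' h3) h5)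

end Vale.Agent.P298.H983
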