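import Mathlib

/-!
# P298 / H983 (row E1-FIN): two general elements of a base point free system

Charts `Φ i : ℂ × ℂ → E` around the points of the exceptional curves, functions `h s` with
`h s ∘ Φ i = a^α b^β u i s`, no common zero of the `u i s` at the centre: two linear combinations
`e, e'` satisfy `|e| + |e'| ≥ c |a|^α |b|^β` in every chart, hence dominate every function with the
corresponding orders.
-/

open Set Filter Metric Topology

noncomputable section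

namespace Vale.Agent.P298.H983

/-- finitely many nonzero linear forms have a common non-zero -/
theorem exists_common_ne {S T : Type*} [Fintype S] (F : Finset T) {L : T → S → ℂ}
    (hL : ∀ t ∈ F, L t ≠ 0) : ∃ c : S → ℂ, ∀ t ∈ F, ∑ s, c s * L t s ≠ 0 := by
  classical
  set p : T → MvPolynomial S ℂ := fun t => ∑ s, MvPolynomial.C (L t s) * MvPolynomial.X s with hp
  have hp0 : ∀ t ∈ F, p t ≠ 0 := by
    intro t ht h0
    apply hL t ht
    funext s
    have h1 : MvPolynomial.coeff (Finsupp.single s 1) (p t) = L t s := by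
      simp only [hp, MvPolynomial.coeff_sum, MvPolynomial.coeff_C_mul]
      rw [Finset.sum_eq_single s]
      · simp
      · intro b _ hb
        rw [MvPolynomial.coeff_X, if_neg, mul_zero]
        intro h
        exact hb (Finsupp.single_left_injective one_ne_zero h)
      · intro h
        exact absurd (Finset.mem_univ s) h
    rw [h0, MvPolynomial.coeff_zero] at h1
    exact h1.symm
  have hprod : ∏ t ∈ F, p t ≠ 0 := Finset.prod_ne_zero_iff.2 hp0
  obtain ⟨c, hc⟩ : ∃ c : S → ℂ, MvPolynomial.eval c (∏ t ∈ F, p t) ≠ 0 := by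
    by_contra hcon
    push Not at hcon
    apply hprod
    apply MvPolynomial.funext
    intro c
    rw [hcon c, map_zero]
  refine ⟨c, fun t ht => ?_⟩
  rw [map_prod] at hc
  have h1 := Finset.prod_ne_zero_iff.1 hc t ht
  simp only [hp, map_sum, map_mul, MvPolynomial.eval_C, MvPolynomial.eval_X] at h1
  simpa only [mul_comm] using h1

/-- two combinations without common zero -/
theorem exists_two {S I J : Type*} [Fintype S] [Finite J] {L : I → S → ℂ} (hL : ∀ i, L i ≠ 0)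
    (comp : I → J)
    (hfin : ∀ c : S → ℂ, ∀ j, (∀ i, comp i = j → ∑ s, c s * L i s = 0) ∨
      {i | comp i = j ∧ ∑ s, c s * L i s = 0}.Finite) :
    ∃ c c' : S → ℂ, {i | ∑ s, c s * L i s = 0}.Finite ∧
      ∀ i, ∑ s, c s * L i s ≠ 0 ∨ ∑ s, c' s * L i s ≠ 0 := by
  classical
  cases nonempty_fintype J
  rcases isEmpty_or_nonempty I with hI | hI
  · exact ⟨0, 0, Set.toFinite _, fun i => hI.elim i⟩
  -- one chart for every component
  set T : Finset J := Finset.univ.filter (fun j => ∃ i, comp i = j) with hT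
  choose! g hg using fun j (hj : ∃ i, comp i = j) => hj
  obtain ⟨c, hc⟩ := exists_common_ne T (L := fun j => L (g j)) fun j _ => hL (g j)
  have hZ : {i | ∑ s, c s * L i s = 0}.Finite := by
    have h1 : {i | ∑ s, c s * L i s = 0} ⊆
        ⋃ j ∈ (T : Set J), {i | comp i = j ∧ ∑ s, c s * L i s = 0} := by
      intro i hi
      simp only [mem_iUnion]
      refine ⟨comp i, ?_, rfl, hi⟩
      simp only [hT, Finset.coe_filter, Finset.mem_univ, true_and]
      exact ⟨i, rfl⟩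
    refine Set.Finite.subset (Set.Finite.biUnion (Finset.finite_toSet T) fun j hj => ?_) h1
    rcases hfin c j with h2 | h2
    · exfalso
      have hj' : ∃ i, comp i = j := by
        have := Finset.mem_coe.1 hj
        rw [hT, Finset.mem_filter] at this
        exact this.2
      exact hc j (Finset.mem_coe.1 hj) (h2 (g j) (hg j hj'))
    · exact h2
  obtain ⟨c', hc'⟩ := exists_common_ne hZ.toFinset (L := L) fun i _ => hL i
  refine ⟨c, c', hZ, fun i => ?_⟩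
  by_cases h : ∑ s, c s * L i s = 0
  · exact Or.inr (hc' i (hZ.mem_toFinset.2 h))
  · exact Or.inl h

/-- lower bound near the centre of one chart -/
theorem lower_bound {F F' u u' : ℂ × ℂ → ℂ} {α β : ℕ} (hu : ContinuousAt u 0)
    (hu' : ContinuousAt u' 0) (hF : ∀ᶠ q in 𝓝 (0 : ℂ × ℂ), F q = q.1 ^ α * q.2 ^ β * u q)
    (hF' : ∀ᶠ q in 𝓝 (0 : ℂ × ℂ), F' q = q.1 ^ α * q.2 ^ β * u' q)
    (hne : u 0 ≠ 0 ∨ u' 0 ≠ 0) :
    ∃ c : ℝ, 0 < c ∧ ∀ᶠ q in 𝓝 (0 : ℂ × ℂ), c * (‖q.1‖ ^ α * ‖q.2‖ ^ β) ≤ ‖F q‖ + ‖F' q‖ := by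
  have h0 : 0 < ‖u 0‖ + ‖u' 0‖ := by
    rcases hne with h | h
    · have := norm_pos_iff.2 h
      positivity
    · have := norm_pos_iff.2 h
      positivity
  refine ⟨(‖u 0‖ + ‖u' 0‖) / 2, half_pos h0, ?_⟩
  have h1 : ContinuousAt (fun q => ‖u q‖ + ‖u' q‖) 0 := hu.norm.add hu'.norm
  filter_upwards [hF, hF', h1.eventually (eventually_gt_nhds (half_lt_self h0))] with q h2 h3 h4
  rw [h2, h3, norm_mul, norm_mul, norm_mul, norm_mul, norm_pow, norm_pow, ← mul_add, mul_comm]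
  exact mul_le_mul_of_nonneg_left h4.le (by positivity)

/-- **E1-FIN, abstract form.** -/
theorem fin_main {E : Type*} [NormedAddCommGroup E] {S I J : Type*} [Fintype S] [Finite J]
    {V : Set E} {Φ : I → ℂ × ℂ → E}
    (hcov : ∀ ρ : I → ℝ, (∀ i, 0 < ρ i) → ∃ (F : Finset I) (r : ℝ), 0 < r ∧
      ∀ x ∈ V, x ≠ 0 → ‖x‖ < r → ∃ i ∈ F, ∃ q, ‖q‖ < ρ i ∧ Φ i q = x)
    {α β : I → ℕ} {h : S → E → ℂ} {u : I → S → ℂ × ℂ → ℂ} (hu : ∀ i s, ContinuousAt (u i s) 0)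
    (hh : ∀ i s, ∀ᶠ q in 𝓝 (0 : ℂ × ℂ), h s (Φ i q) = q.1 ^ α i * q.2 ^ β i * u i s q)
    (hbpf : ∀ i, ∃ s, u i s 0 ≠ 0) (comp : I → J)
    (hfin : ∀ c : S → ℂ, ∀ j, (∀ i, comp i = j → ∑ s, c s * u i s 0 = 0) ∨
      {i | comp i = j ∧ ∑ s, c s * u i s 0 = 0}.Finite) :
    ∃ c c' : S → ℂ,
      (∀ i, ∃ κ : ℝ, 0 < κ ∧ ∀ᶠ q in 𝓝 (0 : ℂ × ℂ), κ * (‖q.1‖ ^ α i * ‖q.2‖ ^ β i) ≤
        ‖∑ s, c s * h s (Φ i q)‖ + ‖∑ s, c' s * h s (Φ i q)‖) ∧
      (∀ (g : E → ℂ) (m N : ℕ) (γ δ : I → ℕ),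
        (∀ i, ∃ K : ℝ, ∀ᶠ q in 𝓝 (0 : ℂ × ℂ), ‖g (Φ i q)‖ ≤ K * (‖q.1‖ ^ γ i * ‖q.2‖ ^ δ i)) →
        (∀ i, N * α i ≤ m * γ i) → (∀ i, N * β i ≤ m * δ i) →
        ∃ K r : ℝ, 0 < r ∧ ∀ x ∈ V, x ≠ 0 → ‖x‖ < r →
          ‖g x‖ ^ m ≤ K * (‖∑ s, c s * h s x‖ + ‖∑ s, c' s * h s x‖) ^ N) ∧
      ((∀ i, 0 < α i → ∀ᶠ q in 𝓝 (0 : ℂ × ℂ), q.1 = 0 → Φ i q = 0) →
        (∀ i, 0 < β i → ∀ᶠ q in 𝓝 (0 : ℂ × ℂ), q.2 = 0 → Φ i q = 0) →
        ∃ r : ℝ, 0 < r ∧ ∀ x ∈ V, ‖x‖ < r → ∑ s, c s * h s x = 0 → ∑ s, c' s * h s x = 0 →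
          x = 0) := by
  classical
  obtain ⟨c, c', -, hcc⟩ := exists_two (L := fun i s => u i s 0)
    (fun i h0 => (hbpf i).elim fun s hs => hs (congrFun h0 s)) comp hfin
  have hlin : ∀ (d : S → ℂ) i, ∀ᶠ q in 𝓝 (0 : ℂ × ℂ), ∑ s, d s * h s (Φ i q) =
      q.1 ^ α i * q.2 ^ β i * ∑ s, d s * u i s q := by
    intro d i
    have h1 : ∀ᶠ q in 𝓝 (0 : ℂ × ℂ), ∀ s, h s (Φ i q) = q.1 ^ α i * q.2 ^ β i * u i s q :=
      Filter.eventually_all.2 (hh i)
    filter_upwards [h1] with q hq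
    rw [Finset.mul_sum]
    refine Finset.sum_congr rfl fun s _ => ?_
    rw [hq s]
    ring
  have hcont : ∀ (d : S → ℂ) i, ContinuousAt (fun q => ∑ s, d s * u i s q) 0 := fun d i =>
    tendsto_finsetSum _ fun s _ => (hu i s).const_mul _
  have hlow : ∀ i, ∃ κ : ℝ, 0 < κ ∧ ∀ᶠ q in 𝓝 (0 : ℂ × ℂ), κ * (‖q.1‖ ^ α i * ‖q.2‖ ^ β i) ≤
        ‖∑ s, c s * h s (Φ i q)‖ + ‖∑ s, c' s * h s (Φ i q)‖ := fun i =>
    lower_bound (hcont c i) (hcont c' i) (hlin c i) (hlin c' i) (hcc i)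
  refine ⟨c, c', hlow, ?_, ?_⟩
  · intro g m N γ δ hg hαγ hβδ
    choose κ hκ0 hκ using hlow
    choose K hK using hg
    -- local estimate with radius
    have hloc : ∀ i, ∃ ρ > 0, ∀ q : ℂ × ℂ, ‖q‖ < ρ → ‖g (Φ i q)‖ ^ m ≤
        (|K i| ^ m * (κ i)⁻¹ ^ N) *
          (‖∑ s, c s * h s (Φ i q)‖ + ‖∑ s, c' s * h s (Φ i q)‖) ^ N := by
      intro i
      have h1 : ∀ᶠ q in 𝓝 (0 : ℂ × ℂ), ‖q‖ < 1 := by
        have := (continuous_norm (E := ℂ × ℂ)).continuousAt (x := 0)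
        exact this.eventually (eventually_lt_nhds (by simp))
      obtain ⟨ρ, hρ, hρ'⟩ := Metric.eventually_nhds_iff_ball.1 ((hκ i).and ((hK i).and h1))
      refine ⟨ρ, hρ, fun q hq => ?_⟩
      obtain ⟨h2, h3, h4⟩ := hρ' q (mem_ball_zero_iff.2 hq)
      have h41 : ‖q.1‖ ≤ 1 := (norm_fst_le q).trans h4.le
      have h42 : ‖q.2‖ ≤ 1 := (norm_snd_le q).trans h4.le
      have hκi := hκ0 i
      have h5 : ‖g (Φ i q)‖ ^ m ≤ |K i| ^ m * (‖q.1‖ ^ (N * α i) * ‖q.2‖ ^ (N * β i)) := by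
        have h6 : ‖g (Φ i q)‖ ≤ |K i| * (‖q.1‖ ^ γ i * ‖q.2‖ ^ δ i) :=
          h3.trans (mul_le_mul_of_nonneg_right (le_abs_self _) (by positivity))
        refine (pow_le_pow_left₀ (norm_nonneg _) h6 m).trans ?_
        rw [mul_pow, mul_pow, ← pow_mul, ← pow_mul]
        refine mul_le_mul_of_nonneg_left ?_ (by positivity)
        refine mul_le_mul ?_ ?_ (by positivity) (by positivity)
        · rw [mul_comm (γ i) m]
          exact pow_le_pow_of_le_one (norm_nonneg _) h41 (hαγ i)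
        · rw [mul_comm (δ i) m]
          exact pow_le_pow_of_le_one (norm_nonneg _) h42 (hβδ i)
      refine h5.trans ?_
      rw [mul_assoc]
      refine mul_le_mul_of_nonneg_left ?_ (by positivity)
      have h7 : ‖q.1‖ ^ α i * ‖q.2‖ ^ β i ≤
          (κ i)⁻¹ * (‖∑ s, c s * h s (Φ i q)‖ + ‖∑ s, c' s * h s (Φ i q)‖) := by
        rw [le_inv_mul_iff₀ hκi]
        exact h2
      have h8 := pow_le_pow_left₀ (by positivity) h7 N
      rw [mul_pow, mul_pow, ← pow_mul, ← pow_mul, mul_comm (α i) N, mul_comm (β i) N] at h8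
      exact h8
    choose ρ hρ hρ' using hloc
    obtain ⟨F, r, hr, hF⟩ := hcov ρ hρ
    refine ⟨∑ i ∈ F, |K i| ^ m * (κ i)⁻¹ ^ N, r, hr, fun x hxV hx0 hxr => ?_⟩
    obtain ⟨i, hi, q, hq, rfl⟩ := hF x hxV hx0 hxr
    refine (hρ' i q hq).trans (mul_le_mul_of_nonneg_right ?_ (by positivity))
    exact Finset.single_le_sum (f := fun i => |K i| ^ m * (κ i)⁻¹ ^ N)
      (fun j _ => mul_nonneg (by positivity) (pow_nonneg (inv_nonneg.2 (hκ0 j).le) _)) hi
  · intro hA hB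
    choose κ hκ0 hκ using hlow
    have hloc : ∀ i, ∃ ρ > 0, ∀ q : ℂ × ℂ, ‖q‖ < ρ → ∑ s, c s * h s (Φ i q) = 0 →
        ∑ s, c' s * h s (Φ i q) = 0 → Φ i q = 0 := by
      intro i
      have hA' : ∀ᶠ q in 𝓝 (0 : ℂ × ℂ), 0 < α i → q.1 = 0 → Φ i q = 0 := by
        by_cases h1 : 0 < α i
        · filter_upwards [hA i h1] with q hq _
          exact hq
        · exact Filter.Eventually.of_forall fun q h2 => absurd h2 h1
      have hB' : ∀ᶠ q in 𝓝 (0 : ℂ × ℂ), 0 < β i → q.2 = 0 → Φ i q = 0 := by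
        by_cases h1 : 0 < β i
        · filter_upwards [hB i h1] with q hq _
          exact hq
        · exact Filter.Eventually.of_forall fun q h2 => absurd h2 h1
      obtain ⟨ρ, hρ, hρ'⟩ := Metric.eventually_nhds_iff_ball.1 ((hκ i).and (hA'.and hB'))
      refine ⟨ρ, hρ, fun q hq he he' => ?_⟩
      obtain ⟨h2, h3, h4⟩ := hρ' q (mem_ball_zero_iff.2 hq)
      rw [he, he', norm_zero, add_zero] at h2
      have hκi := hκ0 i
      have h5 : ‖q.1‖ ^ α i * ‖q.2‖ ^ β i = 0 := by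
        refine le_antisymm ?_ (by positivity)
        by_contra hcon
        push Not at hcon
        have := mul_pos hκi hcon
        linarith
      rcases mul_eq_zero.1 h5 with h6 | h6
      · have h8 : α i ≠ 0 := by
          intro h9
          rw [h9, pow_zero] at h6
          exact one_ne_zero h6
        exact h3 (Nat.pos_of_ne_zero h8) (norm_eq_zero.1 (pow_eq_zero_iff h8 |>.1 h6))
      · have h8 : β i ≠ 0 := by
          intro h9
          rw [h9, pow_zero] at h6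
          exact one_ne_zero h6
        exact h4 (Nat.pos_of_ne_zero h8) (norm_eq_zero.1 (pow_eq_zero_iff h8 |>.1 h6))
    choose ρ hρ hρ' using hloc
    obtain ⟨F, r, hr, hF⟩ := hcov ρ hρ
    refine ⟨r, hr, fun x hxV hxr he he' => ?_⟩
    by_contra hx0
    obtain ⟨i, hi, q, hq, rfl⟩ := hF x hxV hx0 hxr
    exact hx0 (hρ' i q hq he he')

end Vale.Agent.P298.H983
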