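import Vale.Agent.P298.H941.Elim2
import Vale.Agent.P298.H941.Coord
import Vale.Agent.P267.H823.Weier

/-!
# P298 / H983 (row E1-NULL): finitely many germs with isolated common zero have finite colength
-/

open Filter Topology Polynomial

namespace Vale.Agent.P298.H983

open Vale.Agent.P298.H941

noncomputable section

variable {Y : Type} [NormedAddCommGroup Y] [NormedSpace ℂ Y]

/-- Every finite family of germs with isolated common zero generates an ideal of finite
codimension. -/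
def IsoFin (Y : Type) [NormedAddCommGroup Y] [NormedSpace ℂ Y] : Prop :=
  ∀ (k : ℕ) (g : Fin k → Y → ℂ) (hg : ∀ i, AnalyticAt ℂ (g i) 0),
    (∀ᶠ y in 𝓝 (0 : Y), (∀ i, g i y = 0) → y = 0) → Module.Finite ℂ (O Y ⧸ Jd g hg)

theorem analyticAt_sylvester {P R : Y → ℂ[X]} (hP : ∀ i, AnalyticAt ℂ (fun y => (P y).coeff i) 0)
    (hR : ∀ i, AnalyticAt ℂ (fun y => (R y).coeff i) 0) (m n : ℕ) (i j : Fin (m + n)) :
    AnalyticAt ℂ (fun y => sylvester (P y) (R y) m n i j) 0 := by
  refine Fin.addCases (fun j₁ => ?_) (fun j₁ => ?_) j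
  · simp only [sylvester, Matrix.of_apply, Fin.addCases_left]
    split_ifs
    · exact hR _
    · exact analyticAt_const
  · simp only [sylvester, Matrix.of_apply, Fin.addCases_right]
    split_ifs
    · exact hP _
    · exact analyticAt_const

theorem analyticAt_adjugate {m : ℕ} {A : Y → Matrix (Fin m) (Fin m) ℂ}
    (hA : ∀ i j, AnalyticAt ℂ (fun y => A y i j) 0) (i j : Fin m) :
    AnalyticAt ℂ (fun y => (A y).adjugate i j) 0 := by
  simp only [Matrix.adjugate_apply]
  refine analyticAt_det fun k l => ?_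
  by_cases hk : k = j
  · subst hk
    simp only [Matrix.updateRow_self]
    exact analyticAt_const
  · simp only [Matrix.updateRow_ne hk]
    exact hA k l

/-- The resultant is a combination of the two polynomials, with analytic coefficients. -/
theorem res_mem {b : ℕ} (hb : 0 < b) {P R : Y → ℂ[X]}
    (hP : ∀ i, AnalyticAt ℂ (fun y => (P y).coeff i) 0)
    (hR : ∀ i, AnalyticAt ℂ (fun y => (R y).coeff i) 0) (hPb : ∀ y, (P y).natDegree ≤ b)
    (hRb : ∀ y, (R y).natDegree ≤ b) :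
    ∃ a c : ℂ × Y → ℂ, AnalyticAt ℂ a 0 ∧ AnalyticAt ℂ c 0 ∧
      ∀ q : ℂ × Y, resultant (P q.2) (R q.2) b b =
        a q * (P q.2).eval q.1 + c q * (R q.2).eval q.1 := by
  have h0 : 0 < b + b := by omega
  set M : Y → Matrix (Fin (b + b)) (Fin (b + b)) ℂ := fun y => sylvester (P y) (R y) b b with hM
  have hMa : ∀ i j, AnalyticAt ℂ (fun y => M y i j) 0 := fun i j =>
    analyticAt_sylvester hP hR b b i j
  have hadj : ∀ i j, AnalyticAt ℂ (fun q : ℂ × Y => (M q.2).adjugate i j) 0 := fun i j =>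
    AnalyticAt.comp_of_eq (g := fun y : Y => (M y).adjugate i j)
      (f := fun q : ℂ × Y => q.2) (analyticAt_adjugate hMa i j) analyticAt_snd rfl
  refine ⟨fun q => ∑ j : Fin b, q.1 ^ (j : ℕ) * (M q.2).adjugate (Fin.natAdd b j) ⟨0, h0⟩,
    fun q => ∑ j : Fin b, q.1 ^ (j : ℕ) * (M q.2).adjugate (Fin.castAdd b j) ⟨0, h0⟩,
    Finset.analyticAt_fun_sum _ fun j _ => (analyticAt_fst.pow _).mul (hadj _ _),
    Finset.analyticAt_fun_sum _ fun j _ => (analyticAt_fst.pow _).mul (hadj _ _), ?_⟩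
  rintro ⟨z, y⟩
  simp only
  have hcolR : ∀ j : Fin b, ∑ i : Fin (b + b), M y i (Fin.castAdd b j) * z ^ (i : ℕ) =
      z ^ (j : ℕ) * (R y).eval z := by
    intro j
    have h1 := sum_sylvester_aux (R y) (m := b + b) (j := j) (hRb y) (by have := j.2; omega)
      (RingHom.id ℂ) z
    simp only [RingHom.id_apply] at h1
    have h2 : (R y).eval₂ (RingHom.id ℂ) z = (R y).eval z := rfl
    rw [h2] at h1
    rw [← h1]
    refine Finset.sum_congr rfl fun i _ => ?_
    simp only [hM, sylvester, Matrix.of_apply, Fin.addCases_left]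
  have hcolP : ∀ j : Fin b, ∑ i : Fin (b + b), M y i (Fin.natAdd b j) * z ^ (i : ℕ) =
      z ^ (j : ℕ) * (P y).eval z := by
    intro j
    have h1 := sum_sylvester_aux (P y) (m := b + b) (j := j) (hPb y) (by have := j.2; omega)
      (RingHom.id ℂ) z
    simp only [RingHom.id_apply] at h1
    have h2 : (P y).eval₂ (RingHom.id ℂ) z = (P y).eval z := rfl
    rw [h2] at h1
    rw [← h1]
    refine Finset.sum_congr rfl fun i _ => ?_
    simp only [hM, sylvester, Matrix.of_apply, Fin.addCases_right]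
  have hdet : resultant (P y) (R y) b b = ∑ j : Fin (b + b),
      (∑ i : Fin (b + b), M y i j * z ^ (i : ℕ)) * (M y).adjugate j ⟨0, h0⟩ := by
    have h1 : ∀ i : Fin (b + b), ∑ j, M y i j * (M y).adjugate j ⟨0, h0⟩ =
        if i = ⟨0, h0⟩ then (M y).det else 0 := by
      intro i
      have h2 := congrFun (congrFun (Matrix.mul_adjugate (M y)) i) ⟨0, h0⟩
      rw [Matrix.mul_apply] at h2
      rw [h2, Matrix.smul_apply, Matrix.one_apply, smul_eq_mul]
      split_ifs <;> simp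
    have h2 : ∑ i : Fin (b + b), z ^ (i : ℕ) * ∑ j, M y i j * (M y).adjugate j ⟨0, h0⟩ =
        (M y).det := by
      rw [Finset.sum_eq_single (⟨0, h0⟩ : Fin (b + b))]
      · rw [h1, if_pos rfl]
        simp
      · intro i _ hi
        rw [h1, if_neg hi, mul_zero]
      · intro h
        exact absurd (Finset.mem_univ _) h
    have h3 : resultant (P y) (R y) b b = (M y).det := rfl
    rw [h3, ← h2]
    simp only [Finset.mul_sum, Finset.sum_mul]
    rw [Finset.sum_comm]
    refine Finset.sum_congr rfl fun j _ => Finset.sum_congr rfl fun i _ => ?_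
    ring
  rw [hdet, Fin.sum_univ_add]
  simp only [hcolR, hcolP]
  rw [add_comm, Finset.sum_mul, Finset.sum_mul]
  congr 1 <;> refine Finset.sum_congr rfl fun j _ => ?_ <;> ring

/-- the remainder as a polynomial -/
def remY {b : ℕ} (r : Fin b → Y → ℂ) (w : Y) : ℂ[X] := ∑ i : Fin b, C (r i w) * X ^ (i : ℕ)

omit [NormedAddCommGroup Y] [NormedSpace ℂ Y] in
theorem remY_natDegree {b : ℕ} (r : Fin b → Y → ℂ) (w : Y) : (remY r w).natDegree ≤ b := by
  refine natDegree_sum_le_of_forall_le _ _ fun i _ => ?_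
  exact (natDegree_C_mul_X_pow_le _ _).trans i.2.le

omit [NormedAddCommGroup Y] [NormedSpace ℂ Y] in
theorem remY_eval {b : ℕ} (r : Fin b → Y → ℂ) (w : Y) (z : ℂ) :
    (remY r w).eval z = ∑ i, r i w * z ^ (i : ℕ) := by
  unfold remY
  rw [eval_finsetSum]
  simp

theorem remY_coeff {b : ℕ} {r : Fin b → Y → ℂ} {w : Y}
    (hr : ∀ i, AnalyticAt ℂ (r i) w) (k : ℕ) : AnalyticAt ℂ (fun w => (remY r w).coeff k) w := by
  unfold remY
  simp only [finsetSum_coeff, coeff_C_mul_X_pow]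
  refine Finset.analyticAt_fun_sum _ fun i _ => ?_
  split_ifs
  · exact hr i
  · exact analyticAt_const

/-- pigeonhole: a family of polynomials `∑ t^i R_i` with a common root with `P` for many `t` -/
theorem common_root {b k : ℕ} {P : ℂ[X]} (hP : P.Monic) (hPb : P.natDegree = b)
    {R : Fin k → ℂ[X]}
    (h : ∀ t : Fin (b * k + 1), ∃ z, P.eval z = 0 ∧
      ∑ i : Fin k, ((t : ℕ) : ℂ) ^ (i : ℕ) * (R i).eval z = 0) :
    ∃ z, P.eval z = 0 ∧ ∀ i, (R i).eval z = 0 := by
  classical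
  choose z hz hz' using h
  have hmem : ∀ t, z t ∈ P.roots.toFinset := fun t => by
    rw [Multiset.mem_toFinset, mem_roots hP.ne_zero]
    exact hz t
  have hcard : P.roots.toFinset.card * k < (Finset.univ : Finset (Fin (b * k + 1))).card := by
    rw [Finset.card_univ, Fintype.card_fin]
    have h1 : P.roots.toFinset.card ≤ b := by
      refine (Multiset.toFinset_card_le _).trans ?_
      rw [← hPb]
      exact card_roots' P
    have h2 := Nat.mul_le_mul_right k h1
    omega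
  obtain ⟨w, hw, hwk⟩ := Finset.exists_lt_card_fiber_of_mul_lt_card_of_maps_to
    (f := z) (s := Finset.univ) (t := P.roots.toFinset) (fun t _ => hmem t) hcard
  refine ⟨w, ?_, ?_⟩
  · rw [Multiset.mem_toFinset, mem_roots hP.ne_zero] at hw
    exact hw
  -- the polynomial in `t`
  set q : ℂ[X] := ∑ i : Fin k, C ((R i).eval w) * X ^ (i : ℕ) with hq
  have hqd : q.degree < k := by
    refine (degree_sum_le _ _).trans_lt ?_
    rw [Finset.sup_lt_iff (WithBot.bot_lt_coe _)]
    intro i _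
    exact (degree_C_mul_X_pow_le _ _).trans_lt (by exact_mod_cast i.2)
  have hq0 : q = 0 := by
    refine eq_zero_of_degree_lt_of_eval_finset_eq_zero
      ((Finset.univ.filter fun t : Fin (b * k + 1) => z t = w).image
        fun t : Fin (b * k + 1) => ((t : ℕ) : ℂ)) ?_ ?_
    · rw [Finset.card_image_of_injective]
      · refine hqd.trans ?_
        exact_mod_cast hwk
      · intro s t hst
        simp only at hst
        exact Fin.ext (by exact_mod_cast hst)
    · intro x hx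
      obtain ⟨t, ht, rfl⟩ := Finset.mem_image.1 hx
      have ht' : z t = w := (Finset.mem_filter.1 ht).2
      rw [hq, eval_finsetSum]
      simp only [eval_mul, eval_C, eval_pow, eval_X]
      have h3 := hz' t
      rw [ht'] at h3
      rw [← h3]
      exact Finset.sum_congr rfl fun i _ => mul_comm _ _
  intro i
  have h4 : q.coeff (i : ℕ) = (R i).eval w := by
    rw [hq, finsetSum_coeff]
    simp only [coeff_C_mul_X_pow]
    rw [Finset.sum_eq_single i]
    · simp
    · intro j _ hj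
      rw [if_neg]
      intro h5
      exact hj (Fin.ext h5.symm)
    · intro h5
      exact absurd (Finset.mem_univ i) h5
  rw [← h4, hq0, coeff_zero]

/-- Weierstrass form of a germ of one variable -/
theorem exists_weier_form {f : ℂ → ℂ} (hf : AnalyticAt ℂ f 0) (hne : ¬ ∀ᶠ z in 𝓝 (0 : ℂ), f z = 0) :
    ∃ (b : ℕ) (u : ℂ → ℂ), AnalyticAt ℂ u 0 ∧ u 0 ≠ 0 ∧ ∀ᶠ z in 𝓝 (0 : ℂ), f z = z ^ b * u z := by
  have h1 : analyticOrderAt f 0 ≠ ⊤ := by
    rw [Ne, analyticOrderAt_eq_top]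
    exact hne
  obtain ⟨b, hb⟩ := ENat.ne_top_iff_exists.1 h1
  obtain ⟨u, hu, hu0, h2⟩ := (hf.analyticOrderAt_eq_natCast).1 hb.symm
  refine ⟨b, u, hu, hu0, ?_⟩
  filter_upwards [h2] with z hz
  simpa using hz

/-- **Elimination of one variable.** -/
theorem isoFin_step (hY : IsoFin Y) : IsoFin (ℂ × Y) := by
  classical
  intro k g hg hiso
  set J := Jd g hg with hJ
  have hgJ : ∀ i, mk (g i) (hg i) ∈ J := fun i => Ideal.subset_span ⟨i, rfl⟩
  -- a regular function
  obtain ⟨i0, hi0⟩ : ∃ i0, ¬ ∀ᶠ z in 𝓝 (0 : ℂ), g i0 (z, 0) = 0 := by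
    by_contra hcon
    push Not at hcon
    have h1 : ∀ᶠ z in 𝓝 (0 : ℂ), ∀ i, g i (z, 0) = 0 := Filter.eventually_all.2 hcon
    have h2 : Tendsto (fun z : ℂ => ((z, 0) : ℂ × Y)) (𝓝 0) (𝓝 0) := by
      have : ContinuousAt (fun z : ℂ => ((z, 0) : ℂ × Y)) 0 :=
        continuousAt_id.prodMk continuousAt_const
      exact this
    have h3 : ∀ᶠ z in 𝓝 (0 : ℂ), z = 0 := by
      filter_upwards [h1, h2.eventually hiso] with z hz1 hz2
      exact congrArg Prod.fst (hz2 hz1)
    have h4 : ∀ᶠ z in 𝓝[≠] (0 : ℂ), z = 0 := h3.filter_mono nhdsWithin_le_nhds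
    obtain ⟨z, hz, hz'⟩ := (h4.and self_mem_nhdsWithin).exists
    exact hz' hz
  have hax : AnalyticAt ℂ (fun z : ℂ => g i0 (z, 0)) 0 :=
    AnalyticAt.comp_of_eq (hg i0) (analyticAt_id.prod analyticAt_const) rfl
  obtain ⟨b, u, hu, hu0, hFu⟩ := exists_weier_form hax hi0
  set F := g i0 with hF
  have hF' : AnalyticAt ℂ F ((0 : ℂ), (0 : Y)) := hg i0
  obtain ⟨P, v, hPm, hPa, hP0, hva, hv0, hFv⟩ :=
    Vale.Agent.P267.H823.weierstrass hF' hu hu0 hFu
  choose v' r hv'a hra hEv using fun i => weierstrass_division hF' hu hu0 hFu (hg i)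
  -- finite over `O Y`
  have hsurj : ∀ q : O (ℂ × Y) ⧸ J, ∃ c : Fin b → O Y,
      q = ∑ i, Ideal.Quotient.mk J (sndH Y (c i)) * Ideal.Quotient.mk J (fstG Y) ^ (i : ℕ) := by
    intro q
    obtain ⟨G, rfl⟩ := Ideal.Quotient.mk_surjective q
    obtain ⟨w, c, hc⟩ := germ_division (mk F (hg i0)) (b := b) (u := mk u hu)
      ((isUnit_iff _).2 hu0) (by
        unfold inlH zz
        rw [pull_mk, mk_pow, mk_mul]
        exact mk_congr _ _ hFu) G
    refine ⟨c, ?_⟩
    rw [hc, map_add, map_mul, Ideal.Quotient.eq_zero_iff_mem.2 (hgJ i0), mul_zero, zero_add,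
      map_sum]
    refine Finset.sum_congr rfl fun i _ => ?_
    rw [map_mul, map_pow]
  rcases Nat.eq_zero_or_pos b with hb0 | hb0
  · -- unit
    subst hb0
    have h1 : ∀ q : O (ℂ × Y) ⧸ J, q = 0 := by
      intro q
      obtain ⟨c, hc⟩ := hsurj q
      rw [hc]
      simp
    have : Subsingleton (O (ℂ × Y) ⧸ J) := ⟨fun x y => by rw [h1 x, h1 y]⟩
    exact Module.Finite.of_finite
  -- resultants
  set T := b * k + 1 with hT
  set RR : Fin T → Y → ℂ[X] := fun t w => ∑ i : Fin k, C (((t : ℕ) : ℂ) ^ (i : ℕ)) * remY (r i) w with hRR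
  have hRRd : ∀ t w, (RR t w).natDegree ≤ b := by
    intro t w
    refine natDegree_sum_le_of_forall_le _ _ fun i _ => ?_
    exact (natDegree_C_mul_le _ _).trans (remY_natDegree (r i) w)
  have hRRa : ∀ t i, AnalyticAt ℂ (fun w => (RR t w).coeff i) 0 := by
    intro t i
    simp only [hRR, finsetSum_coeff, coeff_C_mul]
    exact Finset.analyticAt_fun_sum _ fun j _ => analyticAt_const.mul (remY_coeff (hra j) i)
  have hRRe : ∀ t w z, (RR t w).eval z =
      ∑ i : Fin k, ((t : ℕ) : ℂ) ^ (i : ℕ) * (remY (r i) w).eval z := by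
    intro t w z
    simp only [hRR, eval_finsetSum, eval_mul, eval_C]
  set ρ : Fin T → Y → ℂ := fun t w => resultant (P w) (RR t w) b b with hρ
  have hρa : ∀ t, AnalyticAt ℂ (ρ t) 0 := fun t =>
    analyticAt_resultant hPa (fun i => hRRa t i) b b
  have hρ2 : ∀ t, AnalyticAt ℂ (fun q : ℂ × Y => ρ t q.2) 0 := fun t =>
    AnalyticAt.comp_of_eq (g := ρ t) (f := fun q : ℂ × Y => q.2) (hρa t) analyticAt_snd rfl
  -- isolated common zero of the resultants
  have hsmall : ∀ᶠ q : ℂ × Y in 𝓝 0, v q ≠ 0 ∧ F q * v q = (P q.2).eval q.1 ∧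
      (∀ i, g i q = v' i q * F q + ∑ j, r i j q.2 * q.1 ^ (j : ℕ)) ∧
      ((∀ i, g i q = 0) → q = 0) := by
    have h1 : ∀ᶠ q : ℂ × Y in 𝓝 0, v q ≠ 0 := (hva : AnalyticAt ℂ v (0 : ℂ × Y)).continuousAt.eventually_ne hv0
    have h2 : ∀ᶠ q : ℂ × Y in 𝓝 0, F q * v q = (P q.2).eval q.1 := hFv
    have h3 : ∀ᶠ q : ℂ × Y in 𝓝 0, ∀ i, g i q = v' i q * F q + ∑ j, r i j q.2 * q.1 ^ (j : ℕ) :=
      Filter.eventually_all.2 hEv
    filter_upwards [h1, h2, h3, hiso] with q h1 h2 h3 h4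
    exact ⟨h1, h2, h3, h4⟩
  obtain ⟨ε, hε, hεs⟩ := Metric.eventually_nhds_iff_ball.1 hsmall
  have hroots := roots_small hPm (fun i => (hPa i).continuousAt) hP0 hε
  have hρiso : ∀ᶠ w in 𝓝 (0 : Y), (∀ t, ρ t w = 0) → w = 0 := by
    filter_upwards [hroots, Metric.ball_mem_nhds (0 : Y) hε] with w hw hwε h0
    have h1 : ∀ t : Fin (b * k + 1), ∃ z, (P w).eval z = 0 ∧
        ∑ i : Fin k, ((t : ℕ) : ℂ) ^ (i : ℕ) * (remY (r i) w).eval z = 0 := by
      intro t
      obtain ⟨z, hz1, hz2⟩ := (resultant_monic_eq_zero_iff (hPm w).1 (hPm w).2 (hRRd t w)).1 (h0 t)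
      exact ⟨z, hz1, by rw [← hRRe]; exact hz2⟩
    obtain ⟨z, hz1, hz2⟩ := common_root (hPm w).1 (hPm w).2 h1
    have hzw : ((z, w) : ℂ × Y) ∈ Metric.ball (0 : ℂ × Y) ε := by
      rw [mem_ball_zero_iff, Prod.norm_mk]
      exact max_lt (hw z hz1) (mem_ball_zero_iff.1 hwε)
    obtain ⟨g1, g2, g3, g4⟩ := hεs _ hzw
    have hFz : F (z, w) = 0 := by
      have h2 : F (z, w) * v (z, w) = 0 := by rw [g2]; exact hz1
      exact (mul_eq_zero.1 h2).resolve_right g1
    have h5 : ((z, w) : ℂ × Y) = 0 := by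
      refine g4 fun i => ?_
      rw [g3 i, hFz, mul_zero, zero_add]
      have h6 := hz2 i
      rw [remY_eval] at h6
      exact h6
    exact congrArg Prod.snd h5
  have hfin2 := hY T ρ hρa hρiso
  -- the resultants belong to the ideal
  have hρJ : ∀ t, sndH Y (mk (ρ t) (hρa t)) ∈ J := by
    intro t
    obtain ⟨a, c, ha, hc, hac⟩ := res_mem hb0 hPa (fun i => hRRa t i) (fun y => (hPm y).2.le)
      (hRRd t)
    have h1 : sndH Y (mk (ρ t) (hρa t)) = mk (fun q : ℂ × Y => ρ t q.2) (hρ2 t) := rfl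
    rw [h1]
    -- the two polynomials as members of the ideal
    have hPJ : mk (fun q : ℂ × Y => F q * v q) ((hg i0).mul hva) ∈ J := by
      have h2 : mk (fun q : ℂ × Y => F q * v q) ((hg i0).mul hva) = mk F (hg i0) * mk v hva := rfl
      rw [h2]
      exact Ideal.mul_mem_right _ _ (hgJ i0)
    have hRJ : mk (fun q : ℂ × Y => ∑ i : Fin k, ((t : ℕ) : ℂ) ^ (i : ℕ) * (g i q - v' i q * F q))
        (Finset.analyticAt_fun_sum _ fun i _ => analyticAt_const.mul
          ((hg i).sub ((hv'a i).mul (hg i0)))) ∈ J := by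
      have h2 : mk (fun q : ℂ × Y => ∑ i : Fin k, ((t : ℕ) : ℂ) ^ (i : ℕ) * (g i q - v' i q * F q))
        (Finset.analyticAt_fun_sum _ fun i _ => analyticAt_const.mul
          ((hg i).sub ((hv'a i).mul (hg i0)))) =
          ∑ i : Fin k, ((((t : ℕ) : ℂ) ^ (i : ℕ)) • (mk (g i) (hg i) - mk (v' i) (hv'a i) * mk F (hg i0))) := by
        have h3 : ∀ i : Fin k, ((((t : ℕ) : ℂ) ^ (i : ℕ)) • (mk (g i) (hg i) -
            mk (v' i) (hv'a i) * mk F (hg i0))) =
            mk (fun q : ℂ × Y => ((t : ℕ) : ℂ) ^ (i : ℕ) * (g i q - v' i q * F q))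
              (analyticAt_const.mul ((hg i).sub ((hv'a i).mul (hg i0)))) := by
          intro i
          rw [mk_mul, mk_sub, smul_mk]
        simp only [h3]
        rw [mk_sum]
      rw [h2]
      refine Submodule.sum_mem _ fun i _ => ?_
      rw [Algebra.smul_def]
      exact Ideal.mul_mem_left _ _ (sub_mem (hgJ i) (Ideal.mul_mem_left _ _ (hgJ i0)))
    have h4 : mk (fun q : ℂ × Y => ρ t q.2) (hρ2 t) =
        mk a ha * mk (fun q : ℂ × Y => F q * v q) ((hg i0).mul hva) +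
        mk c hc * mk (fun q : ℂ × Y => ∑ i : Fin k, ((t : ℕ) : ℂ) ^ (i : ℕ) * (g i q - v' i q * F q))
        (Finset.analyticAt_fun_sum _ fun i _ => analyticAt_const.mul
          ((hg i).sub ((hv'a i).mul (hg i0)))) := by
      rw [mk_mul, mk_mul, mk_add]
      refine mk_congr _ _ ?_
      filter_upwards [hsmall] with q hq
      obtain ⟨-, g2, g3, -⟩ := hq
      rw [g2]
      have h5 : ∑ i : Fin k, ((t : ℕ) : ℂ) ^ (i : ℕ) * (g i q - v' i q * F q) = (RR t q.2).eval q.1 := by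
        rw [hRRe]
        refine Finset.sum_congr rfl fun i _ => ?_
        rw [remY_eval, g3 i]
        ring
      rw [h5]
      exact hac q
    rw [h4]
    exact add_mem (Ideal.mul_mem_left _ _ hPJ) (Ideal.mul_mem_left _ _ hRJ)
  -- the linear surjection
  have hker : ∀ a ∈ Jd ρ hρa, (Ideal.Quotient.mkₐ ℂ J).comp (sndH Y) a = 0 := by
    intro a ha
    have h1 : Jd ρ hρa ≤ RingHom.ker (((Ideal.Quotient.mkₐ ℂ J).comp (sndH Y)) : O Y →ₐ[ℂ] _) := by
      unfold Jd
      rw [Ideal.span_le]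
      rintro _ ⟨t, rfl⟩
      exact Ideal.Quotient.eq_zero_iff_mem.2 (hρJ t)
    exact h1 ha
  set φ : (O Y ⧸ Jd ρ hρa) →ₐ[ℂ] (O (ℂ × Y) ⧸ J) :=
    Ideal.Quotient.liftₐ (Jd ρ hρa) ((Ideal.Quotient.mkₐ ℂ J).comp (sndH Y)) hker with hφ
  set L : (Fin b → (O Y ⧸ Jd ρ hρa)) →ₗ[ℂ] (O (ℂ × Y) ⧸ J) :=
    ∑ i : Fin b, ((LinearMap.mulRight ℂ (Ideal.Quotient.mk J (fstG Y) ^ (i : ℕ))) ∘ₗ
      φ.toLinearMap) ∘ₗ LinearMap.proj i with hL
  refine Module.Finite.of_surjective L ?_
  intro q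
  obtain ⟨c, hc⟩ := hsurj q
  refine ⟨fun i => Ideal.Quotient.mk _ (c i), ?_⟩
  rw [hL, hc, LinearMap.sum_apply]
  refine Finset.sum_congr rfl fun i _ => ?_
  rfl

theorem isoFin_congr {E E' : Type} [NormedAddCommGroup E] [NormedSpace ℂ E]
    [NormedAddCommGroup E'] [NormedSpace ℂ E'] (L : E' ≃L[ℂ] E) (h : IsoFin E) : IsoFin E' := by
  intro k g hg hiso
  have hg' : ∀ j, AnalyticAt ℂ (fun x => g j (L.symm x)) 0 := fun j => ana_pull L.symm (hg j)
  have hiso' : ∀ᶠ x in 𝓝 (0 : E), (∀ j, g j (L.symm x) = 0) → x = 0 := by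
    have h1 : Tendsto (fun x : E => L.symm x) (𝓝 0) (𝓝 0) := by
      have := L.symm.continuous.continuousAt (x := (0 : E))
      rwa [ContinuousAt, map_zero] at this
    filter_upwards [h1.eventually hiso] with x hx hx0
    have := hx hx0
    exact L.symm.map_eq_zero_iff.1 this
  have h1 := h k (fun j x => g j (L.symm x)) hg' hiso'
  obtain ⟨e⟩ := finrank_pull L (fun j x => g j (L.symm x)) hg' g hg
    (fun j x => by rw [L.symm_apply_apply])
  exact Module.Finite.equiv e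

theorem isoFin_zero : IsoFin (Fin 0 → ℂ) := by
  intro k g hg _
  refine Module.Finite.of_surjective
    (Algebra.linearMap ℂ (O (Fin 0 → ℂ) ⧸ Jd g hg)) ?_
  intro q
  obtain ⟨G, rfl⟩ := Ideal.Quotient.mk_surjective q
  obtain ⟨f, hf, rfl⟩ := exists_rep G
  refine ⟨f 0, ?_⟩
  have h1 : mk f hf = algebraMap ℂ (O (Fin 0 → ℂ)) (f 0) := by
    rw [H941.algebraMap_eq]
    refine mk_congr _ _ (Eventually.of_forall fun x => ?_)
    rw [Subsingleton.elim x 0]
  rw [h1]
  rfl

/-- **The Nullstellensatz for isolated zeros.** -/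
theorem isoFin_pi (n : ℕ) : IsoFin (Fin n → ℂ) := by
  induction n with
  | zero => exact isoFin_zero
  | succ n ih =>
    exact isoFin_congr (Fin.consEquivL ℂ (fun _ : Fin (n + 1) => ℂ)).symm (isoFin_step ih)

/-- Finitely many germs of holomorphic functions whose common zero at the origin is isolated have
finite colength. -/
theorem exists_colength {n k : ℕ} {s : Fin k → (Fin n → ℂ) → ℂ} (hs : ∀ j, Hol (s j))
    (hiso : ∀ᶠ x in 𝓝 (0 : Fin n → ℂ), (∀ j, s j x = 0) → x = 0) : ∃ d, Colength s d :=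
  ⟨_, (colength_iff hs _).2 ⟨isoFin_pi n k s hs hiso, rfl⟩⟩

/-- Every coordinate is nilpotent modulo the ideal: a power of every germ vanishing at the origin
is in the ideal. -/
theorem exists_pow_inIdeal {n k : ℕ} {s : Fin k → (Fin n → ℂ) → ℂ} (hs : ∀ j, Hol (s j))
    (hiso : ∀ᶠ x in 𝓝 (0 : Fin n → ℂ), (∀ j, s j x = 0) → x = 0) {h : (Fin n → ℂ) → ℂ}
    (hh : Hol h) (h0 : h 0 = 0) : ∃ m : ℕ, InIdeal s (fun x => h x ^ m) := by
  have hs' : ∀ j, AnalyticAt ℂ (s j) 0 := hs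
  have hh' : AnalyticAt ℂ h 0 := hh
  have hfin := isoFin_pi n k s hs' hiso
  obtain ⟨m, hm⟩ := exists_pow_mem (Jd s hs') hfin (a := mk h hh') h0
  rw [mk_pow, mk_mem_Jd] at hm
  exact ⟨m, hm⟩

end

end Vale.Agent.P298.H983
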