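import Vale.Agent.P298.H983.End1
import Vale.Agent.P298.H983.Fin1
import Vale.Agent.P298.H983.Null
import Vale.Agent.P298.H955.CM3

/-!
# P298 / H983 (row E1-FINC), part 2: sections of `b(n Z)` in the charts of the surface
-/

open Set Filter Metric Topology

noncomputable section

namespace Vale.Agent.P298.H983

open Vale.Agent.P298 Vale.Agent.P298.H379 Vale.Agent.P298.H707 Vale.Agent.P298.H955
open Vale.Agent.P298.FF (Plk)

/-! ### perturbation of high order -/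

section Pert

variable {R 𝒦 : Type*} [CommRing R] [Algebra ℂ R] [Field 𝒦] [Algebra ℂ 𝒦]
  [Algebra R 𝒦] [IsScalarTower ℂ R 𝒦] {I : Type*} [Fintype I] [DecidableEq I]
  (C : CModel R 𝒦 I)

theorem ne_of_vR {h r : R} (hh : h ≠ 0) {i : I} (hr : r = 0 ∨ C.vR i h < C.vR i r) :
    h + r ≠ 0 := by
  intro h0
  rcases hr with rfl | hr
  · rw [add_zero] at h0
    exact hh h0
  · have h1 : r = -h := by rw [eq_neg_iff_add_eq_zero, add_comm]; exact h0
    rw [h1] at hr
    simp only [CModel.vR, map_neg, (C.hv i).neg] at hr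
    exact lt_irrefl _ hr

theorem vR_add_le {h r : R} (hs : h + r ≠ 0) {i : I} {d : ℤ} (h1 : d ≤ C.vR i h)
    (h2 : r = 0 ∨ d ≤ C.vR i r) : d ≤ C.vR i (h + r) := by
  have h3 : h ∈ C.fil i d := Or.inr h1
  have h4 : r ∈ C.fil i d := h2
  exact ((C.fil i d).add_mem h3 h4).resolve_left hs

theorem vR_add_eq {h r : R} (hh : h ≠ 0) {i : I} (hr : r = 0 ∨ C.vR i h < C.vR i r) :
    C.vR i (h + r) = C.vR i h := by
  have hs := ne_of_vR C hh hr
  rcases hr with rfl | hr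
  · rw [add_zero]
  · refine le_antisymm ?_ (vR_add_le C hs le_rfl (Or.inr hr.le))
    by_contra hlt
    push Not at hlt
    have h1 : h + r ∈ C.fil i (C.vR i h + 1) := Or.inr hlt
    have h2 : r ∈ C.fil i (C.vR i h + 1) := Or.inr hr
    have h3 := (C.fil i (C.vR i h + 1)).sub_mem h1 h2
    rw [add_sub_cancel_right] at h3
    have := h3.resolve_left hh
    omega

theorem lam_add_eq {h r : R} (hh : h ≠ 0) (q : C.Q) (hr : r = 0 ∨ C.vR q.1 h < C.vR q.1 r) :
    C.lam q (algebraMap R 𝒦 (h + r)) = C.lam q (algebraMap R 𝒦 h) := by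
  have hs := ne_of_vR C hh hr
  have hv : C.v q.1 (algebraMap R 𝒦 (h + r)) = C.v q.1 (algebraMap R 𝒦 h) := vR_add_eq C hh hr
  rw [C.lam_eq q (C.map_ne hs), C.lam_eq q (C.map_ne hh), hv]
  have h1 : C.lcModel.lc q.1 (C.vR q.1 h) (h + r) =
      C.lcModel.lc q.1 (C.vR q.1 h) h + C.lcModel.lc q.1 (C.vR q.1 h) r := by
    refine C.lcModel.lc_add _ ?_ ?_
    · exact Or.inr le_rfl
    · rcases hr with h0 | h0
      · exact Or.inl h0
      · exact Or.inr h0.le
  have h2 : C.lcModel.lc q.1 (C.vR q.1 h) r = 0 := by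
    refine (C.lcModel.lc_eq_zero _ ?_).2 ?_
    · rcases hr with h0 | h0
      · exact Or.inl h0
      · exact Or.inr h0.le
    · rcases hr with h0 | h0
      · exact Or.inl h0
      · exact Or.inr h0
  rw [h2, add_zero] at h1
  have h3 : C.lco q.1 (C.v q.1 (algebraMap R 𝒦 h)) (algebraMap R 𝒦 (h + r)) =
      C.lco q.1 (C.v q.1 (algebraMap R 𝒦 h)) (algebraMap R 𝒦 h) := h1
  rw [h3]

/-- exactness of the divisor of `h` at a place. -/
def GoodAt (W : I → ℤ) (p : C.Q) (h : R) : Prop :=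
  C.vR p.1 h = W p.1 ∧ (∀ p', C.nb p = some p' → C.vR p'.1 h = W p'.1) ∧ C.NV p.1 p.2 h

theorem goodAt_add {W : I → ℤ} {p : C.Q} {h r : R} (hh : h ≠ 0) (hg : GoodAt C W p h)
    (hr : ∀ i, r = 0 ∨ W i < C.vR i r) : GoodAt C W p (h + r) := by
  obtain ⟨h1, h2, h3⟩ := hg
  have e1 : C.vR p.1 (h + r) = C.vR p.1 h := vR_add_eq C hh (by rw [h1]; exact hr _)
  refine ⟨e1.trans h1, fun p' hp' => ?_, ?_⟩
  · rw [vR_add_eq C hh (by rw [h2 p' hp']; exact hr _), h2 p' hp']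
  · rw [CModel.NV] at h3 ⊢
    have e2 : C.lam ⟨p.1, p.2⟩ (algebraMap R 𝒦 (h + r)) = C.lam ⟨p.1, p.2⟩ (algebraMap R 𝒦 h) :=
      lam_add_eq C hh p (by rw [h1]; exact hr _)
    rw [e2, h3]
    congr 1
    rcases hn : C.nb p with _ | p'
    · rw [CModel.y, CModel.y]
      have : C.nb ⟨p.1, p.2⟩ = none := hn
      rw [this]
      rfl
    · rw [CModel.y, CModel.y]
      have : C.nb ⟨p.1, p.2⟩ = some p' := hn
      rw [this]
      show C.vR p'.1 h = C.vR p'.1 (h + r)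
      rw [vR_add_eq C hh (by rw [h2 p' hn]; exact hr _)]

/-- the divisor is exact at all but finitely many places. -/
theorem finite_bad {W : I → ℤ} {j : I} {h : R} (hh : h ≠ 0) (hj : C.vR j h = W j) :
    {p : C.Q | p.1 = j ∧ ¬ GoodAt C W p h}.Finite := by
  have h1 : {p : C.Q | C.nb p ≠ none}.Finite := C.nb_fin
  have h2 := (C.fin_supp_lam j (C.map_ne hh)).image (fun P => (⟨j, P⟩ : C.Q))
  refine (h1.union h2).subset ?_
  rintro ⟨i, P⟩ ⟨hi, hbad⟩
  simp only at hi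
  subst hi
  by_contra hcon
  rw [mem_union, not_or] at hcon
  obtain ⟨e1, e2⟩ := hcon
  have e3 : C.nb ⟨i, P⟩ = none := by
    by_contra h3
    exact e1 h3
  have e4 : C.lam ⟨i, P⟩ (algebraMap R 𝒦 h) = 0 := by
    by_contra h3
    exact e2 ⟨P, h3, rfl⟩
  apply hbad
  refine ⟨hj, fun p' hp' => ?_, ?_⟩
  · rw [e3] at hp'
    exact absurd hp' (by simp)
  · rw [CModel.NV, e4, CModel.y, e3]
    simp

end Pert

end Vale.Agent.P298.H983
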