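import Vale.Agent.P298.H983.End2
import Vale.Agent.P298.H471.Link

/-!
# P298 / H983 (row E1-FINC), part 3: orders in the charts, representatives, integrability
-/

open Set Filter Metric Topology Polynomial

noncomputable section

namespace Vale.Agent.P298.H983

open Vale.Agent.P298 Vale.Agent.P298.H379 Vale.Agent.P298.H707 Vale.Agent.P298.H955
open Vale.Agent.P298.H471 (RV cl Link)
open Vale.Agent.P298.FF (Plk)

variable {f : (Fin 3 → ℂ) → ℂ}

/-! ### classes of germs -/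

theorem cl_eq {h : (Fin 3 → ℂ) → ℂ} (hh : Hol h) :
    cl f h = Ideal.Quotient.mk _ (H766.T 3 ⟨h, hh⟩) := by
  rw [cl, H766.ser_eq hh]

theorem cl_add {u v : (Fin 3 → ℂ) → ℂ} (hu : Hol u) (hv : Hol v) :
    cl f (fun x => u x + v x) = cl f u + cl f v := by
  rw [cl, H766.ser_add hu hv, map_add]; rfl

theorem cl_mul {u v : (Fin 3 → ℂ) → ℂ} (hu : Hol u) (hv : Hol v) :
    cl f (fun x => u x * v x) = cl f u * cl f v := by
  rw [cl, H766.ser_mul hu hv, map_mul]; rfl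

theorem hol_sum {S : Type*} (t : Finset S) {h : S → (Fin 3 → ℂ) → ℂ} (hh : ∀ s, Hol (h s))
    (c : S → ℂ) : Hol fun x => ∑ s ∈ t, c s * h s x := by
  have h1 : Hol (∑ s ∈ t, fun x => c s * h s x) :=
    Finset.analyticAt_sum _ fun s _ => AnalyticAt.mul analyticAt_const (hh s)
  have h2 : (∑ s ∈ t, fun x => c s * h s x) = fun x => ∑ s ∈ t, c s * h s x := by
    funext x
    rw [Finset.sum_apply]
  rwa [h2] at h1

variable {κ : Type*} {Θ : κ → ℂ × ℂ → ℂ × ℂ} {n : ℕ}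
    {P : ℂ × ℂ → ℂ[X]} {v : ℂ × (ℂ × ℂ) → ℂ} {K : κ → ℕ} {ζ : κ → Fin n → ℂ × ℂ → ℂ}
    {σ ρ : κ → Equiv.Perm (Fin n)} {M : Model f Θ n P v K ζ σ ρ} {𝒦 : Type*} [Field 𝒦]
    [Algebra ℂ 𝒦] [Algebra (RV f) 𝒦] [IsScalarTower ℂ (RV f) 𝒦] {I : Type*} [Fintype I]
    [DecidableEq I] {C : H955.CModel (RV f) 𝒦 I} (Lk : Link M C)

include Lk

theorem ch_axis (i : κ) (l : Fin n) : ∀ᶠ t in 𝓝 (0 : ℂ), M.ch i l (0, t) = 0 := by
  have hK := (M.C i).hK
  have h1 := (M.C i).root_zero M.W.zero (Lk.exc i)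
  have h2 : Tendsto (fun t : ℂ => t ^ K i) (𝓝 0) (𝓝 0) := by
    have := (continuous_pow (K i)).tendsto (0 : ℂ)
    rwa [zero_pow hK] at this
  filter_upwards [h1, h2.eventually (Lk.exc i)] with t e1 e2
  show pt (Θ i ((0 : ℂ) ^ K i, t ^ K i)) (ζ i l (0, t)) = 0
  rw [zero_pow hK, e2, e1 l, pt_zero]

theorem exists_chart (j : I) : ∃ i l, (Lk.q i l).1 = j := by
  obtain ⟨P0⟩ := FF.nonempty_Plk (k := ℂ) (F := C.κ j)
  obtain ⟨i, l, h⟩ := Lk.q_surj ⟨j, P0⟩
  exact ⟨i, l, by rw [h]⟩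

/-- functions vanishing at the origin have positive orders. -/
theorem vpos {h : (Fin 3 → ℂ) → ℂ} (hh : Hol h) (h0 : h 0 = 0) (hne : cl f h ≠ 0) (j : I) :
    1 ≤ C.vR j (cl f h) := by
  obtain ⟨i, l, rfl⟩ := exists_chart Lk j
  obtain ⟨α, β, δ, u, g, hα, hβ, hδ, hu, hg, hg0, hch, hug⟩ := Lk.ord h hh hne i l
  have hα1 : α ≠ 0 := by
    rintro rfl
    have h1 : Tendsto (fun t : ℂ => ((0, t) : ℂ × ℂ)) (𝓝 0) (𝓝 0) :=
      (Continuous.prodMk_right (0 : ℂ)).continuousAt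
    have h2 : ∀ᶠ t in 𝓝 (0 : ℂ), t ^ β * (t ^ δ * g t) = 0 := by
      filter_upwards [ch_axis Lk i l, h1.eventually hch, hug] with t e1 e2 e3
      rw [← e3]
      simp only [pow_zero, one_mul] at e2
      rw [← e2, e1, h0]
    have h3 : ∀ᶠ t in 𝓝[≠] (0 : ℂ), False := by
      filter_upwards [h2.filter_mono nhdsWithin_le_nhds,
        (hg.continuousAt.eventually_ne hg0).filter_mono nhdsWithin_le_nhds,
        self_mem_nhdsWithin] with t e1 e2 e3
      exact (mul_ne_zero (pow_ne_zero _ e3) (mul_ne_zero (pow_ne_zero _ e3) e2)) e1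
    exact (h3.exists).elim fun _ h => h
  have h4 := Lk.ka_pos i l
  have h5 : (0 : ℤ) < Lk.ka i l * C.vR (Lk.q i l).1 (cl f h) := by rw [← hα]; omega
  have h6 : (0 : ℤ) < Lk.ka i l := by exact_mod_cast h4
  have h7 := pos_of_mul_pos_right h5 h6.le
  omega

theorem mR_le (j : I) (N : ℕ) :
    (H766.mR 3 ^ N).map (Ideal.Quotient.mk (Ideal.span {H766.ser f})) ≤ C.fil j N := by
  have h1 : (H766.mR 3).map (Ideal.Quotient.mk (Ideal.span {H766.ser f})) ≤ C.fil j 1 := by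
    rw [H766.mR, Ideal.map_span, Ideal.span_le]
    rintro _ ⟨_, ⟨i, rfl⟩, rfl⟩
    have hX : Hol (fun x : Fin 3 → ℂ => x i) :=
      (ContinuousLinearMap.proj (R := ℂ) (φ := fun _ : Fin 3 => ℂ) i).analyticAt 0
    have h2 : (Ideal.Quotient.mk (Ideal.span {H766.ser f})) (MvPowerSeries.X i) =
        cl f (fun x => x i) := by rw [cl, H766.ser_coord]
    rw [h2]
    by_cases h3 : cl f (fun x => x i) = 0
    · exact Or.inl h3
    · exact Or.inr (vpos Lk hX rfl h3 j)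
  rw [Ideal.map_pow]
  induction N with
  | zero =>
    intro h _
    by_cases hh : h = 0
    · exact Or.inl hh
    · exact Or.inr (by simpa using C.vR_nonneg j hh)
  | succ N ih =>
    rw [pow_succ]
    refine Ideal.mul_le.2 fun a ha b hb => ?_
    have h2 := C.lcModel.mul_mem j (ih ha) (h1 hb)
    push_cast
    exact h2

/-- representatives by polynomials. -/
theorem exists_rep (r : RV f) (N : ℕ) : ∃ h, Hol h ∧ ∀ j, cl f h - r ∈ C.fil j N := by
  obtain ⟨F, rfl⟩ := Ideal.Quotient.mk_surjective r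
  refine ⟨_, (H766.toAn 3 (F.truncTotal N)).2, fun j => ?_⟩
  have h1 : cl f ((H766.toAn 3 (F.truncTotal N) : AnFun 3) : (Fin 3 → ℂ) → ℂ) =
      Ideal.Quotient.mk _ (F.truncTotal N : MvPowerSeries (Fin 3) ℂ) := by
    rw [cl_eq (H766.toAn 3 (F.truncTotal N)).2]
    show Ideal.Quotient.mk _ (H766.T 3 (H766.toAn 3 (F.truncTotal N))) = _
    rw [H766.T_toAn]
  have h2 : F - (F.truncTotal N : MvPowerSeries (Fin 3) ℂ) ∈ H766.mR 3 ^ N :=
    H766.mem_mR_pow_of_order N (H766.exists_trunc N F)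
  rw [h1, ← neg_sub, ← map_sub]
  exact neg_mem (mR_le Lk j N (Ideal.mem_map_of_mem _ h2))

/-- **integrability from orders.** -/
theorem inI_of_link {h : (Fin 3 → ℂ) → ℂ} (hh : Hol h) {k : ℝ} (hk : 0 < k)
    (hv : cl f h = 0 ∨ ∀ j, k * (-1 - C.K j) < C.vR j (cl f h)) : InI f k h := by
  classical
  by_cases h0 : cl f h = 0
  · refine M.inI hh hk Lk.jac Lk.pd2
      (fun i l => k * ((Lk.c i l : ℝ) - K i * (Lk.a i + 1)) + 1)
      (fun i l => k * ((Lk.d i l : ℝ) - K i * (Lk.b i + 1)) + 1) (fun i l => ⟨0, ?_⟩)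
      (fun i l => lt_add_one _) (fun i l => lt_add_one _)
    filter_upwards [Lk.zero h hh h0 i l] with q e1 _ _
    rw [e1, norm_zero, zero_mul]
  · have hv' := hv.resolve_left h0
    refine M.inI hh hk Lk.jac Lk.pd2
      (fun i l => (Lk.ka i l : ℝ) * (C.vR (Lk.q i l).1 (cl f h) : ℤ))
      (fun i l => ((C.e2 (Lk.q i l) * C.y (fun j => C.vR j (cl f h)) (Lk.q i l) : ℤ) : ℝ))
      (fun i l => ?_) (fun i l => ?_) (fun i l => ?_)
    · obtain ⟨α, β, δ, u, g, hα, hβ, hδ, hu, hg, hg0, hch, hug⟩ := Lk.ord h hh h0 i l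
      refine ⟨‖u 0‖ + 1, ?_⟩
      have h2 : ∀ᶠ q in 𝓝 (0 : ℂ × ℂ), ‖u q‖ < ‖u 0‖ + 1 :=
        hu.continuousAt.norm.eventually_lt continuousAt_const (by linarith)
      filter_upwards [hch, h2] with q e1 e2 _ _
      have e3 : (Lk.ka i l : ℝ) * (C.vR (Lk.q i l).1 (cl f h) : ℤ) = (α : ℝ) := by
        exact_mod_cast congrArg (fun z : ℤ => (z : ℝ)) hα.symm
      have e4 : ((C.e2 (Lk.q i l) * C.y (fun j => C.vR j (cl f h)) (Lk.q i l) : ℤ) : ℝ) = (β : ℝ) := by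
        rw [← hβ]
        rfl
      rw [e3, e4, Real.rpow_natCast, Real.rpow_natCast, e1, norm_mul, norm_mul, norm_pow, norm_pow,
        mul_comm]
      gcongr
    · have h1 := Lk.canA i l
      have h2 : (Lk.c i l : ℝ) - K i * (Lk.a i + 1) = Lk.ka i l * (-1 - C.K (Lk.q i l).1) := by
        have h3 : ((K i * (Lk.a i + 1) - Lk.c i l : ℤ) : ℝ) =
          ((Lk.ka i l * (C.K (Lk.q i l).1 + 1) : ℤ) : ℝ) := by rw [h1]
        push_cast at h3
        linarith
      have h4 : (0 : ℝ) < Lk.ka i l := by exact_mod_cast Lk.ka_pos i l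
      have h5 := hv' (Lk.q i l).1
      rw [h2]
      calc k * (Lk.ka i l * (-1 - (C.K (Lk.q i l).1 : ℝ)))
          = Lk.ka i l * (k * (-1 - (C.K (Lk.q i l).1 : ℝ))) := by ring
        _ < Lk.ka i l * ((C.vR (Lk.q i l).1 (cl f h) : ℤ) : ℝ) := by
          exact mul_lt_mul_of_pos_left h5 h4
    · have h1 := Lk.canB i l
      have h3 : ((K i * (Lk.b i + 1) - Lk.d i l : ℤ) : ℝ) =
          ((C.e2 (Lk.q i l) * ((C.nb (Lk.q i l)).elim 1 (fun p => C.K p.1 + 1)) : ℤ) : ℝ) := by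
        rw [h1]
      have h4 := C.e2R (Lk.q i l)
      rcases hn : C.nb (Lk.q i l) with _ | p'
      · rw [hn] at h3
        simp only [Option.elim_none] at h3
        push_cast at h3
        have h5 : C.y (fun j => C.vR j (cl f h)) (Lk.q i l) = 0 := by rw [CModel.y, hn]; rfl
        rw [h5]
        push_cast
        have h6 : (Lk.d i l : ℝ) - K i * (Lk.b i + 1) = -C.e2 (Lk.q i l) := by linarith
        rw [h6]
        nlinarith
      · rw [hn] at h3
        simp only [Option.elim_some] at h3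
        push_cast at h3
        have h5 : C.y (fun j => C.vR j (cl f h)) (Lk.q i l) = C.vR p'.1 (cl f h) := by
          rw [CModel.y, hn]; rfl
        rw [h5]
        push_cast
        have h6 : (Lk.d i l : ℝ) - K i * (Lk.b i + 1) = C.e2 (Lk.q i l) * (-1 - C.K p'.1) := by
          linarith
        rw [h6]
        have h7 := hv' p'.1
        calc k * (C.e2 (Lk.q i l) * (-1 - (C.K p'.1 : ℝ)))
            = C.e2 (Lk.q i l) * (k * (-1 - (C.K p'.1 : ℝ))) := by ring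
          _ < C.e2 (Lk.q i l) * ((C.vR p'.1 (cl f h) : ℤ) : ℝ) := mul_lt_mul_of_pos_left h7 h4

end Vale.Agent.P298.H983
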