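import Vale.Agent.P298.H983.End3

/-!
# P298 / H983 (row E1-FINC), part 4: two general sections of `b(W)`, the order of their Jacobian
-/

open Set Filter Metric Topology Polynomial

noncomputable section

namespace Vale.Agent.P298.H983

open Vale.Agent.P298 Vale.Agent.P298.H379 Vale.Agent.P298.H707 Vale.Agent.P298.H955
open Vale.Agent.P298.H471 (RV cl Link)
open Vale.Agent.P298.FF (Plk)

variable {f : (Fin 3 → ℂ) → ℂ} {κ : Type*} {Θ : κ → ℂ × ℂ → ℂ × ℂ} {n : ℕ}
    {P : ℂ × ℂ → ℂ[X]} {v : ℂ × (ℂ × ℂ) → ℂ} {K : κ → ℕ} {ζ : κ → Fin n → ℂ × ℂ → ℂ}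
    {σ ρ : κ → Equiv.Perm (Fin n)} {M : Model f Θ n P v K ζ σ ρ} {𝒦 : Type*} [Field 𝒦]
    [Algebra ℂ 𝒦] [Algebra (RV f) 𝒦] [IsScalarTower ℂ (RV f) 𝒦] {I : Type*} [Fintype I]
    [DecidableEq I] {C : H955.CModel (RV f) 𝒦 I} (Lk : Link M C)

/-- the exponents of a section of `b(W)` in a chart -/
def al (W : I → ℤ) (i : κ) (l : Fin n) : ℕ := (Lk.ka i l * W (Lk.q i l).1).toNat

def be (W : I → ℤ) (i : κ) (l : Fin n) : ℕ := (C.e2 (Lk.q i l) * C.y W (Lk.q i l)).toNat

theorem al_cast {W : I → ℤ} (hW : ∀ j, 0 < W j) (i : κ) (l : Fin n) :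
    (al Lk W i l : ℤ) = Lk.ka i l * W (Lk.q i l).1 :=
  Int.toNat_of_nonneg (mul_nonneg (Int.natCast_nonneg _) (hW _).le)

theorem y_nonneg {W : I → ℤ} (hW : ∀ j, 0 < W j) (p : C.Q) : 0 ≤ C.y W p := by
  rw [CModel.y]
  rcases C.nb p with _ | p'
  · exact le_rfl
  · exact (hW _).le

theorem be_cast {W : I → ℤ} (hW : ∀ j, 0 < W j) (i : κ) (l : Fin n) :
    (be Lk W i l : ℤ) = C.e2 (Lk.q i l) * C.y W (Lk.q i l) :=
  Int.toNat_of_nonneg (mul_nonneg (C.e2_pos _).le (y_nonneg hW _))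

theorem al_pos {W : I → ℤ} (hW : ∀ j, 0 < W j) (i : κ) (l : Fin n) : 0 < al Lk W i l := by
  have h1 := al_cast Lk hW i l
  have h2 : (0 : ℤ) < Lk.ka i l * W (Lk.q i l).1 :=
    mul_pos (by exact_mod_cast Lk.ka_pos i l) (hW _)
  omega

/-- a section of `b(W)` in a chart -/
theorem sec {W : I → ℤ} (hW : ∀ j, 0 < W j) {h : (Fin 3 → ℂ) → ℂ} (hh : Hol h)
    (hv : cl f h = 0 ∨ ∀ j, W j ≤ C.vR j (cl f h)) (i : κ) (l : Fin n) :
    ∃ u : ℂ × ℂ → ℂ, AnalyticAt ℂ u 0 ∧
      (∀ᶠ q in 𝓝 (0 : ℂ × ℂ), h (M.ch i l q) = q.1 ^ al Lk W i l * q.2 ^ be Lk W i l * u q) ∧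
      (u 0 ≠ 0 ↔ cl f h ≠ 0 ∧ GoodAt C W (Lk.q i l) (cl f h)) := by
  by_cases h0 : cl f h = 0
  · refine ⟨fun _ => 0, analyticAt_const, ?_, by simp [h0]⟩
    filter_upwards [Lk.zero h hh h0 i l] with q e1
    rw [e1, mul_zero]
  · have hv' := hv.resolve_left h0
    obtain ⟨α, β, δ, u, g, hα, hβ, hδ, hu, hg, hg0, hch, hug⟩ := Lk.ord h hh h0 i l
    have hka : (0 : ℤ) < Lk.ka i l := by exact_mod_cast Lk.ka_pos i l
    have he2 := C.e2_pos (Lk.q i l)
    have hya : C.y W (Lk.q i l) ≤ C.y (fun j => C.vR j (cl f h)) (Lk.q i l) := by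
      rw [CModel.y, CModel.y]
      rcases C.nb (Lk.q i l) with _ | p'
      · exact le_rfl
      · exact hv' _
    have h1 : al Lk W i l ≤ α := by
      have h2 := al_cast Lk hW i l
      have h3 := mul_le_mul_of_nonneg_left (hv' (Lk.q i l).1) hka.le
      omega
    have h2 : be Lk W i l ≤ β := by
      have h2 := be_cast Lk hW i l
      have h3 := mul_le_mul_of_nonneg_left hya he2.le
      omega
    obtain ⟨a', rfl⟩ := Nat.exists_eq_add_of_le h1
    obtain ⟨b', rfl⟩ := Nat.exists_eq_add_of_le h2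
    have hu0 : u 0 = 0 ^ δ * g 0 := hug.self_of_nhds
    refine ⟨fun q => q.1 ^ a' * q.2 ^ b' * u q,
      ((analyticAt_fst.pow a').mul (analyticAt_snd.pow b')).mul hu, ?_, ?_⟩
    · filter_upwards [hch] with q e1
      rw [e1]
      ring
    · have e1 : ((0 : ℂ × ℂ).1 ^ a' * (0 : ℂ × ℂ).2 ^ b' * u 0 ≠ 0) ↔ a' = 0 ∧ b' = 0 ∧ δ = 0 := by
        rw [hu0]
        simp only [Prod.fst_zero, Prod.snd_zero, ne_eq, mul_eq_zero, not_or, hg0, not_false_eq_true,
          and_true, zero_pow_eq_zero, not_not]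
        tauto
      rw [e1]
      have ha : a' = 0 ↔ C.vR (Lk.q i l).1 (cl f h) = W (Lk.q i l).1 := by
        have h3 := al_cast Lk hW i l
        constructor
        · rintro rfl
          rw [add_zero, h3] at hα
          exact (mul_left_cancel₀ hka.ne' hα).symm
        · intro h4
          rw [h4] at hα
          push_cast at hα
          omega
      have hb : b' = 0 ↔ C.y (fun j => C.vR j (cl f h)) (Lk.q i l) = C.y W (Lk.q i l) := by
        have h3 := be_cast Lk hW i l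
        constructor
        · rintro rfl
          rw [add_zero, h3] at hβ
          exact (mul_left_cancel₀ he2.ne' hβ).symm
        · intro h4
          rw [h4] at hβ
          push_cast at hβ
          omega
      have hd : δ = 0 ↔ C.NV (Lk.q i l).1 (Lk.q i l).2 (cl f h) := by
        rw [CModel.NV]
        show δ = 0 ↔ C.lam (Lk.q i l) _ = C.e2 (Lk.q i l) * C.y _ (Lk.q i l)
        rw [← hβ, ← hδ]
        push_cast
        omega
      rw [ha, hb, hd, GoodAt]
      have hy : C.y (fun j => C.vR j (cl f h)) (Lk.q i l) = C.y W (Lk.q i l) ↔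
          ∀ p', C.nb (Lk.q i l) = some p' → C.vR p'.1 (cl f h) = W p'.1 := by
        rw [CModel.y, CModel.y]
        rcases C.nb (Lk.q i l) with _ | p'
        · simp
        · simp
      rw [hy]
      tauto

include Lk in
/-- **two general sections.** -/
theorem exists_pair {W : I → ℤ} (hW : ∀ j, 0 < W j)
    (hgood : ∀ p : C.Q, ∃ h : RV f, h ≠ 0 ∧ (∀ j, W j ≤ C.vR j h) ∧ GoodAt C W p h) :
    ∃ e e' : (Fin 3 → ℂ) → ℂ, Hol e ∧ Hol e' ∧ (cl f e = 0 ∨ ∀ j, W j ≤ C.vR j (cl f e)) ∧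
      (cl f e' = 0 ∨ ∀ j, W j ≤ C.vR j (cl f e')) ∧
      (∀ (g : (Fin 3 → ℂ) → ℂ) (m N : ℕ), Hol g → 0 < m →
        (cl f g = 0 ∨ ∀ j, 0 ≤ C.vR j (cl f g) ∧ (N : ℤ) * W j ≤ m * C.vR j (cl f g)) →
        ∃ K r : ℝ, 0 < r ∧ ∀ x, f x = 0 → x ≠ 0 → ‖x‖ < r →
          ‖g x‖ ^ m ≤ K * (‖e x‖ + ‖e' x‖) ^ N) ∧
      (∃ r : ℝ, 0 < r ∧ ∀ x, f x = 0 → ‖x‖ < r → e x = 0 → e' x = 0 → x = 0) := by
  classical
  -- holomorphic representatives
  have hrep : ∀ p : C.Q, ∃ h : (Fin 3 → ℂ) → ℂ, Hol h ∧ cl f h ≠ 0 ∧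
      (∀ j, W j ≤ C.vR j (cl f h)) ∧ GoodAt C W p (cl f h) := by
    intro p
    obtain ⟨h₀, hne, hle, hg⟩ := hgood p
    obtain ⟨N, hN⟩ : ∃ N : ℕ, ∀ j, W j < N := by
      obtain ⟨N, hN⟩ := (Set.finite_range W).bddAbove
      refine ⟨N.toNat + 1, fun j => ?_⟩
      have := hN (Set.mem_range_self j)
      push_cast
      omega
    obtain ⟨h, hh, hr⟩ := exists_rep Lk h₀ N
    set r := cl f h - h₀ with hrd
    have hcl : cl f h = h₀ + r := by rw [hrd]; ring
    have hr' : ∀ j, r = 0 ∨ W j < C.vR j r := fun j => by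
      rcases hr j with h1 | h1
      · exact Or.inl h1
      · exact Or.inr (lt_of_lt_of_le (hN j) h1)
    have hne' : h₀ + r ≠ 0 := ne_of_vR C hne (i := p.1) (by rw [hg.1]; exact hr' _)
    refine ⟨h, hh, by rw [hcl]; exact hne', fun j => ?_, ?_⟩
    · rw [hcl]
      refine vR_add_le C hne' (hle j) ?_
      rcases hr' j with h1 | h1
      · exact Or.inl h1
      · exact Or.inr h1.le
    · rw [hcl]
      exact goodAt_add C hne hg hr'
  choose H hH1 hH2 hH3 hH4 using hrep
  -- a place on every component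
  have hpl : ∀ j : I, ∃ p : C.Q, p.1 = j := fun j => by
    obtain ⟨i, l, h⟩ := exists_chart Lk j
    exact ⟨_, h⟩
  choose pj hpj using hpl
  -- bad charts
  have hbadf : ∀ j : I, {t : κ × Fin n | (Lk.q t.1 t.2).1 = j ∧
      ¬ GoodAt C W (Lk.q t.1 t.2) (cl f (H (pj j)))}.Finite := by
    intro j
    have h1 : {p : C.Q | p.1 = j ∧ ¬ GoodAt C W p (cl f (H (pj j)))}.Finite :=
      finite_bad C (hH2 _) (by
        have := (hH4 (pj j)).1
        rwa [hpj j] at this)
    have h2 : {t : κ × Fin n | (Lk.q t.1 t.2).1 = j ∧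
      ¬ GoodAt C W (Lk.q t.1 t.2) (cl f (H (pj j)))} ⊆
      ⋃ p ∈ {p : C.Q | p.1 = j ∧ ¬ GoodAt C W p (cl f (H (pj j)))},
        {t : κ × Fin n | Lk.q t.1 t.2 = p} := by
      intro t ht
      simp only [mem_iUnion]
      exact ⟨Lk.q t.1 t.2, ht, rfl⟩
    exact (h1.biUnion fun p _ => Lk.q_fin p).subset h2
  set B : Finset (κ × Fin n) := Finset.univ.biUnion fun j => (hbadf j).toFinset with hB
  -- the finite family
  set S := I ⊕ B with hS
  set h : S → (Fin 3 → ℂ) → ℂ := Sum.elim (fun j => H (pj j)) (fun t => H (Lk.q t.1.1 t.1.2)) with hh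
  have hh1 : ∀ s, Hol (h s) := by
    rintro (j | t)
    · exact hH1 _
    · exact hH1 _
  have hh3 : ∀ s, ∀ j, W j ≤ C.vR j (cl f (h s)) := by
    rintro (j | t)
    · exact hH3 _
    · exact hH3 _
  have hsec := fun (t : κ × Fin n) (s : S) => sec Lk hW (hh1 s) (Or.inr (hh3 s)) t.1 t.2
  choose u hu1 hu2 hu3 using hsec
  -- linear combinations
  have hcomb : ∀ c : S → ℂ, cl f (fun x => ∑ s, c s * h s x) = 0 ∨
      ∀ j, W j ≤ C.vR j (cl f (fun x => ∑ s, c s * h s x)) := by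
    intro c
    have h1 : ∀ (t : Finset S) (j : I), cl f (fun x => ∑ s ∈ t, c s * h s x) ∈ C.fil j (W j) := by
      intro t j
      induction t using Finset.induction_on with
      | empty =>
        refine Or.inl ?_
        simp only [Finset.sum_empty]
        rw [cl, H766.ser_const, map_zero, map_zero]
      | insert s t hs ih =>
        have h2 : (fun x => ∑ s ∈ insert s t, c s * h s x) =
            fun x => (fun x => c s * h s x) x + (fun x => ∑ s ∈ t, c s * h s x) x := by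
          funext x
          rw [Finset.sum_insert hs]
        have h4 : Hol (fun _ : Fin 3 → ℂ => c s) := analyticAt_const
        have h3 : Hol (fun x => c s * h s x) := AnalyticAt.mul h4 (hh1 s)
        rw [h2, cl_add h3 (hol_sum t hh1 c), cl_mul h4 (hh1 s)]
        refine (C.fil j (W j)).add_mem ?_ ih
        exact Ideal.mul_mem_left _ _ (Or.inr (hh3 s j))
    by_cases h0 : cl f (fun x => ∑ s, c s * h s x) = 0
    · exact Or.inl h0
    · exact Or.inr fun j => (h1 Finset.univ j).resolve_left h0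
  have hholc : ∀ c : S → ℂ, Hol fun x => ∑ s, c s * h s x := fun c => hol_sum _ hh1 c
  -- the value of the section of a combination
  have hval : ∀ (c : S → ℂ) (t : κ × Fin n), (∑ s, c s * u t s 0 ≠ 0) ↔
      (cl f (fun x => ∑ s, c s * h s x) ≠ 0 ∧
        GoodAt C W (Lk.q t.1 t.2) (cl f (fun x => ∑ s, c s * h s x))) := by
    intro c t
    obtain ⟨w, hw1, hw2, hw3⟩ := sec Lk hW (hholc c) (hcomb c) t.1 t.2
    rw [← hw3]
    have hall : ∀ᶠ q in 𝓝 (0 : ℂ × ℂ), ∀ s, h s (M.ch t.1 t.2 q) =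
        q.1 ^ al Lk W t.1 t.2 * q.2 ^ be Lk W t.1 t.2 * u t s q :=
      eventually_all.2 fun s => hu2 t s
    have heq : ∀ᶠ q in 𝓝 (0 : ℂ × ℂ), q.1 ≠ 0 → q.2 ≠ 0 → w q = ∑ s, c s * u t s q := by
      filter_upwards [hall, hw2] with q e1 e2 e3 e4
      have e5 : q.1 ^ al Lk W t.1 t.2 * q.2 ^ be Lk W t.1 t.2 ≠ 0 :=
        mul_ne_zero (pow_ne_zero _ e3) (pow_ne_zero _ e4)
      apply mul_left_cancel₀ e5
      rw [← e2, Finset.mul_sum]
      refine Finset.sum_congr rfl fun s _ => ?_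
      rw [e1 s]
      ring
    have hlim : Tendsto (fun t : ℂ => ((t, t) : ℂ × ℂ)) (𝓝[≠] 0) (𝓝 0) :=
      ((continuous_id.prodMk continuous_id).tendsto (0 : ℂ)).mono_left nhdsWithin_le_nhds
    have h1 : Tendsto (fun t : ℂ => w (t, t)) (𝓝[≠] 0) (𝓝 (w 0)) :=
      hw1.continuousAt.tendsto.comp hlim
    have h2 : Tendsto (fun r : ℂ => ∑ s, c s * u t s (r, r)) (𝓝[≠] 0) (𝓝 (∑ s, c s * u t s 0)) :=
      tendsto_finsetSum _ fun s _ => ((hu1 t s).continuousAt.tendsto.comp hlim).const_mul _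
    have h3 : w 0 = ∑ s, c s * u t s 0 := by
      refine tendsto_nhds_unique h1 (h2.congr' ?_)
      filter_upwards [hlim.eventually heq, self_mem_nhdsWithin] with r e1 e2
      exact (e1 e2 e2).symm
    rw [h3]
  have hmain := fin_main (E := Fin 3 → ℂ) (S := S) (I := κ × Fin n) (J := I) (V := {x | f x = 0})
    (Φ := fun t => M.ch t.1 t.2) (fun r hr => ?_) (α := fun t => al Lk W t.1 t.2)
    (β := fun t => be Lk W t.1 t.2) (h := h) (u := u) (fun t s => (hu1 t s).continuousAt) hu2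
    (fun t => ?_) (fun t => (Lk.q t.1 t.2).1) (fun c j => ?_)
  · obtain ⟨c, c', -, h2, h3⟩ := hmain
    refine ⟨fun x => ∑ s, c s * h s x, fun x => ∑ s, c' s * h s x, hholc c, hholc c', hcomb c,
      hcomb c', ?_, ?_⟩
    · intro g m N hg hm hgv
      by_cases h0 : cl f g = 0
      · obtain ⟨K', r, hr, hb⟩ := h2 g m N (fun t => N * al Lk W t.1 t.2)
          (fun t => N * be Lk W t.1 t.2) (fun t => ⟨0, by
            filter_upwards [Lk.zero g hg h0 t.1 t.2] with q e1
            rw [e1, norm_zero, zero_mul]⟩)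
          (fun t => Nat.le_mul_of_pos_left _ hm) (fun t => Nat.le_mul_of_pos_left _ hm)
        exact ⟨K', r, hr, fun x hx hx0 hxr => hb x hx hx0 hxr⟩
      · have hgv' := hgv.resolve_left h0
        have hord := fun t : κ × Fin n => Lk.ord g hg h0 t.1 t.2
        choose α β δ ug gg hα hβ hδ hug hgg hgg0 hch hugg using hord
        have hA : ∀ t : κ × Fin n, N * al Lk W t.1 t.2 ≤ m * α t := by
          intro t
          have e1 := al_cast Lk hW t.1 t.2
          have e2 := (hgv' (Lk.q t.1 t.2).1).2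
          have e3 : (0 : ℤ) ≤ Lk.ka t.1 t.2 := Int.natCast_nonneg _
          have e4 := mul_le_mul_of_nonneg_left e2 e3
          have e5 : ((N * al Lk W t.1 t.2 : ℕ) : ℤ) ≤ ((m * α t : ℕ) : ℤ) := by
            push_cast
            rw [e1, hα t]
            linarith
          exact_mod_cast e5
        have hB' : ∀ t : κ × Fin n, N * be Lk W t.1 t.2 ≤ m * β t := by
          intro t
          have e1 := be_cast Lk hW t.1 t.2
          have e3 : (0 : ℤ) ≤ C.e2 (Lk.q t.1 t.2) := (C.e2_pos _).le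
          have e2 : (N : ℤ) * C.y W (Lk.q t.1 t.2) ≤
              m * C.y (fun j => C.vR j (cl f g)) (Lk.q t.1 t.2) := by
            rw [CModel.y, CModel.y]
            rcases C.nb (Lk.q t.1 t.2) with _ | p'
            · simp
            · exact (hgv' _).2
          have e4 := mul_le_mul_of_nonneg_left e2 e3
          have e5 : ((N * be Lk W t.1 t.2 : ℕ) : ℤ) ≤ ((m * β t : ℕ) : ℤ) := by
            push_cast
            rw [e1, hβ t]
            linarith
          exact_mod_cast e5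
        obtain ⟨K', r, hr, hb⟩ := h2 g m N α β (fun t => ⟨‖ug t 0‖ + 1, by
            have h4 : ∀ᶠ q in 𝓝 (0 : ℂ × ℂ), ‖ug t q‖ < ‖ug t 0‖ + 1 :=
              (hug t).continuousAt.norm.eventually_lt continuousAt_const (by linarith)
            filter_upwards [hch t, h4] with q e1 e2
            rw [e1, norm_mul, norm_mul, norm_pow, norm_pow, mul_comm]
            gcongr⟩) hA hB'
        exact ⟨K', r, hr, fun x hx hx0 hxr => hb x hx hx0 hxr⟩
    · have hax : ∀ t : κ × Fin n, 0 < al Lk W t.1 t.2 →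
          ∀ᶠ q in 𝓝 (0 : ℂ × ℂ), q.1 = 0 → M.ch t.1 t.2 q = 0 := by
        intro t _
        have h4 := ch_axis Lk t.1 t.2
        have h5 : Tendsto (fun q : ℂ × ℂ => q.2) (𝓝 0) (𝓝 0) := continuous_snd.tendsto (0 : ℂ × ℂ)
        filter_upwards [h5.eventually h4] with q e1 e2
        have e3 : q = (0, q.2) := Prod.ext e2 rfl
        rw [e3]
        exact e1
      have hbx : ∀ t : κ × Fin n, 0 < be Lk W t.1 t.2 →
          ∀ᶠ q in 𝓝 (0 : ℂ × ℂ), q.2 = 0 → M.ch t.1 t.2 q = 0 := by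
        intro t ht
        -- the coordinates vanish along the second axis
        have hn : C.nb (Lk.q t.1 t.2) ≠ none := by
          intro hn
          have e1 := be_cast Lk hW t.1 t.2
          rw [CModel.y, hn] at e1
          simp only [Option.elim_none, mul_zero] at e1
          omega
        obtain ⟨p', hp'⟩ := Option.ne_none_iff_exists'.1 hn
        have hco : ∀ k : Fin 3, ∀ᶠ q in 𝓝 (0 : ℂ × ℂ), q.2 = 0 → M.ch t.1 t.2 q k = 0 := by
          intro k
          have hX : Hol (fun x : Fin 3 → ℂ => x k) :=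
            (ContinuousLinearMap.proj (R := ℂ) (φ := fun _ : Fin 3 => ℂ) k).analyticAt 0
          by_cases h0 : cl f (fun x => x k) = 0
          · filter_upwards [Lk.zero _ hX h0 t.1 t.2] with q e1 _
            exact e1
          · obtain ⟨α, β, δ, u, g, hα, hβ, hδ, hu, hg, hg0, hch, hug⟩ := Lk.ord _ hX h0 t.1 t.2
            have hβ0 : β ≠ 0 := by
              rintro rfl
              have e1 := vpos Lk hX rfl h0 p'.1
              have e2 := C.e2_pos (Lk.q t.1 t.2)
              rw [CModel.y, hp'] at hβ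
              simp only [Option.elim_some] at hβ
              have e3 : (0 : ℤ) < C.e2 (Lk.q t.1 t.2) * C.vR p'.1 (cl f fun x => x k) :=
                mul_pos e2 (by omega)
              rw [← hβ] at e3
              exact lt_irrefl _ e3
            filter_upwards [hch] with q e1 e2
            rw [e1, e2, zero_pow hβ0]
            ring
        filter_upwards [eventually_all.2 hco] with q e1 e2
        funext k
        exact e1 k e2
      obtain ⟨r, hr, hb⟩ := h3 hax hbx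
      exact ⟨r, hr, fun x hx hxr h4 h5 => hb x hx hxr h4 h5⟩
  · obtain ⟨F, δ, hδ, hF⟩ := M.covers (fun i l => r (i, l)) (fun i l => hr (i, l))
    refine ⟨F ×ˢ Finset.univ, δ, hδ, fun x hx hx0 hxδ => ?_⟩
    obtain ⟨i, hi, l, q, hq, hqx⟩ := hF x hx0 hxδ hx
    exact ⟨(i, l), Finset.mem_product.2 ⟨hi, Finset.mem_univ _⟩, q, hq, hqx⟩
  · by_cases hbad : t ∈ B
    · refine ⟨Sum.inr ⟨t, hbad⟩, ?_⟩
      rw [hu3]
      exact ⟨hH2 _, hH4 _⟩
    · refine ⟨Sum.inl (Lk.q t.1 t.2).1, ?_⟩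
      rw [hu3]
      refine ⟨hH2 _, ?_⟩
      by_contra hcon
      apply hbad
      rw [hB, Finset.mem_biUnion]
      exact ⟨(Lk.q t.1 t.2).1, Finset.mem_univ _, by
        rw [Set.Finite.mem_toFinset]
        exact ⟨rfl, hcon⟩⟩
  · by_cases h0 : cl f (fun x => ∑ s, c s * h s x) = 0
    · left
      intro t _
      by_contra h1
      exact ((hval c t).1 h1).1 h0
    · by_cases h1 : C.vR j (cl f (fun x => ∑ s, c s * h s x)) = W j
      · right
        have h2 := finite_bad C h0 h1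
        refine ((h2.biUnion fun p _ => Lk.q_fin p)).subset ?_
        rintro t ⟨ht1, ht2⟩
        simp only [mem_iUnion]
        refine ⟨Lk.q t.1 t.2, ⟨ht1, fun h3 => ?_⟩, rfl⟩
        exact (hval c t).2 ⟨h0, h3⟩ ht2
      · left
        intro t ht
        by_contra h2
        apply h1
        have h3 := ((hval c t).1 h2).2.1
        rw [← ht]
        exact h3

end Vale.Agent.P298.H983
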